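import Vale.Agent.Lib.P078.Defs

/-!
# P078: basic facts on projections and partitions
-/

namespace Vale.Agent.Lib.P078

open scoped InnerProductSpace

variable {H : Type*} [NormedAddCommGroup H] [InnerProductSpace ℂ H] [CompleteSpace H]

lemma inner_self_ofReal (v : H) : ⟪v, v⟫_ℂ = ((‖v‖ ^ 2 : ℝ) : ℂ) := by
  rw [inner_self_eq_norm_sq_to_K]
  norm_cast

lemma sa_inner {p : H →L[ℂ] H} (hp : IsSelfAdjoint p) (u v : H) :
    ⟪p u, v⟫_ℂ = ⟪u, p v⟫_ℂ := by
  have h := ContinuousLinearMap.adjoint_inner_left p v u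
  rw [← ContinuousLinearMap.star_eq_adjoint, hp.star_eq] at h
  exact h

lemma proj_apply_apply {p : H →L[ℂ] H} (hp : IsStarProjection p) (u : H) : p (p u) = p u := by
  have h := hp.isIdempotentElem.eq
  exact congrArg (fun T : H →L[ℂ] H => T u) h

lemma proj_inner_left {p : H →L[ℂ] H} (hp : IsStarProjection p) (u v : H) :
    ⟪p u, v⟫_ℂ = ⟪p u, p v⟫_ℂ := by
  rw [← sa_inner hp.isSelfAdjoint, proj_apply_apply hp]

lemma proj_inner_right {p : H →L[ℂ] H} (hp : IsStarProjection p) (u v : H) :
    ⟪u, p v⟫_ℂ = ⟪p u, p v⟫_ℂ := by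
  rw [sa_inner hp.isSelfAdjoint, proj_apply_apply hp]

lemma proj_norm_le {p : H →L[ℂ] H} (hp : IsStarProjection p) (u : H) : ‖p u‖ ≤ ‖u‖ := by
  have h1 : ‖p‖ ≤ 1 := IsStarProjection.norm_le p hp
  calc ‖p u‖ ≤ ‖p‖ * ‖u‖ := p.le_opNorm u
    _ ≤ 1 * ‖u‖ := by gcongr
    _ = ‖u‖ := one_mul _

section Partition

variable {A : StarSubalgebra ℂ (H →L[ℂ] H)} {ι : Type*} [Fintype ι] {f : ι → H →L[ℂ] H}

lemma IsPartition.sum_apply (hf : IsPartition A f) (v : H) : ∑ i, f i v = v := by
  have h := congrArg (fun T : H →L[ℂ] H => T v) hf.sum_eq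
  simpa using h

lemma IsPartition.apply_apply_of_ne (hf : IsPartition A f) {i j : ι} (hij : i ≠ j) (v : H) :
    f i (f j v) = 0 := by
  have h := congrArg (fun T : H →L[ℂ] H => T v) (hf.orth i j hij)
  simpa using h

lemma IsPartition.inner_of_ne (hf : IsPartition A f) {i j : ι} (hij : i ≠ j) (u v : H) :
    ⟪f i u, f j v⟫_ℂ = 0 := by
  rw [sa_inner (hf.proj i).isSelfAdjoint, hf.apply_apply_of_ne hij, inner_zero_right]

/-- Pythagoras for vectors in the ranges of the pieces. -/
lemma IsPartition.norm_sq_sum (hf : IsPartition A f) (w : ι → H) :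
    ‖∑ i, f i (w i)‖ ^ 2 = ∑ i, ‖f i (w i)‖ ^ 2 := by
  classical
  have h : ⟪∑ i, f i (w i), ∑ i, f i (w i)⟫_ℂ = ∑ i, ⟪f i (w i), f i (w i)⟫_ℂ := by
    rw [sum_inner]
    refine Finset.sum_congr rfl fun i _ => ?_
    rw [inner_sum]
    rw [Finset.sum_eq_single i]
    · intro j _ hj
      exact hf.inner_of_ne (Ne.symm hj) _ _
    · intro hi
      exact absurd (Finset.mem_univ i) hi
  have h2 := congrArg Complex.re h
  simp only [inner_self_eq_norm_sq_to_K, Complex.re_sum] at h2
  have h3 : ∀ v : H, (((‖v‖ : ℂ)) ^ 2).re = ‖v‖ ^ 2 := by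
    intro v
    rw [← Complex.ofReal_pow, Complex.ofReal_re]
  simpa [h3] using h2

lemma IsPartition.parseval (hf : IsPartition A f) (v : H) : ∑ i, ‖f i v‖ ^ 2 = ‖v‖ ^ 2 := by
  rw [← hf.norm_sq_sum (fun _ => v), hf.sum_apply]

/-- Pinchings are contractive. -/
lemma IsPartition.norm_pinching_le (hf : IsPartition A f) (x : H →L[ℂ] H) :
    ‖pinching f x‖ ≤ ‖x‖ := by
  refine ContinuousLinearMap.opNorm_le_bound _ (norm_nonneg _) fun v => ?_
  have h1 : pinching f x v = ∑ i, f i (x (f i v)) := by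
    simp [pinching]
  have h2 : ‖pinching f x v‖ ^ 2 ≤ (‖x‖ * ‖v‖) ^ 2 := by
    rw [h1, hf.norm_sq_sum (fun i => x (f i v))]
    calc ∑ i, ‖f i (x (f i v))‖ ^ 2 ≤ ∑ i, (‖x‖ * ‖f i v‖) ^ 2 := by
          refine Finset.sum_le_sum fun i _ => ?_
          have : ‖f i (x (f i v))‖ ≤ ‖x‖ * ‖f i v‖ :=
            (proj_norm_le (hf.proj i) _).trans (x.le_opNorm _)
          gcongr
      _ = ‖x‖ ^ 2 * ∑ i, ‖f i v‖ ^ 2 := by
          rw [Finset.mul_sum]
          exact Finset.sum_congr rfl fun i _ => mul_pow _ _ _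
      _ = (‖x‖ * ‖v‖) ^ 2 := by rw [hf.parseval, mul_pow]
  exact abs_le_of_sq_le_sq' h2 (by positivity) |>.2

/-- A real diagonal operator with respect to a partition has norm at most the largest entry. -/
lemma IsPartition.norm_diag_le (hf : IsPartition A f) (d : ι → ℂ) {C : ℝ} (hC : 0 ≤ C)
    (hd : ∀ i, ‖d i‖ ≤ C) : ‖∑ i, d i • f i‖ ≤ C := by
  refine ContinuousLinearMap.opNorm_le_bound _ hC fun v => ?_
  have h1 : (∑ i, d i • f i) v = ∑ i, f i (d i • v) := by
    simp
  have h2 : ‖(∑ i, d i • f i) v‖ ^ 2 ≤ (C * ‖v‖) ^ 2 := by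
    rw [h1, hf.norm_sq_sum (fun i => d i • v)]
    calc ∑ i, ‖f i (d i • v)‖ ^ 2 ≤ ∑ i, (C * ‖f i v‖) ^ 2 := by
          refine Finset.sum_le_sum fun i _ => ?_
          have : ‖f i (d i • v)‖ ≤ C * ‖f i v‖ := by
            rw [map_smul, norm_smul]
            exact mul_le_mul_of_nonneg_right (hd i) (norm_nonneg _)
          gcongr
      _ = C ^ 2 * ∑ i, ‖f i v‖ ^ 2 := by
          rw [Finset.mul_sum]
          exact Finset.sum_congr rfl fun i _ => mul_pow _ _ _
      _ = (C * ‖v‖) ^ 2 := by rw [hf.parseval, mul_pow]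
  exact abs_le_of_sq_le_sq' h2 (by positivity) |>.2

lemma IsPartition.mul_eq [DecidableEq ι] (hf : IsPartition A f) (i j : ι) :
    f i * f j = if i = j then f i else 0 := by
  split_ifs with h
  · subst h
    exact (hf.proj i).isIdempotentElem.eq
  · exact hf.orth i j h

/-- The common refinement of two partitions of a commutative algebra. -/
lemma IsPartition.prod (hA : ∀ a ∈ A, ∀ b ∈ A, a * b = b * a) {κ : Type*} [Fintype κ]
    {g : κ → H →L[ℂ] H} (hf : IsPartition A f) (hg : IsPartition A g) :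
    IsPartition A (fun t : ι × κ => f t.1 * g t.2) where
  mem t := A.mul_mem (hf.mem _) (hg.mem _)
  proj t := (hf.proj _).mul (hg.proj _) (hA _ (hf.mem _) _ (hg.mem _))
  orth := by
    rintro ⟨i, j⟩ ⟨i', j'⟩ h
    have h1 : f i * g j * (f i' * g j') = (f i * f i') * (g j * g j') := by
      rw [mul_assoc, ← mul_assoc (g j), hA _ (hg.mem j) _ (hf.mem i'), mul_assoc, ← mul_assoc]
    show f i * g j * (f i' * g j') = 0
    rw [h1]
    by_cases hi : i = i'
    · have hj : j ≠ j' := by
        rintro rfl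
        exact h (by rw [hi])
      rw [hg.orth j j' hj, mul_zero]
    · rw [hf.orth i i' hi, zero_mul]
  sum_eq := by
    rw [Fintype.sum_prod_type]
    simp only [← Finset.mul_sum, hg.sum_eq, mul_one, hf.sum_eq]

/-- Merging the pieces of a partition according to a colouring. -/
noncomputable def coarsen {κ : Type*} [DecidableEq κ] (f : ι → H →L[ℂ] H) (col : ι → κ) (c : κ) :
    H →L[ℂ] H :=
  ∑ t, if col t = c then f t else 0

lemma IsPartition.coarsen_mul {κ : Type*} [DecidableEq κ] (hf : IsPartition A f) (col : ι → κ)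
    (c c' : κ) :
    coarsen f col c * coarsen f col c' = if c = c' then coarsen f col c else 0 := by
  classical
  unfold coarsen
  rw [Finset.sum_mul_sum]
  have h1 : ∀ t : ι, ∑ s, (if col t = c then f t else 0) * (if col s = c' then f s else 0)
      = if c = c' then (if col t = c then f t else 0) else 0 := by
    intro t
    rw [Finset.sum_eq_single t]
    · by_cases h1 : col t = c
      · by_cases h2 : c = c'
        · subst h2
          simp [h1, (hf.proj t).isIdempotentElem.eq]
        · simp [h1, h2]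
      · simp [h1]
    · intro s _ hs
      by_cases h1 : col t = c <;> by_cases h2 : col s = c' <;>
        simp [h1, h2, hf.orth t s (Ne.symm hs)]
    · intro h
      exact absurd (Finset.mem_univ t) h
  rw [Finset.sum_congr rfl fun t _ => h1 t]
  split_ifs with h
  · rfl
  · simp

lemma IsPartition.coarsen {κ : Type*} [Fintype κ] [DecidableEq κ] (hf : IsPartition A f)
    (col : ι → κ) : IsPartition A (coarsen f col) where
  mem c := by
    unfold Vale.Agent.Lib.P078.coarsen
    refine A.sum_mem fun t _ => ?_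
    split_ifs
    · exact hf.mem t
    · exact A.zero_mem
  proj c := by
    refine ⟨?_, ?_⟩
    · have := hf.coarsen_mul col c c
      rw [if_pos rfl] at this
      exact this
    · unfold Vale.Agent.Lib.P078.coarsen
      refine isSelfAdjoint_sum _ fun t _ => ?_
      split_ifs
      · exact (hf.proj t).isSelfAdjoint
      · exact IsSelfAdjoint.zero _
  orth c c' h := by
    rw [hf.coarsen_mul col c c', if_neg h]
  sum_eq := by
    unfold Vale.Agent.Lib.P078.coarsen
    rw [Finset.sum_comm]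
    simp [hf.sum_eq]

lemma pinching_coarsen {κ : Type*} [Fintype κ] [DecidableEq κ] (f : ι → H →L[ℂ] H)
    (col : ι → κ) (x : H →L[ℂ] H) :
    pinching (coarsen f col) x = ∑ s, ∑ t, if col s = col t then f s * x * f t else 0 := by
  classical
  unfold pinching coarsen
  have h1 : ∀ c : κ, (∑ s, if col s = c then f s else 0) * x * (∑ t, if col t = c then f t else 0)
      = ∑ s, ∑ t, if col s = c ∧ col t = c then f s * x * f t else 0 := by
    intro c
    rw [Finset.sum_mul, Finset.sum_mul_sum]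
    refine Finset.sum_congr rfl fun s _ => Finset.sum_congr rfl fun t _ => ?_
    by_cases h1 : col s = c <;> by_cases h2 : col t = c <;> simp [h1, h2]
  rw [Finset.sum_congr rfl fun c _ => h1 c, Finset.sum_comm]
  refine Finset.sum_congr rfl fun s _ => ?_
  rw [Finset.sum_comm]
  refine Finset.sum_congr rfl fun t _ => ?_
  rw [Finset.sum_eq_single (col s)]
  · by_cases h : col s = col t
    · simp [h]
    · have h' : ¬ col t = col s := fun h2 => h h2.symm
      simp [h, h']
  · intro c _ hc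
    have : ¬ (col s = c ∧ col t = c) := fun h => hc h.1.symm
    simp [this]
  · intro h
    exact absurd (Finset.mem_univ _) h

end Partition

end Vale.Agent.Lib.P078
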