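import Vale.Agent.Lib.P078.Rotation

/-!
# P078 (subtask T4b): so-pavability at the boundary value `ε = 1 / r`

Blueprint.  Given `F`, `δ`: take `ξ₀` from `hloc F`, a partition `e` (index `I`, `N = card I`) from `exists_coarse'`
with all `ξ ∈ F` within `δ / 2` of `stepSpace e ξ₀`, `q = stepProj e ξ₀`.  Pick `θ ∈ (0, 1)` with
`2 θ ‖ξ‖ < δ / 2` on `F`.  With `u, d` from `exists_rotation` (tolerance `η`) put `V = cos θ • 1 + (i sin θ) • u`: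
`V ∈ A`, `star V * V = V * star V = 1`, `‖V - 1‖ ≤ 2 θ`, and
`x' := star V * x * V = cos^2 θ • x + sin^2 θ • (u x u) + (i sin θ cos θ) • (x u - u x)`, self-adjoint, `‖x'‖ ≤ ‖x‖`,
so `‖q (x' - cos^2 θ • x - sin^2 θ • d) q‖ ≤ 2 η ‖x‖`.
Apply `exists_coloring_compress` to `x'` (tolerance `τ`): a colouring `col` of `f t = e t.1 * g t.2` with
`‖q (pinching p x' - (1 - 1/r) • diagOp f x' ξ₀ - (1/r) • x') q‖ ≤ 2 N^3 τ ‖x'‖`, `p = coarsen f col`.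
Take `a = (1 - 1/r) • diagOp f x' ξ₀ + (sin^2 θ / r) • d` (`‖a‖ ≤ ‖x‖`) and `q' = V * q * star V`.
Since `V` commutes with `p c` and `a`: `q' (pinching p x - a) q' = V (q (pinching p x' - a) q) star V`, and
`q (pinching p x' - a) q = q W q + (1/r) q (x' - cos^2 θ x - sin^2 θ d) q + (cos^2 θ / r) q x q`, of norm
`≤ (2 N^3 τ + 2 η / r + cos^2 θ / r) ‖x‖ ≤ ‖x‖ / r` once `2 N^3 τ r + 2 η ≤ sin^2 θ`.
Finally `‖(1 - q') ξ‖ = ‖(1 - q) (star V ξ)‖ ≤ ‖(1 - q) ξ‖ + ‖V - 1‖ ‖ξ‖ < δ` (`norm_one_sub_stepProj_le`).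
-/

set_option linter.unusedSectionVars false

namespace Vale.Agent.Lib.P078

variable {H : Type*} [NormedAddCommGroup H] [InnerProductSpace ℂ H] [CompleteSpace H]
variable {A : StarSubalgebra ℂ (H →L[ℂ] H)}

lemma norm_le_one_of_star_mul_self {V : H →L[ℂ] H} (h : star V * V = 1) : ‖V‖ ≤ 1 := by
  have h1 : ‖V‖ * ‖V‖ = ‖(1 : H →L[ℂ] H)‖ := by rw [← h, CStarRing.norm_star_mul_self]
  have h2 : ‖(1 : H →L[ℂ] H)‖ ≤ 1 := ContinuousLinearMap.norm_id_le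
  nlinarith [norm_nonneg V]

/-- The rotation `c + i s u`. -/
noncomputable def rot (c s : ℝ) (u : H →L[ℂ] H) : H →L[ℂ] H :=
  (c : ℂ) • 1 + (Complex.I * (s : ℂ)) • u

lemma star_rot (c s : ℝ) {u : H →L[ℂ] H} (hu : IsSelfAdjoint u) :
    star (rot c s u) = (c : ℂ) • 1 - (Complex.I * (s : ℂ)) • u := by
  unfold rot
  rw [star_add, star_smul, star_smul, hu.star_eq, star_one]
  simp [sub_eq_add_neg]

lemma rot_mem (c s : ℝ) {u : H →L[ℂ] H} (hu : u ∈ A) : rot c s u ∈ A :=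
  A.add_mem (A.smul_mem A.one_mem _) (A.smul_mem hu _)

lemma star_rot_mul_rot {c s : ℝ} (hcs : c ^ 2 + s ^ 2 = 1) {u : H →L[ℂ] H} (hu : IsSelfAdjoint u)
    (huu : u * u = 1) : star (rot c s u) * rot c s u = 1 := by
  have hcs' : (c : ℂ) ^ 2 + (s : ℂ) ^ 2 = 1 := by exact_mod_cast hcs
  rw [star_rot c s hu]
  unfold rot
  simp only [mul_add, sub_mul, smul_mul_assoc, mul_smul_comm, one_mul, mul_one, huu]
  have hI : Complex.I * Complex.I = -1 := Complex.I_mul_I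
  linear_combination (norm := skip) hcs' • (1 : H →L[ℂ] H) - (((s:ℂ)^2) * hI) • (1 : H →L[ℂ] H)
  module

lemma rot_mul_star_rot {c s : ℝ} (hcs : c ^ 2 + s ^ 2 = 1) {u : H →L[ℂ] H} (hu : IsSelfAdjoint u)
    (huu : u * u = 1) : rot c s u * star (rot c s u) = 1 := by
  have hcs' : (c : ℂ) ^ 2 + (s : ℂ) ^ 2 = 1 := by exact_mod_cast hcs
  rw [star_rot c s hu]
  unfold rot
  simp only [add_mul, mul_sub, smul_mul_assoc, mul_smul_comm, one_mul, mul_one, huu]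
  have hI : Complex.I * Complex.I = -1 := Complex.I_mul_I
  linear_combination (norm := skip) hcs' • (1 : H →L[ℂ] H) - (((s:ℂ)^2) * hI) • (1 : H →L[ℂ] H)
  module

lemma star_rot_mul_mul_rot (c s : ℝ) {u : H →L[ℂ] H} (hu : IsSelfAdjoint u) (x : H →L[ℂ] H) :
    star (rot c s u) * x * rot c s u
      = ((c ^ 2 : ℝ) : ℂ) • x + ((s ^ 2 : ℝ) : ℂ) • (u * x * u)
        + (Complex.I * ((s * c : ℝ) : ℂ)) • (x * u - u * x) := by
  rw [star_rot c s hu]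
  unfold rot
  simp only [mul_add, sub_mul, smul_mul_assoc, mul_smul_comm, one_mul, mul_one, smul_smul,
    smul_sub]
  have hI : Complex.I * Complex.I = -1 := Complex.I_mul_I
  push_cast
  linear_combination (norm := skip) (-((s:ℂ)^2) * hI) • (u * x * u)
  module

lemma norm_star_rot_sub_one_le {c s : ℝ} (hcs : c ^ 2 + s ^ 2 = 1) (hc : 0 ≤ c) (hs : 0 ≤ s)
    {u : H →L[ℂ] H} (hu : IsSelfAdjoint u) (huu : u * u = 1) :
    ‖star (rot c s u) - 1‖ ≤ 2 * s := by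
  have hu1 : ‖u‖ ≤ 1 := norm_le_one_of_star_mul_self (by rw [hu.star_eq, huu])
  have h1 : ‖(1 : H →L[ℂ] H)‖ ≤ 1 := ContinuousLinearMap.norm_id_le
  have hc1 : c ≤ 1 := by nlinarith
  have hs1 : s ≤ 1 := by nlinarith
  have hcs2 : 1 - c ≤ s := by nlinarith
  have h2 : star (rot c s u) - 1 = ((c - 1 : ℝ) : ℂ) • (1 : H →L[ℂ] H) - (Complex.I * (s : ℂ)) • u := by
    rw [star_rot c s hu]
    push_cast
    module
  rw [h2]
  calc ‖((c - 1 : ℝ) : ℂ) • (1 : H →L[ℂ] H) - (Complex.I * (s : ℂ)) • u‖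
      ≤ ‖((c - 1 : ℝ) : ℂ) • (1 : H →L[ℂ] H)‖ + ‖(Complex.I * (s : ℂ)) • u‖ := norm_sub_le _ _
    _ = (1 - c) * ‖(1 : H →L[ℂ] H)‖ + s * ‖u‖ := by
        rw [norm_smul, norm_smul, Complex.norm_real, norm_mul, Complex.norm_I, Complex.norm_real,
          Real.norm_eq_abs, Real.norm_eq_abs, abs_of_nonneg hs, abs_of_nonpos (by linarith)]
        ring
    _ ≤ (1 - c) * 1 + s * 1 := by
        have : 0 ≤ 1 - c := by linarith
        gcongr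
    _ ≤ 2 * s := by linarith

/-- Conjugating a compression of a pinching by a unitary of `A`. -/
lemma conj_compress {ι : Type*} [Fintype ι] (hA : ∀ a ∈ A, ∀ b ∈ A, a * b = b * a) {p : ι → H →L[ℂ] H}
    (hp : ∀ i, p i ∈ A) {V a : H →L[ℂ] H} (hV : V ∈ A) (ha : a ∈ A) (hVV : star V * V = 1)
    (x q : H →L[ℂ] H) :
    (V * q * star V) * (pinching p x - a) * (V * q * star V)
      = V * (q * (pinching p (star V * x * V) - a) * q) * star V := by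
  have hV' : star V ∈ A := star_mem hV
  have h1 : star V * (pinching p x - a) * V = pinching p (star V * x * V) - a := by
    rw [mul_sub, sub_mul]
    congr 1
    · unfold pinching
      rw [Finset.mul_sum, Finset.sum_mul]
      refine Finset.sum_congr rfl fun i _ => ?_
      calc star V * (p i * x * p i) * V = (star V * p i) * x * (p i * V) := by
            simp only [mul_assoc]
        _ = (p i * star V) * x * (V * p i) := by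
            rw [hA _ hV' _ (hp i), hA _ (hp i) _ hV]
        _ = p i * (star V * x * V) * p i := by simp only [mul_assoc]
    · rw [hA _ hV' _ ha, mul_assoc, hVV, mul_one]
  calc (V * q * star V) * (pinching p x - a) * (V * q * star V)
      = V * (q * (star V * (pinching p x - a) * V) * q) * star V := by simp only [mul_assoc]
    _ = _ := by rw [h1]


lemma norm_compress_le_of_proj {q : H →L[ℂ] H} (hq : IsStarProjection q) (x : H →L[ℂ] H) :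
    ‖q * x * q‖ ≤ ‖x‖ := by
  have hq1 : ‖q‖ ≤ 1 := IsStarProjection.norm_le q hq
  calc ‖q * x * q‖ ≤ ‖q * x‖ * ‖q‖ := norm_mul_le _ _
    _ ≤ (‖q‖ * ‖x‖) * ‖q‖ := by gcongr; exact norm_mul_le _ _
    _ ≤ (1 * ‖x‖) * 1 := by gcongr
    _ = ‖x‖ := by ring

/-- The paving estimate at the boundary value. -/
lemma norm_compress_boundary_le {q S D x x' d P Q : H →L[ℂ] H} (hq : IsStarProjection q)
    {ρ c s η κ : ℝ} (hρ0 : 0 ≤ ρ) (hc : 0 ≤ c) (hs : 0 ≤ s) (hcs : c ^ 2 + s ^ 2 = 1)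
    (hx' : x' = ((c ^ 2 : ℝ) : ℂ) • x + ((s ^ 2 : ℝ) : ℂ) • P
      + (Complex.I * ((s * c : ℝ) : ℂ)) • Q)
    (hW : ‖q * (S - ((1 - ρ : ℝ) : ℂ) • D - ((ρ : ℝ) : ℂ) • x') * q‖ ≤ κ * ‖x‖)
    (h1 : ‖q * (P - d) * q‖ ≤ η * ‖x‖) (h2 : ‖q * Q * q‖ ≤ η * ‖x‖)
    (hfin : κ + ρ * (c ^ 2 + 2 * η) ≤ ρ) :
    ‖q * (S - (((1 - ρ : ℝ) : ℂ) • D + ((ρ * s ^ 2 : ℝ) : ℂ) • d)) * q‖ ≤ ρ * ‖x‖ := by
  have hdecomp : q * (S - (((1 - ρ : ℝ) : ℂ) • D + ((ρ * s ^ 2 : ℝ) : ℂ) • d)) * q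
      = q * (S - ((1 - ρ : ℝ) : ℂ) • D - ((ρ : ℝ) : ℂ) • x') * q
        + ((ρ * c ^ 2 : ℝ) : ℂ) • (q * x * q) + ((ρ * s ^ 2 : ℝ) : ℂ) • (q * (P - d) * q)
        + (Complex.I * ((ρ * (s * c) : ℝ) : ℂ)) • (q * Q * q) := by
    rw [hx']
    simp only [mul_sub, sub_mul, mul_add, add_mul, mul_smul_comm, smul_mul_assoc, smul_add,
      smul_sub, smul_smul]
    push_cast
    module
  have hqxq : ‖q * x * q‖ ≤ ‖x‖ := norm_compress_le_of_proj hq x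
  have hs1 : s ^ 2 ≤ 1 := by nlinarith
  have hsc : s * c ≤ 1 := by nlinarith [sq_nonneg (s - c)]
  have hsc0 : 0 ≤ s * c := mul_nonneg hs hc
  have hX : 0 ≤ ‖x‖ := norm_nonneg x
  rw [hdecomp]
  have n2 : ‖((ρ * c ^ 2 : ℝ) : ℂ) • (q * x * q)‖ ≤ ρ * c ^ 2 * ‖x‖ := by
    rw [norm_smul, Complex.norm_real, Real.norm_eq_abs, abs_of_nonneg (by positivity)]
    gcongr
  have n3 : ‖((ρ * s ^ 2 : ℝ) : ℂ) • (q * (P - d) * q)‖ ≤ ρ * (η * ‖x‖) := by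
    rw [norm_smul, Complex.norm_real, Real.norm_eq_abs, abs_of_nonneg (by positivity)]
    calc ρ * s ^ 2 * ‖q * (P - d) * q‖ ≤ ρ * 1 * (η * ‖x‖) := by gcongr
      _ = ρ * (η * ‖x‖) := by ring
  have n4 : ‖(Complex.I * ((ρ * (s * c) : ℝ) : ℂ)) • (q * Q * q)‖ ≤ ρ * (η * ‖x‖) := by
    rw [norm_smul, norm_mul, Complex.norm_I, Complex.norm_real, Real.norm_eq_abs,
      abs_of_nonneg (by positivity), one_mul]
    calc ρ * (s * c) * ‖q * Q * q‖ ≤ ρ * 1 * (η * ‖x‖) := by gcongr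
      _ = ρ * (η * ‖x‖) := by ring
  calc _ ≤ ‖q * (S - ((1 - ρ : ℝ) : ℂ) • D - ((ρ : ℝ) : ℂ) • x') * q‖
        + ‖((ρ * c ^ 2 : ℝ) : ℂ) • (q * x * q)‖ + ‖((ρ * s ^ 2 : ℝ) : ℂ) • (q * (P - d) * q)‖
        + ‖(Complex.I * ((ρ * (s * c) : ℝ) : ℂ)) • (q * Q * q)‖ := norm_add₄_le
    _ ≤ κ * ‖x‖ + ρ * c ^ 2 * ‖x‖ + ρ * (η * ‖x‖) + ρ * (η * ‖x‖) := by gcongr
    _ = (κ + ρ * (c ^ 2 + 2 * η)) * ‖x‖ := by ring
    _ ≤ ρ * ‖x‖ := by gcongr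


lemma exists_small_tau (N ρ s : ℝ) (hN : 0 ≤ N) (hρ : 0 < ρ) (hs : 0 < s) :
    ∃ τ : ℝ, 0 < τ ∧ 2 * N ^ 3 * τ ≤ ρ * (s ^ 2 / 2) := by
  refine ⟨ρ * (s ^ 2 / 2) / (2 * N ^ 3 + 1), by positivity, ?_⟩
  have h0 : 0 < ρ * (s ^ 2 / 2) := by positivity
  have h1 : 0 < 2 * N ^ 3 + 1 := by positivity
  rw [← mul_div_assoc, div_le_iff₀ h1]
  nlinarith

/-- The paving data for a fixed coarse partition `e`: a unitary `V ∈ A` close to `1`, a partition `p`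
and a diagonal element `a`. -/
lemma exists_paving_of_partition (hA : ∀ a ∈ A, ∀ b ∈ A, a * b = b * a) {I : Type*} [Fintype I]
    {e : I → H →L[ℂ] H} (he : IsPartition A e) (ξ₀ : H)
    (hfine : ∀ τ : ℝ, 0 < τ → ∃ (ι : Type) (_ : Fintype ι) (g : ι → H →L[ℂ] H),
      IsPartition A g ∧ ∀ j, ‖g j ξ₀‖ ≤ τ)
    {x : H →L[ℂ] H} (hx : IsSelfAdjoint x) {r : ℕ} (hr : 0 < r) {c s : ℝ} (hc : 0 ≤ c)
    (hs : 0 < s) (hcs : c ^ 2 + s ^ 2 = 1) :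
    ∃ (V : H →L[ℂ] H) (p : Fin r → H →L[ℂ] H) (a : H →L[ℂ] H),
      star V * V = 1 ∧ V * star V = 1 ∧ ‖star V - 1‖ ≤ 2 * s ∧
      IsPartition A p ∧ a ∈ A ∧ IsSelfAdjoint a ∧ ‖a‖ ≤ ‖x‖ ∧
      ‖(V * stepProj e ξ₀ * star V) * (pinching p x - a) * (V * stepProj e ξ₀ * star V)‖
        ≤ 1 / (r : ℝ) * ‖x‖ := by
  classical
  have hr0 : (0 : ℝ) < r := by exact_mod_cast hr
  have hr1 : (1 : ℝ) ≤ r := by exact_mod_cast hr
  have hρ0 : (0 : ℝ) < 1 / (r : ℝ) := by positivity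
  have hρ1 : 1 / (r : ℝ) ≤ 1 := by
    rw [div_le_one hr0]
    exact hr1
  have hs1 : s ^ 2 ≤ 1 := by nlinarith
  obtain ⟨u, d, hu, husa, huu, hd, hdsa, hdn, h1, h2⟩ :=
    exists_rotation hA he ξ₀ hfine hx (η := s ^ 2 / 4) (by positivity)
  have hVV := star_rot_mul_rot hcs husa huu
  have hVV' := rot_mul_star_rot hcs husa huu
  have hVn := norm_star_rot_sub_one_le hcs hc hs.le husa huu
  have hVx := star_rot_mul_mul_rot c s husa x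
  have hVA : rot c s u ∈ A := rot_mem c s hu
  generalize rot c s u = V at hVV hVV' hVn hVx hVA
  have hV1 : ‖V‖ ≤ 1 := norm_le_one_of_star_mul_self hVV
  have hV1' : ‖star V‖ ≤ 1 := by rwa [norm_star]
  have hx'sa : IsSelfAdjoint (star V * x * V) := by
    rw [IsSelfAdjoint, star_mul, star_mul, star_star, hx.star_eq, mul_assoc]
  have hx'n : ‖star V * x * V‖ ≤ ‖x‖ := by
    calc ‖star V * x * V‖ ≤ ‖star V * x‖ * ‖V‖ := norm_mul_le _ _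
      _ ≤ (‖star V‖ * ‖x‖) * ‖V‖ := by gcongr; exact norm_mul_le _ _
      _ ≤ (1 * ‖x‖) * 1 := by gcongr
      _ = ‖x‖ := by ring
  generalize hx'def : star V * x * V = x' at hVx hx'sa hx'n
  obtain ⟨τ, hτ0, hτN⟩ :=
    exists_small_tau (Fintype.card I : ℝ) (1 / (r : ℝ)) s (by positivity) hρ0 hs
  have hΛ0 : 0 ≤ ∑ i, ‖e i ξ₀‖⁻¹ := Finset.sum_nonneg fun _ _ => by positivity
  obtain ⟨J, _, g, hg, hgτ⟩ := hfine (τ / ((∑ i, ‖e i ξ₀‖⁻¹) + 1)) (by positivity)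
  have hf : IsPartition A (fun t : I × J => e t.1 * g t.2) := he.prod hA hg
  obtain ⟨col, hcol⟩ := exists_coloring_compress hA he hg ξ₀ hx'sa hr hτ0.le hgτ
  have hDA := hf.diagOp_mem x' ξ₀
  have hDsa := hf.diagOp_isSelfAdjoint x' ξ₀
  have hDn := hf.norm_diagOp_le x' ξ₀
  have hp := hf.coarsen col
  generalize diagOp (fun t : I × J => e t.1 * g t.2) x' ξ₀ = D at hcol hDA hDsa hDn
  generalize coarsen (fun t : I × J => e t.1 * g t.2) col = p at hcol hp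
  have haA : ((1 - 1 / (r : ℝ) : ℝ) : ℂ) • D + ((1 / (r : ℝ) * s ^ 2 : ℝ) : ℂ) • d ∈ A :=
    A.add_mem (A.smul_mem hDA _) (A.smul_mem hd _)
  have hq := isStarProjection_stepProj he ξ₀
  generalize stepProj e ξ₀ = q at hcol h1 h2 hq
  refine ⟨V, p, ((1 - 1 / (r : ℝ) : ℝ) : ℂ) • D + ((1 / (r : ℝ) * s ^ 2 : ℝ) : ℂ) • d,
    hVV, hVV', hVn, hp, haA, ?_, ?_, ?_⟩
  · refine IsSelfAdjoint.add ?_ ?_
    · rw [IsSelfAdjoint, star_smul, hDsa.star_eq]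
      simp
    · rw [IsSelfAdjoint, star_smul, hdsa.star_eq]
      simp
  · calc ‖((1 - 1 / (r : ℝ) : ℝ) : ℂ) • D + ((1 / (r : ℝ) * s ^ 2 : ℝ) : ℂ) • d‖
        ≤ ‖((1 - 1 / (r : ℝ) : ℝ) : ℂ) • D‖ + ‖((1 / (r : ℝ) * s ^ 2 : ℝ) : ℂ) • d‖ :=
          norm_add_le _ _
      _ = (1 - 1 / (r : ℝ)) * ‖D‖ + (1 / (r : ℝ) * s ^ 2) * ‖d‖ := by
          rw [norm_smul, norm_smul, Complex.norm_real, Complex.norm_real, Real.norm_eq_abs,
            Real.norm_eq_abs, abs_of_nonneg (by linarith), abs_of_nonneg (by positivity)]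
      _ ≤ (1 - 1 / (r : ℝ)) * ‖x‖ + (1 / (r : ℝ) * 1) * ‖x‖ := by
          have h0 : 0 ≤ 1 - 1 / (r : ℝ) := by linarith
          have hDx : ‖D‖ ≤ ‖x‖ := hDn.trans hx'n
          gcongr
      _ = ‖x‖ := by ring
  · rw [conj_compress hA hp.mem hVA haA hVV x q, hx'def]
    have hkey : ‖q * (pinching p x' - (((1 - 1 / (r : ℝ) : ℝ) : ℂ) • D
        + ((1 / (r : ℝ) * s ^ 2 : ℝ) : ℂ) • d)) * q‖ ≤ 1 / (r : ℝ) * ‖x‖ := by
      refine norm_compress_boundary_le hq hρ0.le hc hs.le hcs (η := s ^ 2 / 4)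
        (κ := 2 * (Fintype.card I : ℝ) ^ 3 * τ) hVx ?_ h1 h2 ?_
      · refine hcol.trans ?_
        have : 0 ≤ 2 * (Fintype.card I : ℝ) ^ 3 * τ := by positivity
        gcongr
      · have hc2 : c ^ 2 = 1 - s ^ 2 := by linarith
        rw [hc2]
        nlinarith
    generalize q * (pinching p x' - (((1 - 1 / (r : ℝ) : ℝ) : ℂ) • D
        + ((1 / (r : ℝ) * s ^ 2 : ℝ) : ℂ) • d)) * q = Y at hkey
    calc ‖V * Y * star V‖ ≤ ‖V * Y‖ * ‖star V‖ := norm_mul_le _ _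
      _ ≤ (‖V‖ * ‖Y‖) * ‖star V‖ := by gcongr; exact norm_mul_le _ _
      _ ≤ (1 * ‖Y‖) * 1 := by gcongr
      _ = ‖Y‖ := by ring
      _ ≤ _ := hkey


lemma exists_small_s (F : Finset H) {δ : ℝ} (hδ : 0 < δ) :
    ∃ s : ℝ, 0 < s ∧ s ≤ 1 ∧ ∀ ξ ∈ F, 2 * s * ‖ξ‖ ≤ δ / 2 := by
  have hB0 : 0 ≤ ∑ ξ ∈ F, ‖ξ‖ := Finset.sum_nonneg fun _ _ => norm_nonneg _
  have hB : ∀ ξ ∈ F, ‖ξ‖ ≤ ∑ ξ ∈ F, ‖ξ‖ := fun ξ hξ =>
    Finset.single_le_sum (f := fun ξ : H => ‖ξ‖) (fun _ _ => norm_nonneg _) hξ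
  generalize ∑ ξ ∈ F, ‖ξ‖ = B at hB0 hB
  refine ⟨min 1 (δ / (4 * (B + 1))), lt_min one_pos (by positivity), min_le_left _ _, ?_⟩
  intro ξ hξ
  have h1 : min 1 (δ / (4 * (B + 1))) ≤ δ / (4 * (B + 1)) := min_le_right _ _
  have h2 : 0 ≤ δ / (4 * (B + 1)) := by positivity
  calc 2 * min 1 (δ / (4 * (B + 1))) * ‖ξ‖ ≤ 2 * (δ / (4 * (B + 1))) * (B + 1) := by
        have := hB ξ hξ
        have h3 : ‖ξ‖ ≤ B + 1 := by linarith
        gcongr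
    _ = δ / 2 := by
        field_simp
        ring

lemma isStarProjection_conj {V q : H →L[ℂ] H} (hVV : star V * V = 1) (hq : IsStarProjection q) :
    IsStarProjection (V * q * star V) := by
  refine ⟨?_, ?_⟩
  · show V * q * star V * (V * q * star V) = V * q * star V
    calc V * q * star V * (V * q * star V) = V * q * (star V * V) * q * star V := by
          simp only [mul_assoc]
      _ = V * (q * q) * star V := by rw [hVV]; simp only [mul_assoc, mul_one]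
      _ = V * q * star V := by rw [hq.isIdempotentElem.eq]
  · rw [IsSelfAdjoint, star_mul, star_mul, star_star, hq.isSelfAdjoint.star_eq, mul_assoc]

lemma norm_one_sub_conj_apply_le {V q : H →L[ℂ] H} (hVV : star V * V = 1) (hVV' : V * star V = 1)
    (hq : IsStarProjection q) (ξ : H) :
    ‖(1 - V * q * star V) ξ‖ ≤ ‖(1 - q) ξ‖ + ‖star V - 1‖ * ‖ξ‖ := by
  have hV1 : ‖V‖ ≤ 1 := norm_le_one_of_star_mul_self hVV
  have h1 : 1 - V * q * star V = V * (1 - q) * star V := by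
    rw [mul_sub, sub_mul, mul_one, hVV']
  have h2 : (V * (1 - q) * star V) ξ = V ((1 - q) ξ + (1 - q) ((star V - 1) ξ)) := by
    have h3 : (1 - q) ξ + (1 - q) ((star V - 1) ξ) = (1 - q) (star V ξ) := by
      rw [← map_add]
      congr 1
      simp
    rw [h3]
    rfl
  rw [h1, h2]
  calc ‖V ((1 - q) ξ + (1 - q) ((star V - 1) ξ))‖
      ≤ ‖V‖ * ‖(1 - q) ξ + (1 - q) ((star V - 1) ξ)‖ := V.le_opNorm _
    _ ≤ 1 * (‖(1 - q) ξ‖ + ‖(1 - q) ((star V - 1) ξ)‖) := by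
        gcongr
        exact norm_add_le _ _
    _ ≤ 1 * (‖(1 - q) ξ‖ + ‖star V - 1‖ * ‖ξ‖) := by
        gcongr
        exact (proj_norm_le hq.one_sub _).trans ((star V - 1).le_opNorm ξ)
    _ = _ := one_mul _

theorem soPavable_of_locally_fine (hA : ∀ a ∈ A, ∀ b ∈ A, a * b = b * a)
    (hloc : ∀ F : Finset H, ∃ ξ₀ : H,
      (∀ ξ ∈ F, ∀ δ : ℝ, 0 < δ →
        ∃ v ∈ Submodule.span ℂ {w | ∃ e ∈ A, IsStarProjection e ∧ w = e ξ₀}, ‖ξ - v‖ < δ) ∧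
      (∀ τ : ℝ, 0 < τ → ∃ (ι : Type) (_ : Fintype ι) (e : ι → H →L[ℂ] H),
        IsPartition A e ∧ ∀ j, ‖e j ξ₀‖ ≤ τ))
    {x : H →L[ℂ] H} (hx : IsSelfAdjoint x) {r : ℕ} (hr : 0 < r) :
    SoPavable (allOps H) A x (1 / (r : ℝ)) r := by
  intro F δ hδ
  obtain ⟨ξ₀, hcyc, hfine⟩ := hloc F
  obtain ⟨I, _, e, he, hF⟩ := exists_coarse' hA ξ₀ (δ := δ / 2) F
    (fun ξ hξ => hcyc ξ hξ (δ / 2) (by positivity))
  obtain ⟨s, hs0, hs1, hsF⟩ := exists_small_s F hδ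
  have hc0 : 0 ≤ Real.sqrt (1 - s ^ 2) := Real.sqrt_nonneg _
  have hcs : Real.sqrt (1 - s ^ 2) ^ 2 + s ^ 2 = 1 := by
    rw [Real.sq_sqrt (by nlinarith)]
    ring
  obtain ⟨V, p, a, hVV, hVV', hVn, hp, haA, hasa, han, hmain⟩ :=
    exists_paving_of_partition hA he ξ₀ hfine hx hr hc0 hs0 hcs
  have hq := isStarProjection_stepProj he ξ₀
  refine ⟨p, a, V * stepProj e ξ₀ * star V, hp, haA, hasa, han, mem_allOps _,
    isStarProjection_conj hVV hq, ?_, hmain⟩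
  intro ξ hξ
  obtain ⟨v, hv, hvδ⟩ := hF ξ hξ
  have h1 : ‖(1 - stepProj e ξ₀) ξ‖ < δ / 2 := (norm_one_sub_stepProj_le he ξ₀ hv ξ).trans_lt hvδ
  have h2 : ‖star V - 1‖ * ‖ξ‖ ≤ δ / 2 :=
    (mul_le_mul_of_nonneg_right hVn (norm_nonneg ξ)).trans (hsF ξ hξ)
  calc ‖(1 - V * stepProj e ξ₀ * star V) ξ‖
      ≤ ‖(1 - stepProj e ξ₀) ξ‖ + ‖star V - 1‖ * ‖ξ‖ := norm_one_sub_conj_apply_le hVV hVV' hq ξ
    _ < δ / 2 + δ / 2 := by linarith
    _ = δ := by ring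

end Vale.Agent.Lib.P078
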