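import Mathlib

/-!
# P078: the second moment of a random colouring

For a finite set `T`, a number `r ≥ 1` of colours and a complex matrix `c` on `T`, the average over
all colourings `col : T → Fin r` of
`|∑_{s ≠ t} (1[col s = col t] - 1/r) c s t|^2` is at most `2 ∑ |c s t|^2`.
-/

set_option linter.unusedSectionVars false

namespace Vale.Agent.Lib.P078

open Finset

variable {T : Type*} [Fintype T] [DecidableEq T] {r : ℕ}

/-- Averaging out the colour of `t` kills the centred indicator of `col s = col t`. -/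
lemma sum_centred_mul_eq_zero (hr : 0 < r) {s t : T} (hst : s ≠ t) (G : (T → Fin r) → ℂ)
    (hG : ∀ col c, G (Function.update col t c) = G col) :
    ∑ col : T → Fin r, ((if col s = col t then (1 : ℂ) else 0) - 1 / (r : ℂ)) * G col = 0 := by
  classical
  rw [← (Equiv.funSplitAt t (Fin r)).symm.sum_comp, Fintype.sum_prod_type_right]
  refine Finset.sum_eq_zero fun col' _ => ?_
  set c₀ : Fin r := ⟨0, hr⟩
  have hGc : ∀ c : Fin r, G ((Equiv.funSplitAt t (Fin r)).symm (c, col'))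
      = G ((Equiv.funSplitAt t (Fin r)).symm (c₀, col')) := by
    intro c
    rw [← hG ((Equiv.funSplitAt t (Fin r)).symm (c₀, col')) c]
    congr 1
    funext j
    by_cases hj : j = t
    · subst hj
      simp [Equiv.funSplitAt, Equiv.piSplitAt]
    · simp [Equiv.funSplitAt, Equiv.piSplitAt, hj]
  have h1 : ∀ c : Fin r, (Equiv.funSplitAt t (Fin r)).symm (c, col') t = c := by
    intro c
    simp [Equiv.funSplitAt, Equiv.piSplitAt]
  have h2 : ∀ c : Fin r, (Equiv.funSplitAt t (Fin r)).symm (c, col') s = col' ⟨s, hst⟩ := by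
    intro c
    simp [Equiv.funSplitAt, Equiv.piSplitAt, hst]
  simp only [hGc, h1, h2]
  rw [← Finset.sum_mul, Finset.sum_sub_distrib]
  have hr' : (r : ℂ) ≠ 0 := by exact_mod_cast hr.ne'
  simp [hr']

/-- The centred indicator of `col s = col t`, set to zero on the diagonal. -/
noncomputable def Zc (col : T → Fin r) (s t : T) : ℂ :=
  if s = t then 0 else ((if col s = col t then 1 else 0) - 1 / (r : ℂ))

lemma Zc_symm (col : T → Fin r) (s t : T) : Zc col s t = Zc col t s := by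
  unfold Zc
  by_cases h : s = t
  · simp [h]
  · have h' : ¬ t = s := fun h2 => h h2.symm
    by_cases h2 : col s = col t
    · simp [h, h', h2]
    · have h2' : ¬ col t = col s := fun h3 => h2 h3.symm
      simp [h, h', h2, h2']

lemma Zc_update (col : T → Fin r) {s t u : T} (hs : s ≠ u) (ht : t ≠ u) (c : Fin r) :
    Zc (Function.update col u c) s t = Zc col s t := by
  unfold Zc
  rw [Function.update_of_ne hs, Function.update_of_ne ht]

lemma conj_Zc (col : T → Fin r) (s t : T) : (starRingEnd ℂ) (Zc col s t) = Zc col s t := by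
  unfold Zc
  split_ifs <;> simp

lemma norm_Zc_le (hr : 0 < r) (col : T → Fin r) (s t : T) : ‖Zc col s t‖ ≤ 1 := by
  unfold Zc
  have hr1 : (1 : ℝ) ≤ r := by exact_mod_cast hr
  have h0 : (0 : ℝ) < r := by linarith
  have h1 : (1 : ℝ) / r ≤ 1 := by rw [div_le_one h0]; exact hr1
  have h2 : (0 : ℝ) ≤ 1 / r := by positivity
  split_ifs
  · simp
  · have : ((1 : ℂ) - 1 / (r : ℂ)) = (((1 : ℝ) - 1 / (r : ℝ) : ℝ) : ℂ) := by push_cast; ring
    rw [this, Complex.norm_real, Real.norm_eq_abs, abs_le]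
    constructor <;> linarith
  · have : ((0 : ℂ) - 1 / (r : ℂ)) = (((0 : ℝ) - 1 / (r : ℝ) : ℝ) : ℂ) := by push_cast; ring
    rw [this, Complex.norm_real, Real.norm_eq_abs, abs_le]
    constructor <;> linarith

/-- Distinct unordered pairs give orthogonal centred indicators. -/
lemma sum_Zc_mul_Zc_eq_zero (hr : 0 < r) {s t s' t' : T} (h1 : ¬ (s' = s ∧ t' = t))
    (h2 : ¬ (s' = t ∧ t' = s)) : ∑ col : T → Fin r, Zc col s t * Zc col s' t' = 0 := by
  by_cases hst : s = t
  · simp [Zc, hst]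
  by_cases hst' : s' = t'
  · simp [Zc, hst']
  have key : (s' ≠ t ∧ t' ≠ t) ∨ (s' ≠ s ∧ t' ≠ s) := by
    by_contra hcon
    push Not at hcon
    obtain ⟨ha, hb⟩ := hcon
    by_cases e1 : s' = t
    · by_cases e2 : s' = s
      · exact hst (e2.symm.trans e1)
      · exact h2 ⟨e1, hb e2⟩
    · have e3 := ha e1
      by_cases e2 : s' = s
      · exact h1 ⟨e2, e3⟩
      · exact hst ((hb e2).symm.trans e3)
  rcases key with ⟨k1, k2⟩ | ⟨k1, k2⟩
  · have := sum_centred_mul_eq_zero hr hst (fun col => Zc col s' t')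
      (fun col c => Zc_update col k1 k2 c)
    simpa [Zc, hst] using this
  · have := sum_centred_mul_eq_zero hr (Ne.symm hst) (fun col => Zc col s' t')
      (fun col c => Zc_update col k1 k2 c)
    have h3 : ∀ col : T → Fin r, Zc col s t * Zc col s' t'
        = ((if col t = col s then (1 : ℂ) else 0) - 1 / (r : ℂ)) * Zc col s' t' := by
      intro col
      rw [Zc_symm col s t]
      have : ¬ t = s := fun h => hst h.symm
      simp [Zc, this]
    rw [Finset.sum_congr rfl fun col _ => h3 col]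
    exact this

/-- The centred sum in terms of the three natural sums. -/
lemma sum_Zc_mul_eq (col : T → Fin r) (c : T → T → ℂ) :
    ∑ s, ∑ t, Zc col s t * c s t
      = (∑ s, ∑ t, (if col s = col t then (1 : ℂ) else 0) * c s t)
        - (1 - 1 / (r : ℂ)) * ∑ t, c t t - (1 / (r : ℂ)) * ∑ s, ∑ t, c s t := by
  have h1 : ∑ t, c t t = ∑ s, ∑ t, if s = t then c s t else 0 := by
    refine Finset.sum_congr rfl fun s _ => ?_
    simp
  rw [h1, Finset.mul_sum, Finset.mul_sum, ← Finset.sum_sub_distrib, ← Finset.sum_sub_distrib]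
  refine Finset.sum_congr rfl fun s _ => ?_
  rw [Finset.mul_sum, Finset.mul_sum, ← Finset.sum_sub_distrib, ← Finset.sum_sub_distrib]
  refine Finset.sum_congr rfl fun t _ => ?_
  unfold Zc
  by_cases h : s = t
  · subst h
    simp
    ring
  · rw [if_neg h, if_neg h]
    ring

/-- The Gram matrix of the centred indicators. -/
lemma norm_sum_Zc_mul_Zc_le (hr : 0 < r) (p p' : T × T) :
    ‖∑ col : T → Fin r, Zc col p.1 p.2 * Zc col p'.1 p'.2‖
      ≤ (Fintype.card (T → Fin r) : ℝ) *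
        ((if p' = p then 1 else 0) + (if p' = p.swap then 1 else 0)) := by
  have hN : ‖∑ col : T → Fin r, Zc col p.1 p.2 * Zc col p'.1 p'.2‖
      ≤ (Fintype.card (T → Fin r) : ℝ) := by
    calc ‖∑ col : T → Fin r, Zc col p.1 p.2 * Zc col p'.1 p'.2‖
        ≤ ∑ col : T → Fin r, ‖Zc col p.1 p.2 * Zc col p'.1 p'.2‖ := norm_sum_le _ _
      _ ≤ ∑ _col : T → Fin r, (1 : ℝ) := by
          refine Finset.sum_le_sum fun col _ => ?_
          rw [norm_mul]
          exact mul_le_one₀ (norm_Zc_le hr _ _ _) (norm_nonneg _) (norm_Zc_le hr _ _ _)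
      _ = (Fintype.card (T → Fin r) : ℝ) := by simp
  have hN0 : (0 : ℝ) ≤ (Fintype.card (T → Fin r) : ℝ) := by positivity
  by_cases h1 : p' = p
  · rw [if_pos h1]
    have : (0 : ℝ) ≤ (if p' = p.swap then (1 : ℝ) else 0) := by split_ifs <;> norm_num
    nlinarith
  · by_cases h2 : p' = p.swap
    · rw [if_pos h2, if_neg h1]
      linarith
    · rw [if_neg h1, if_neg h2]
      rw [sum_Zc_mul_Zc_eq_zero hr]
      · simp
      · rintro ⟨e1, e2⟩
        exact h1 (Prod.ext e1 e2)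
      · rintro ⟨e1, e2⟩
        exact h2 (Prod.ext e1 e2)

/-- Second moment bound for a random colouring. -/
lemma sum_norm_sq_le (hr : 0 < r) (c : T → T → ℂ) :
    ∑ col : T → Fin r, ‖∑ s, ∑ t, Zc col s t * c s t‖ ^ 2
      ≤ 2 * (Fintype.card (T → Fin r) : ℝ) * ∑ s, ∑ t, ‖c s t‖ ^ 2 := by
  set N : ℝ := (Fintype.card (T → Fin r) : ℝ) with hN
  have hN0 : 0 ≤ N := by positivity
  -- rewrite with pairs
  have hY : ∀ col : T → Fin r, ∑ s, ∑ t, Zc col s t * c s t
      = ∑ p : T × T, Zc col p.1 p.2 * c p.1 p.2 := by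
    intro col
    rw [Fintype.sum_prod_type]
  have hC : ∑ s, ∑ t, ‖c s t‖ ^ 2 = ∑ p : T × T, ‖c p.1 p.2‖ ^ 2 := by
    rw [Fintype.sum_prod_type]
  rw [hC]
  simp only [hY]
  -- expand the square
  have hexp : ((∑ col : T → Fin r, ‖∑ p : T × T, Zc col p.1 p.2 * c p.1 p.2‖ ^ 2 : ℝ) : ℂ)
      = ∑ p : T × T, ∑ p' : T × T, (c p.1 p.2 * (starRingEnd ℂ) (c p'.1 p'.2)) *
          ∑ col : T → Fin r, Zc col p.1 p.2 * Zc col p'.1 p'.2 := by
    push_cast
    have h1 : ∀ col : T → Fin r, ((‖∑ p : T × T, Zc col p.1 p.2 * c p.1 p.2‖ : ℂ)) ^ 2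
        = ∑ p : T × T, ∑ p' : T × T, (c p.1 p.2 * (starRingEnd ℂ) (c p'.1 p'.2)) *
          (Zc col p.1 p.2 * Zc col p'.1 p'.2) := by
      intro col
      rw [← Complex.mul_conj', map_sum, Finset.sum_mul_sum]
      refine Finset.sum_congr rfl fun p _ => Finset.sum_congr rfl fun p' _ => ?_
      rw [map_mul, conj_Zc]
      ring
    rw [Finset.sum_congr rfl fun col _ => h1 col, Finset.sum_comm]
    refine Finset.sum_congr rfl fun p _ => ?_
    rw [Finset.sum_comm]
    refine Finset.sum_congr rfl fun p' _ => ?_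
    rw [Finset.mul_sum]
  have hnonneg : 0 ≤ ∑ col : T → Fin r, ‖∑ p : T × T, Zc col p.1 p.2 * c p.1 p.2‖ ^ 2 :=
    Finset.sum_nonneg fun _ _ => by positivity
  have hnorm : ∑ col : T → Fin r, ‖∑ p : T × T, Zc col p.1 p.2 * c p.1 p.2‖ ^ 2
      = ‖((∑ col : T → Fin r, ‖∑ p : T × T, Zc col p.1 p.2 * c p.1 p.2‖ ^ 2 : ℝ) : ℂ)‖ := by
    rw [Complex.norm_real, Real.norm_eq_abs, abs_of_nonneg hnonneg]
  rw [hnorm, hexp]
  have hswap : ∑ p : T × T, ‖c p.swap.1 p.swap.2‖ ^ 2 = ∑ p : T × T, ‖c p.1 p.2‖ ^ 2 :=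
    (Equiv.prodComm T T).sum_comp (fun p : T × T => ‖c p.1 p.2‖ ^ 2)
  calc ‖∑ p : T × T, ∑ p' : T × T, (c p.1 p.2 * (starRingEnd ℂ) (c p'.1 p'.2)) *
          ∑ col : T → Fin r, Zc col p.1 p.2 * Zc col p'.1 p'.2‖
      ≤ ∑ p : T × T, ∑ p' : T × T, ‖c p.1 p.2‖ * ‖c p'.1 p'.2‖ *
          (N * ((if p' = p then 1 else 0) + (if p' = p.swap then 1 else 0))) := by
        refine (norm_sum_le _ _).trans (Finset.sum_le_sum fun p _ => ?_)
        refine (norm_sum_le _ _).trans (Finset.sum_le_sum fun p' _ => ?_)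
        rw [norm_mul, norm_mul, RCLike.norm_conj]
        exact mul_le_mul_of_nonneg_left (norm_sum_Zc_mul_Zc_le hr p p') (by positivity)
    _ = ∑ p : T × T, N * (‖c p.1 p.2‖ ^ 2 + ‖c p.1 p.2‖ * ‖c p.swap.1 p.swap.2‖) := by
        refine Finset.sum_congr rfl fun p _ => ?_
        have : ∀ p' : T × T, ‖c p.1 p.2‖ * ‖c p'.1 p'.2‖ *
            (N * ((if p' = p then 1 else 0) + (if p' = p.swap then 1 else 0)))
            = (if p' = p then N * (‖c p.1 p.2‖ * ‖c p'.1 p'.2‖) else 0)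
              + (if p' = p.swap then N * (‖c p.1 p.2‖ * ‖c p'.1 p'.2‖) else 0) := by
          intro p'
          split_ifs <;> ring
        rw [Finset.sum_congr rfl fun p' _ => this p', Finset.sum_add_distrib,
          Finset.sum_ite_eq', Finset.sum_ite_eq']
        simp only [Finset.mem_univ, if_true]
        ring
    _ ≤ ∑ p : T × T, N * (‖c p.1 p.2‖ ^ 2 +
          (‖c p.1 p.2‖ ^ 2 + ‖c p.swap.1 p.swap.2‖ ^ 2) / 2) := by
        refine Finset.sum_le_sum fun p _ => ?_
        refine mul_le_mul_of_nonneg_left ?_ hN0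
        nlinarith [sq_nonneg (‖c p.1 p.2‖ - ‖c p.swap.1 p.swap.2‖)]
    _ = 2 * N * ∑ p : T × T, ‖c p.1 p.2‖ ^ 2 := by
        rw [← Finset.mul_sum, Finset.sum_add_distrib, ← Finset.sum_div, Finset.sum_add_distrib,
          hswap]
        ring

/-- There is a colouring whose fluctuations, summed over a finite family of matrices, are at most
the average. -/
lemma exists_coloring {I : Type*} [Fintype I] (hr : 0 < r) (c : I → T → T → ℂ) :
    ∃ col : T → Fin r, ∑ i, ‖∑ s, ∑ t, Zc col s t * c i s t‖ ^ 2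
      ≤ 2 * ∑ i, ∑ s, ∑ t, ‖c i s t‖ ^ 2 := by
  have : Nonempty (Fin r) := ⟨⟨0, hr⟩⟩
  have hne : (Finset.univ : Finset (T → Fin r)).Nonempty := Finset.univ_nonempty
  obtain ⟨col, -, hcol⟩ := Finset.exists_le_of_sum_le
    (f := fun col : T → Fin r => ∑ i, ‖∑ s, ∑ t, Zc col s t * c i s t‖ ^ 2)
    (g := fun _ => 2 * ∑ i, ∑ s, ∑ t, ‖c i s t‖ ^ 2) hne (by
      rw [Finset.sum_comm, Finset.sum_const, Finset.card_univ, nsmul_eq_mul]
      calc ∑ i, ∑ col : T → Fin r, ‖∑ s, ∑ t, Zc col s t * c i s t‖ ^ 2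
          ≤ ∑ i, 2 * (Fintype.card (T → Fin r) : ℝ) * ∑ s, ∑ t, ‖c i s t‖ ^ 2 :=
            Finset.sum_le_sum fun i _ => sum_norm_sq_le hr (c i)
        _ = (Fintype.card (T → Fin r) : ℝ) * (2 * ∑ i, ∑ s, ∑ t, ‖c i s t‖ ^ 2) := by
            rw [← Finset.mul_sum]
            ring)
  exact ⟨col, hcol⟩

end Vale.Agent.Lib.P078
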