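import Vale.Agent.Lib.P078.Coloring

/-!
# P078: one sign pattern for quadratic and linear sums

A colouring of `Option T` by two colours gives signs `sg t = ±1` on `T` (compare the colour of
`some t` with the colour of `none`).  The quadratic sums in `sg s * sg t` and the linear sums in
`sg t` are then both centred-indicator sums for the colouring of `Option T`, so that the second
moment bound `exists_coloring` handles them simultaneously.
-/

set_option linter.unusedSectionVars false

namespace Vale.Agent.Lib.P078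

open Finset

variable {T : Type*} [Fintype T] [DecidableEq T]

/-- Extend a matrix on `T` by zero to `Option T`. -/
def liftQ (c : T → T → ℂ) : Option T → Option T → ℂ
  | some s, some t => c s t
  | _, _ => 0

/-- Put a vector on `T` in the row `none` of a matrix on `Option T`. -/
def liftL (c : T → ℂ) : Option T → Option T → ℂ
  | none, some t => c t
  | _, _ => 0

lemma sum_liftQ (Z : Option T → Option T → ℂ) (c : T → T → ℂ) :
    ∑ s, ∑ t, Z s t * liftQ c s t = ∑ s, ∑ t, Z (some s) (some t) * c s t := by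
  simp [Fintype.sum_option, liftQ]

lemma sum_liftL (Z : Option T → Option T → ℂ) (c : T → ℂ) :
    ∑ s, ∑ t, Z s t * liftL c s t = ∑ t, Z none (some t) * c t := by
  simp [Fintype.sum_option, liftL]

lemma sum_norm_liftQ (c : T → T → ℂ) :
    ∑ s, ∑ t, ‖liftQ c s t‖ ^ 2 = ∑ s, ∑ t, ‖c s t‖ ^ 2 := by
  simp [Fintype.sum_option, liftQ]

lemma sum_norm_liftL (c : T → ℂ) :
    ∑ s, ∑ t, ‖liftL c s t‖ ^ 2 = ∑ t, ‖c t‖ ^ 2 := by
  simp [Fintype.sum_option, liftL]

/-- The sign attached to `t` by a two-colouring of `Option T`. -/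
noncomputable def sgn (col : Option T → Fin 2) (t : T) : ℂ :=
  if col none = col (some t) then 1 else -1

lemma sgn_eq (col : Option T → Fin 2) (t : T) : sgn col t = 2 * Zc col none (some t) := by
  unfold sgn Zc
  have h' : ¬ ((none : Option T) = some t) := by simp
  rw [if_neg h']
  split_ifs
  · norm_num
  · norm_num

lemma sgn_one_or (col : Option T → Fin 2) (t : T) : sgn col t = 1 ∨ sgn col t = -1 := by
  unfold sgn
  split_ifs <;> simp

lemma fin_two_signs (a b c : Fin 2) :
    (if c = a then (1 : ℂ) else -1) * (if c = b then (1 : ℂ) else -1)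
      = if a = b then 1 else -1 := by
  fin_cases a <;> fin_cases b <;> fin_cases c <;> simp

lemma sgn_mul_sgn (col : Option T → Fin 2) (s t : T) :
    sgn col s * sgn col t - (if s = t then 1 else 0) = 2 * Zc col (some s) (some t) := by
  unfold sgn
  rw [fin_two_signs]
  unfold Zc
  by_cases h : s = t
  · subst h
    simp
  · have h' : ¬ (some s = some t) := fun h2 => h (Option.some.inj h2)
    rw [if_neg h, if_neg h']
    split_ifs
    · norm_num
    · norm_num

/-- One sign pattern for which the quadratic and the linear sums are at most the average. -/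
lemma exists_signs {I K : Type*} [Fintype I] [Fintype K] (cq : I → T → T → ℂ)
    (cl : K → T → ℂ) :
    ∃ sg : T → ℂ, (∀ t, sg t = 1 ∨ sg t = -1) ∧
      ∑ i, ‖∑ s, ∑ t, (sg s * sg t - (if s = t then 1 else 0)) * cq i s t‖ ^ 2
        + ∑ k, ‖∑ t, sg t * cl k t‖ ^ 2
      ≤ 8 * (∑ i, ∑ s, ∑ t, ‖cq i s t‖ ^ 2 + ∑ k, ∑ t, ‖cl k t‖ ^ 2) := by
  obtain ⟨col, hcol⟩ := exists_coloring (T := Option T) (I := I ⊕ K) (r := 2) (by norm_num)
    (fun ik => Sum.elim (fun i => liftQ (cq i)) (fun k => liftL (cl k)) ik)
  rw [Fintype.sum_sum_type, Fintype.sum_sum_type] at hcol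
  simp only [Sum.elim_inl, Sum.elim_inr, sum_liftQ, sum_liftL, sum_norm_liftQ,
    sum_norm_liftL] at hcol
  refine ⟨sgn col, sgn_one_or col, ?_⟩
  have h1 : ∀ i, ‖∑ s, ∑ t, (sgn col s * sgn col t - (if s = t then 1 else 0)) * cq i s t‖ ^ 2
      = 4 * ‖∑ s, ∑ t, Zc col (some s) (some t) * cq i s t‖ ^ 2 := by
    intro i
    have : ∑ s, ∑ t, (sgn col s * sgn col t - (if s = t then 1 else 0)) * cq i s t
        = 2 * ∑ s, ∑ t, Zc col (some s) (some t) * cq i s t := by
      rw [Finset.mul_sum]
      refine Finset.sum_congr rfl fun s _ => ?_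
      rw [Finset.mul_sum]
      refine Finset.sum_congr rfl fun t _ => ?_
      rw [sgn_mul_sgn]
      ring
    rw [this, norm_mul, mul_pow]
    norm_num
  have h2 : ∀ k, ‖∑ t, sgn col t * cl k t‖ ^ 2
      = 4 * ‖∑ t, Zc col none (some t) * cl k t‖ ^ 2 := by
    intro k
    have : ∑ t, sgn col t * cl k t = 2 * ∑ t, Zc col none (some t) * cl k t := by
      rw [Finset.mul_sum]
      refine Finset.sum_congr rfl fun t _ => ?_
      rw [sgn_eq]
      ring
    rw [this, norm_mul, mul_pow]
    norm_num
  rw [Finset.sum_congr rfl fun i _ => h1 i, Finset.sum_congr rfl fun k _ => h2 k,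
    ← Finset.mul_sum, ← Finset.mul_sum]
  linarith

end Vale.Agent.Lib.P078
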