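import Vale.Agent.Lib.P078.Basic

/-!
# P078: step vectors and the finite-rank projection attached to a partition
-/

set_option linter.unusedSectionVars false

namespace Vale.Agent.Lib.P078

open scoped InnerProductSpace
open InnerProductSpace (rankOne)

variable {H : Type*} [NormedAddCommGroup H] [InnerProductSpace ℂ H] [CompleteSpace H]

lemma mem_allOps (x : H →L[ℂ] H) : x ∈ allOps H := by
  show x ∈ (⊤ : StarSubalgebra ℂ (H →L[ℂ] H))
  exact StarSubalgebra.mem_top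

/-- A finite sum of mutually orthogonal projections is a projection. -/
lemma isStarProjection_sum {ι : Type*} [Fintype ι] {f : ι → H →L[ℂ] H}
    (hproj : ∀ i, IsStarProjection (f i)) (horth : ∀ i j, i ≠ j → f i * f j = 0) :
    IsStarProjection (∑ i, f i) := by
  classical
  refine ⟨?_, isSelfAdjoint_sum _ fun i _ => (hproj i).isSelfAdjoint⟩
  show (∑ i, f i) * (∑ i, f i) = ∑ i, f i
  rw [Finset.sum_mul_sum]
  refine Finset.sum_congr rfl fun i _ => ?_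
  rw [Finset.sum_eq_single i]
  · exact (hproj i).isIdempotentElem.eq
  · intro j _ hj
    exact horth i j (Ne.symm hj)
  · intro h
    exact absurd (Finset.mem_univ i) h

variable {A : StarSubalgebra ℂ (H →L[ℂ] H)}

lemma IsPartition.unit : IsPartition A (fun _ : Unit => (1 : H →L[ℂ] H)) where
  mem _ := A.one_mem
  proj _ := IsStarProjection.one _
  orth i j h := absurd (Subsingleton.elim i j) h
  sum_eq := by simp

lemma IsPartition.bool {e : H →L[ℂ] H} (he : e ∈ A) (hp : IsStarProjection e) :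
    IsPartition A (fun b : Bool => if b then e else 1 - e) where
  mem b := by
    cases b
    · simpa using A.sub_mem A.one_mem he
    · simpa using he
  proj b := by
    cases b
    · simpa using hp.one_sub
    · simpa using hp
  orth i j h := by
    cases i <;> cases j
    · exact absurd rfl h
    · simpa using hp.one_sub_mul_self
    · simpa using hp.mul_one_sub_self
    · exact absurd rfl h
  sum_eq := by simp

/-- The span of the vectors `e i ξ₀`. -/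
def stepSpace {ι : Type*} (e : ι → H →L[ℂ] H) (ξ₀ : H) : Submodule ℂ H :=
  Submodule.span ℂ (Set.range fun i => e i ξ₀)

lemma stepSpace_le_prod_left {ι κ : Type*} [Fintype ι] [Fintype κ] {e : ι → H →L[ℂ] H}
    {g : κ → H →L[ℂ] H} (hg : IsPartition A g) (ξ₀ : H) :
    stepSpace e ξ₀ ≤ stepSpace (fun t : ι × κ => e t.1 * g t.2) ξ₀ := by
  unfold stepSpace
  rw [Submodule.span_le]
  rintro _ ⟨i, rfl⟩
  have h : e i ξ₀ = ∑ j, (e i * g j) ξ₀ := by
    simp only [mul_apply_eq_comp]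
    rw [← map_sum, hg.sum_apply]
  show e i ξ₀ ∈ _
  rw [h]
  exact Submodule.sum_mem _ fun j _ => Submodule.subset_span ⟨(i, j), rfl⟩

lemma stepSpace_le_prod_right {ι κ : Type*} [Fintype ι] [Fintype κ] {e : ι → H →L[ℂ] H}
    {g : κ → H →L[ℂ] H} (he : IsPartition A e) (ξ₀ : H) :
    stepSpace g ξ₀ ≤ stepSpace (fun t : ι × κ => e t.1 * g t.2) ξ₀ := by
  unfold stepSpace
  rw [Submodule.span_le]
  rintro _ ⟨j, rfl⟩
  have h : g j ξ₀ = ∑ i, (e i * g j) ξ₀ := by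
    simp only [mul_apply_eq_comp]
    rw [he.sum_apply]
  show g j ξ₀ ∈ _
  rw [h]
  exact Submodule.sum_mem _ fun i _ => Submodule.subset_span ⟨(i, j), rfl⟩

/-- Every vector in the span of `{e ξ₀ : e a projection of A}` is a step vector of a partition. -/
lemma exists_partition_of_mem_span (hA : ∀ a ∈ A, ∀ b ∈ A, a * b = b * a) (ξ₀ : H) {v : H}
    (hv : v ∈ Submodule.span ℂ {w | ∃ e ∈ A, IsStarProjection e ∧ w = e ξ₀}) :
    ∃ (ι : Type) (_ : Fintype ι) (e : ι → H →L[ℂ] H), IsPartition A e ∧ v ∈ stepSpace e ξ₀ := by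
  induction hv using Submodule.span_induction with
  | mem w hw =>
    obtain ⟨e, he, hp, rfl⟩ := hw
    exact ⟨Bool, inferInstance, _, IsPartition.bool he hp, Submodule.subset_span ⟨true, by simp⟩⟩
  | zero => exact ⟨Unit, inferInstance, _, IsPartition.unit, Submodule.zero_mem _⟩
  | add u w _ _ hu hw =>
    obtain ⟨ι, _, e, he, hu⟩ := hu
    obtain ⟨κ, _, g, hg, hw⟩ := hw
    exact ⟨ι × κ, inferInstance, _, he.prod hA hg,
      Submodule.add_mem _ (stepSpace_le_prod_left hg ξ₀ hu) (stepSpace_le_prod_right he ξ₀ hw)⟩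
  | smul c u _ hu =>
    obtain ⟨ι, _, e, he, hu⟩ := hu
    exact ⟨ι, inferInstance, e, he, Submodule.smul_mem _ c hu⟩

/-- A finite set of vectors can be approximated by step vectors of one partition. -/
lemma exists_coarse' (hA : ∀ a ∈ A, ∀ b ∈ A, a * b = b * a) (ξ₀ : H) {δ : ℝ} (F : Finset H)
    (hcyc : ∀ ξ ∈ F,
      ∃ v ∈ Submodule.span ℂ {w | ∃ e ∈ A, IsStarProjection e ∧ w = e ξ₀}, ‖ξ - v‖ < δ) :
    ∃ (ι : Type) (_ : Fintype ι) (e : ι → H →L[ℂ] H), IsPartition A e ∧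
      ∀ ξ ∈ F, ∃ v ∈ stepSpace e ξ₀, ‖ξ - v‖ < δ := by
  classical
  induction F using Finset.induction_on with
  | empty => exact ⟨Unit, inferInstance, _, IsPartition.unit, by simp⟩
  | insert ξ F _ ih =>
    obtain ⟨ι, _, e, he, hF⟩ := ih fun ζ hζ => hcyc ζ (Finset.mem_insert_of_mem hζ)
    obtain ⟨v, hv, hvδ⟩ := hcyc ξ (Finset.mem_insert_self _ _)
    obtain ⟨κ, _, g, hg, hvg⟩ := exists_partition_of_mem_span hA ξ₀ hv
    refine ⟨ι × κ, inferInstance, _, he.prod hA hg, ?_⟩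
    intro ζ hζ
    rcases Finset.mem_insert.mp hζ with rfl | hζ
    · exact ⟨v, stepSpace_le_prod_right he ξ₀ hvg, hvδ⟩
    · obtain ⟨w, hw, hwδ⟩ := hF ζ hζ
      exact ⟨w, stepSpace_le_prod_left hg ξ₀ hw, hwδ⟩

lemma exists_coarse (hA : ∀ a ∈ A, ∀ b ∈ A, a * b = b * a) (ξ₀ : H)
    (hcyc : ∀ (ξ : H) (δ : ℝ), 0 < δ →
      ∃ v ∈ Submodule.span ℂ {w | ∃ e ∈ A, IsStarProjection e ∧ w = e ξ₀}, ‖ξ - v‖ < δ)
    (F : Finset H) {δ : ℝ} (hδ : 0 < δ) :
    ∃ (ι : Type) (_ : Fintype ι) (e : ι → H →L[ℂ] H), IsPartition A e ∧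
      ∀ ξ ∈ F, ∃ v ∈ stepSpace e ξ₀, ‖ξ - v‖ < δ :=
  exists_coarse' hA ξ₀ F fun ξ _ => hcyc ξ δ hδ

/-- The normalised step vectors (zero when `e i ξ₀ = 0`). -/
noncomputable def hvec {ι : Type*} (e : ι → H →L[ℂ] H) (ξ₀ : H) (i : ι) : H :=
  ((‖e i ξ₀‖⁻¹ : ℝ) : ℂ) • e i ξ₀

/-- The orthogonal projection onto the step space of a partition. -/
noncomputable def stepProj {ι : Type*} [Fintype ι] (e : ι → H →L[ℂ] H) (ξ₀ : H) : H →L[ℂ] H :=
  ∑ i, rankOne ℂ (hvec e ξ₀ i) (hvec e ξ₀ i)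

lemma hvec_zero_or_unit {ι : Type*} (e : ι → H →L[ℂ] H) (ξ₀ : H) (i : ι) :
    hvec e ξ₀ i = 0 ∨ ‖hvec e ξ₀ i‖ = 1 := by
  unfold hvec
  by_cases h : e i ξ₀ = 0
  · left
    simp [h]
  · right
    have h' : ‖e i ξ₀‖ ≠ 0 := by simpa using h
    rw [norm_smul, Complex.norm_real, norm_inv, norm_norm, inv_mul_cancel₀ h']

lemma norm_hvec_le {ι : Type*} (e : ι → H →L[ℂ] H) (ξ₀ : H) (i : ι) : ‖hvec e ξ₀ i‖ ≤ 1 := by
  rcases hvec_zero_or_unit e ξ₀ i with h | h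
  · simp [h]
  · exact h.le

lemma norm_smul_hvec {ι : Type*} (e : ι → H →L[ℂ] H) (ξ₀ : H) (i : ι) :
    ((‖e i ξ₀‖ : ℝ) : ℂ) • hvec e ξ₀ i = e i ξ₀ := by
  unfold hvec
  by_cases h : e i ξ₀ = 0
  · simp [h]
  · have h' : (‖e i ξ₀‖ : ℂ) ≠ 0 := by
      have : ‖e i ξ₀‖ ≠ 0 := by simpa using h
      exact_mod_cast this
    rw [smul_smul, Complex.ofReal_inv, mul_inv_cancel₀ h', one_smul]

section

variable {ι : Type*} [Fintype ι] {e : ι → H →L[ℂ] H}

lemma inner_hvec_of_ne (he : IsPartition A e) (ξ₀ : H) {i j : ι} (hij : i ≠ j) :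
    ⟪hvec e ξ₀ i, hvec e ξ₀ j⟫_ℂ = 0 := by
  unfold hvec
  rw [inner_smul_left, inner_smul_right, he.inner_of_ne hij]
  simp

lemma isStarProjection_stepProj (he : IsPartition A e) (ξ₀ : H) :
    IsStarProjection (stepProj e ξ₀) := by
  unfold stepProj
  refine isStarProjection_sum ?_ ?_
  · intro i
    rcases hvec_zero_or_unit e ξ₀ i with h | h
    · rw [h]
      simp
    · exact InnerProductSpace.isStarProjection_rankOne_self h
  · intro i j hij
    rw [ContinuousLinearMap.mul_def, InnerProductSpace.rankOne_comp_rankOne,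
      inner_hvec_of_ne he ξ₀ hij, zero_smul]

lemma stepProj_apply (ξ₀ v : H) :
    stepProj e ξ₀ v = ∑ i, ⟪hvec e ξ₀ i, v⟫_ℂ • hvec e ξ₀ i := by
  simp [stepProj]

lemma stepProj_hvec (he : IsPartition A e) (ξ₀ : H) (i : ι) :
    stepProj e ξ₀ (hvec e ξ₀ i) = hvec e ξ₀ i := by
  classical
  rw [stepProj_apply, Finset.sum_eq_single i]
  · rcases hvec_zero_or_unit e ξ₀ i with h | h
    · simp [h]
    · rw [inner_self_ofReal, h]
      simp
  · intro j _ hj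
    rw [inner_hvec_of_ne he ξ₀ hj, zero_smul]
  · intro h
    exact absurd (Finset.mem_univ i) h

lemma stepProj_apply_of_mem (he : IsPartition A e) (ξ₀ : H) {v : H} (hv : v ∈ stepSpace e ξ₀) :
    stepProj e ξ₀ v = v := by
  unfold stepSpace at hv
  induction hv using Submodule.span_induction with
  | mem w hw =>
    obtain ⟨i, rfl⟩ := hw
    show stepProj e ξ₀ (e i ξ₀) = e i ξ₀
    rw [← norm_smul_hvec e ξ₀ i, map_smul, stepProj_hvec he]
  | zero => simp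
  | add u w _ _ hu hw => rw [map_add, hu, hw]
  | smul c u _ hu => rw [map_smul, hu]

lemma norm_one_sub_stepProj_le (he : IsPartition A e) (ξ₀ : H) {v : H}
    (hv : v ∈ stepSpace e ξ₀) (ξ : H) : ‖(1 - stepProj e ξ₀) ξ‖ ≤ ‖ξ - v‖ := by
  have h1 : (1 - stepProj e ξ₀) ξ = (1 - stepProj e ξ₀) (ξ - v) := by
    rw [map_sub]
    have : (1 - stepProj e ξ₀) v = 0 := by
      simp [stepProj_apply_of_mem he ξ₀ hv]
    rw [this, sub_zero]
  rw [h1]
  exact proj_norm_le (isStarProjection_stepProj he ξ₀).one_sub _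

/-- The compression of `W` to the step space is controlled by its matrix entries. -/
lemma norm_compress_le (ξ₀ : H) (W : H →L[ℂ] H) :
    ‖stepProj e ξ₀ * W * stepProj e ξ₀‖
      ≤ ∑ i, ∑ j, ‖⟪hvec e ξ₀ i, W (hvec e ξ₀ j)⟫_ℂ‖ := by
  refine ContinuousLinearMap.opNorm_le_bound _
    (Finset.sum_nonneg fun _ _ => Finset.sum_nonneg fun _ _ => norm_nonneg _) fun v => ?_
  have h1 : (stepProj e ξ₀ * W * stepProj e ξ₀) v
      = ∑ i, ∑ j, (⟪hvec e ξ₀ j, v⟫_ℂ * ⟪hvec e ξ₀ i, W (hvec e ξ₀ j)⟫_ℂ) • hvec e ξ₀ i := by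
    simp only [mul_apply_eq_comp]
    rw [stepProj_apply]
    refine Finset.sum_congr rfl fun i _ => ?_
    rw [stepProj_apply, map_sum, inner_sum, Finset.sum_smul]
    refine Finset.sum_congr rfl fun j _ => ?_
    rw [map_smul, inner_smul_right]
  rw [h1, Finset.sum_mul]
  refine (norm_sum_le _ _).trans (Finset.sum_le_sum fun i _ => ?_)
  rw [Finset.sum_mul]
  refine (norm_sum_le _ _).trans (Finset.sum_le_sum fun j _ => ?_)
  rw [norm_smul, norm_mul]
  have h2 : ‖⟪hvec e ξ₀ j, v⟫_ℂ‖ ≤ ‖v‖ := by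
    calc ‖⟪hvec e ξ₀ j, v⟫_ℂ‖ ≤ ‖hvec e ξ₀ j‖ * ‖v‖ := norm_inner_le_norm _ _
      _ ≤ 1 * ‖v‖ := by gcongr; exact norm_hvec_le e ξ₀ j
      _ = ‖v‖ := one_mul _
  calc ‖⟪hvec e ξ₀ j, v⟫_ℂ‖ * ‖⟪hvec e ξ₀ i, W (hvec e ξ₀ j)⟫_ℂ‖ * ‖hvec e ξ₀ i‖
      ≤ ‖v‖ * ‖⟪hvec e ξ₀ i, W (hvec e ξ₀ j)⟫_ℂ‖ * 1 := by
        gcongr
        exact norm_hvec_le e ξ₀ i
    _ = ‖⟪hvec e ξ₀ i, W (hvec e ξ₀ j)⟫_ℂ‖ * ‖v‖ := by ring

end

end Vale.Agent.Lib.P078
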