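import Vale.Agent.Lib.P078.Spectral
import Vale.Agent.Lib.P078.Step

/-!
# P078: finitely many vectors lie in one cyclic subspace of a MASA of `B(H)`
-/

set_option linter.unusedSectionVars false

namespace Vale.Agent.Lib.P078

open scoped InnerProductSpace

variable {H : Type*} [NormedAddCommGroup H] [InnerProductSpace ℂ H] [CompleteSpace H]
variable {A : StarSubalgebra ℂ (H →L[ℂ] H)}

/-- The span of the vectors `e ξ₀`, `e` a projection of `A`. -/
def projSpan (A : StarSubalgebra ℂ (H →L[ℂ] H)) (ξ₀ : H) : Submodule ℂ H :=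
  Submodule.span ℂ {w | ∃ e ∈ A, IsStarProjection e ∧ w = e ξ₀}

lemma mem_projSpan {e : H →L[ℂ] H} (he : e ∈ A) (hp : IsStarProjection e) (ξ₀ : H) :
    e ξ₀ ∈ projSpan A ξ₀ :=
  Submodule.subset_span ⟨e, he, hp, rfl⟩

lemma self_mem_projSpan (ξ₀ : H) : ξ₀ ∈ projSpan A ξ₀ := by
  have := mem_projSpan (A := A) A.one_mem (IsStarProjection.one _) ξ₀
  simpa using this

lemma projSpan_mapsTo (hA : ∀ a ∈ A, ∀ b ∈ A, a * b = b * a) {e : H →L[ℂ] H} (he : e ∈ A)
    (hp : IsStarProjection e) (ξ₀ : H) {v : H} (hv : v ∈ projSpan A ξ₀) : e v ∈ projSpan A ξ₀ := by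
  unfold projSpan at hv
  induction hv using Submodule.span_induction with
  | mem w hw =>
    obtain ⟨e', he', hp', rfl⟩ := hw
    exact mem_projSpan (A.mul_mem he he') (hp.mul hp' (hA _ he _ he')) ξ₀
  | zero => simp
  | add u w _ _ hu hw => rw [map_add]; exact Submodule.add_mem _ hu hw
  | smul c u _ hu => rw [map_smul]; exact Submodule.smul_mem _ c hu

lemma closure_projSpan_mapsTo (hA : ∀ a ∈ A, ∀ b ∈ A, a * b = b * a) {e : H →L[ℂ] H}
    (he : e ∈ A) (hp : IsStarProjection e) (ξ₀ : H) {v : H}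
    (hv : v ∈ (projSpan A ξ₀).topologicalClosure) : e v ∈ (projSpan A ξ₀).topologicalClosure := by
  have h1 : Set.MapsTo e (projSpan A ξ₀ : Set H) (projSpan A ξ₀ : Set H) :=
    fun v hv => projSpan_mapsTo hA he hp ξ₀ hv
  exact h1.closure e.continuous hv

/-- A closed subspace invariant under all projections of a MASA `A` of `B(H)` is the range of a
projection of `A`. -/
lemma exists_proj_of_invariant (hA : ∀ a ∈ A, ∀ b ∈ A, a * b = b * a)
    (hmax : ∀ x : H →L[ℂ] H, (∀ a ∈ A, a * x = x * a) → x ∈ A)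
    (K : Submodule ℂ H) (hK : IsClosed (K : Set H))
    (hinv : ∀ e ∈ A, IsStarProjection e → ∀ v ∈ K, e v ∈ K) :
    ∃ c ∈ A, IsStarProjection c ∧ (∀ v, c v ∈ K) ∧ ∀ v ∈ K, c v = v := by
  have : CompleteSpace K := hK.completeSpace_coe
  refine ⟨K.starProjection, ?_, isStarProjection_starProjection, fun v => ?_, fun v hv => ?_⟩
  · apply hmax
    apply commute_of_commute_projections hA hmax
    intro e he hp
    have h1 : K.starProjection * e * K.starProjection = e * K.starProjection := by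
      ext v
      simp only [mul_apply_eq_comp]
      exact Submodule.starProjection_eq_self_iff.mpr
        (hinv e he hp _ (Submodule.starProjection_apply_mem K v))
    have h2 := congrArg star h1
    simp only [star_mul, hp.isSelfAdjoint.star_eq,
      (isStarProjection_starProjection (U := K)).isSelfAdjoint.star_eq] at h2
    exact h1.symm.trans ((mul_assoc _ _ _).trans h2)
  · exact Submodule.starProjection_apply_mem K v
  · exact Submodule.starProjection_eq_self_iff.mpr hv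

theorem exists_local_cyclic_closure (hA : ∀ a ∈ A, ∀ b ∈ A, a * b = b * a)
    (hmax : ∀ x : H →L[ℂ] H, (∀ a ∈ A, a * x = x * a) → x ∈ A) (F : Finset H) :
    ∃ ξ₀ : H, ∀ ξ ∈ F, ξ ∈ (projSpan A ξ₀).topologicalClosure := by
  classical
  induction F using Finset.induction_on with
  | empty => exact ⟨0, by simp⟩
  | insert ξ F _ ih =>
    obtain ⟨ξ₁, hF⟩ := ih
    obtain ⟨c, hcA, hcp, hcK, hcfix⟩ := exists_proj_of_invariant hA hmax
      (projSpan A ξ₁).topologicalClosure (projSpan A ξ₁).isClosed_topologicalClosure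
      (fun e he hp v hv => closure_projSpan_mapsTo hA he hp ξ₁ hv)
    have hc1 : c ξ₁ = ξ₁ :=
      hcfix _ ((projSpan A ξ₁).le_topologicalClosure (self_mem_projSpan ξ₁))
    set ξ₀ : H := ξ₁ + (1 - c) ξ with hξ₀
    have hcc : c ((1 - c) ξ) = 0 := by
      have := congrArg (fun S : H →L[ℂ] H => S ξ) hcp.mul_one_sub_self
      simpa using this
    have hcξ₀ : c ξ₀ = ξ₁ := by rw [hξ₀, map_add, hc1, hcc, add_zero]
    have h1c : (1 - c) ξ₀ = (1 - c) ξ := by
      have : (1 - c) ξ₀ = ξ₀ - c ξ₀ := by simp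
      rw [this, hcξ₀, hξ₀]
      abel
    have hle : projSpan A ξ₁ ≤ projSpan A ξ₀ := by
      unfold projSpan
      rw [Submodule.span_le]
      rintro _ ⟨e, he, hp, rfl⟩
      have : e ξ₁ = (e * c) ξ₀ := by simp [hcξ₀]
      show e ξ₁ ∈ _
      rw [this]
      exact mem_projSpan (A.mul_mem he hcA) (hp.mul hcp (hA _ he _ hcA)) ξ₀
    have hle' : (projSpan A ξ₁).topologicalClosure ≤ (projSpan A ξ₀).topologicalClosure :=
      Submodule.topologicalClosure_mono hle
    refine ⟨ξ₀, fun ζ hζ => ?_⟩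
    rcases Finset.mem_insert.mp hζ with rfl | hζ
    · have hsplit : ζ = c ζ + (1 - c) ζ := by simp
      rw [hsplit]
      refine Submodule.add_mem _ (hle' (hcK ζ)) ((projSpan A ξ₀).le_topologicalClosure ?_)
      rw [← h1c]
      exact mem_projSpan (A.sub_mem A.one_mem hcA) hcp.one_sub ξ₀
    · exact hle' (hF ζ hζ)

theorem exists_local_cyclic (hA : ∀ a ∈ A, ∀ b ∈ A, a * b = b * a)
    (hmax : ∀ x : H →L[ℂ] H, (∀ a ∈ A, a * x = x * a) → x ∈ A) (F : Finset H) :
    ∃ ξ₀ : H, ∀ ξ ∈ F, ∀ δ : ℝ, 0 < δ →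
      ∃ v ∈ Submodule.span ℂ {w | ∃ e ∈ A, IsStarProjection e ∧ w = e ξ₀}, ‖ξ - v‖ < δ := by
  obtain ⟨ξ₀, h⟩ := exists_local_cyclic_closure hA hmax F
  refine ⟨ξ₀, fun ξ hξ δ hδ => ?_⟩
  have h2 : ξ ∈ closure (projSpan A ξ₀ : Set H) := h ξ hξ
  obtain ⟨v, hv, hvδ⟩ := Metric.mem_closure_iff.mp h2 δ hδ
  exact ⟨v, hv, by rwa [← dist_eq_norm]⟩

end Vale.Agent.Lib.P078
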