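import Mathlib

/-!
# P078: definitions for strong-operator paving over a MASA

All notions follow the problem file: von Neumann algebra `M` on a complex Hilbert space `H`,
MASA `A` of `M`, partitions in `A`, pinchings, `(ε, r)` so-pavability and the paving number.
-/

namespace Vale.Agent.Lib.P078

variable {H : Type*} [NormedAddCommGroup H] [InnerProductSpace ℂ H] [CompleteSpace H]

/-- The algebra of all bounded operators on `H`, as a von Neumann algebra. -/
noncomputable def allOps (H : Type*) [NormedAddCommGroup H] [InnerProductSpace ℂ H]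
    [CompleteSpace H] : VonNeumannAlgebra H where
  toStarSubalgebra := ⊤
  centralizer_centralizer' := by
    apply Set.eq_univ_of_forall
    intro x
    rw [Set.mem_centralizer_iff]
    intro m hm
    exact (hm x (Set.mem_univ x)).symm

/-- `A` is a maximal abelian self-adjoint subalgebra of `M`: it is a commutative star subalgebra
of `M` that contains every element of `M` commuting with all of `A`. -/
def IsMASA (M : VonNeumannAlgebra H) (A : StarSubalgebra ℂ (H →L[ℂ] H)) : Prop :=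
  (∀ a ∈ A, a ∈ M) ∧ (∀ a ∈ A, ∀ b ∈ A, a * b = b * a) ∧
    ∀ x ∈ M, (∀ a ∈ A, a * x = x * a) → x ∈ A

/-- A finite family of mutually orthogonal projections of `A` with sum `1` (zeros allowed). -/
structure IsPartition (A : StarSubalgebra ℂ (H →L[ℂ] H)) {ι : Type*} [Fintype ι]
    (p : ι → H →L[ℂ] H) : Prop where
  mem : ∀ i, p i ∈ A
  proj : ∀ i, IsStarProjection (p i)
  orth : ∀ i j, i ≠ j → p i * p j = 0
  sum_eq : ∑ i, p i = 1

/-- The pinching `S_P(x) = ∑ i, p i * x * p i`. -/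
noncomputable def pinching {ι : Type*} [Fintype ι] (p : ι → H →L[ℂ] H) (x : H →L[ℂ] H) :
    H →L[ℂ] H :=
  ∑ i, p i * x * p i

/-- `x` is `(ε, r)` so-pavable over `A` inside `M`. -/
def SoPavable (M : VonNeumannAlgebra H) (A : StarSubalgebra ℂ (H →L[ℂ] H)) (x : H →L[ℂ] H)
    (ε : ℝ) (r : ℕ) : Prop :=
  ∀ (F : Finset H) (δ : ℝ), 0 < δ →
    ∃ (p : Fin r → H →L[ℂ] H) (a q : H →L[ℂ] H),
      IsPartition A p ∧ a ∈ A ∧ IsSelfAdjoint a ∧ ‖a‖ ≤ ‖x‖ ∧
      q ∈ M ∧ IsStarProjection q ∧ (∀ ξ ∈ F, ‖(1 - q) ξ‖ < δ) ∧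
      ‖q * (pinching p x - a) * q‖ ≤ ε * ‖x‖

/-- The paving number `n_{A ⊆ M}(ε)`: the least `r ≥ 1` such that every self-adjoint `x ∈ M` is
`(ε, r)` so-pavable, and `⊤` if there is no such `r`. -/
noncomputable def pavingNumber (M : VonNeumannAlgebra H) (A : StarSubalgebra ℂ (H →L[ℂ] H))
    (ε : ℝ) : ℕ∞ :=
  sInf {n : ℕ∞ | ∃ r : ℕ, 1 ≤ r ∧ (r : ℕ∞) = n ∧
    ∀ x ∈ M, IsSelfAdjoint x → SoPavable M A x ε r}

end Vale.Agent.Lib.P078
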