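import Vale.Agent.Lib.P078.Step

/-!
# P078 (subtask T2): a MASA of `B(H)` without minimal projections has fine partitions

Fix `ξ` and `τ > 0`.  Call a projection `p ∈ A` *good* if it is a finite sum of mutually orthogonal
projections `e j ∈ A` with `‖e j ξ‖ ≤ τ`.  `0` is good; the sum of two orthogonal good projections is good.
Suppose `1` is not good.
(N) Let `C` be a nonempty chain (for `p ≤ p' ↔ p * p' = p`) of projections of `A`, `L = ⨆ p ∈ C, ker p`, `K = Lᗮ`
    and `P` the orthogonal projection onto `K`.  Then `P ∈ A` (`K` is invariant under `A`, use `hmax`),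
    `P * p = P` for `p ∈ C`, and for every `η > 0` there is `p ∈ C` with `‖p ξ - P ξ‖ ≤ η`
    (`ξ - P ξ` lies in `Kᗮ`, the closure of the directed union `L`).
(Z) By (N) every chain of non-good projections has a non-good lower bound.  Zorn gives a minimal non-good `p₀`,
    which `hdiff` splits into two strictly smaller, hence good, projections: contradiction.
-/

namespace Vale.Agent.Lib.P078

open scoped InnerProductSpace

variable {H : Type*} [NormedAddCommGroup H] [InnerProductSpace ℂ H] [CompleteSpace H]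

/-- `p` is a finite orthogonal sum of projections of `A` that are small on `ξ`. -/
def FineGood (A : StarSubalgebra ℂ (H →L[ℂ] H)) (ξ : H) (τ : ℝ) (p : H →L[ℂ] H) : Prop :=
  ∃ (ι : Type) (_ : Fintype ι) (e : ι → H →L[ℂ] H), (∀ i, e i ∈ A) ∧
    (∀ i, IsStarProjection (e i)) ∧ (∀ i j, i ≠ j → e i * e j = 0) ∧ ∑ i, e i = p ∧
    ∀ j, ‖e j ξ‖ ≤ τ

variable {A : StarSubalgebra ℂ (H →L[ℂ] H)} {ξ : H} {τ : ℝ}

lemma FineGood.zero : FineGood A ξ τ 0 :=
  ⟨Empty, inferInstance, fun i => i.elim, fun i => i.elim, fun i => i.elim, fun i => i.elim,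
    by simp, fun i => i.elim⟩

lemma FineGood.single {p : H →L[ℂ] H} (hp : p ∈ A) (hproj : IsStarProjection p)
    (h : ‖p ξ‖ ≤ τ) : FineGood A ξ τ p :=
  ⟨Unit, inferInstance, fun _ => p, fun _ => hp, fun _ => hproj,
    fun i j h => absurd (Subsingleton.elim i j) h, by simp, fun _ => h⟩

lemma mul_sum_self {ι : Type*} [Fintype ι] {e : ι → H →L[ℂ] H}
    (h2 : ∀ i, IsStarProjection (e i)) (h3 : ∀ i j, i ≠ j → e i * e j = 0) (i : ι) :
    e i * ∑ k, e k = e i := by
  classical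
  rw [Finset.mul_sum, Finset.sum_eq_single i]
  · exact (h2 i).isIdempotentElem.eq
  · intro j _ hj
    exact h3 i j (Ne.symm hj)
  · intro h
    exact absurd (Finset.mem_univ i) h

lemma sum_mul_self {ι : Type*} [Fintype ι] {e : ι → H →L[ℂ] H}
    (h2 : ∀ i, IsStarProjection (e i)) (h3 : ∀ i j, i ≠ j → e i * e j = 0) (i : ι) :
    (∑ k, e k) * e i = e i := by
  classical
  rw [Finset.sum_mul, Finset.sum_eq_single i]
  · exact (h2 i).isIdempotentElem.eq
  · intro j _ hj
    exact h3 j i hj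
  · intro h
    exact absurd (Finset.mem_univ i) h

lemma FineGood.add {p q : H →L[ℂ] H} (hp : FineGood A ξ τ p) (hq : FineGood A ξ τ q)
    (hpq : p * q = 0) (hqp : q * p = 0) : FineGood A ξ τ (p + q) := by
  obtain ⟨ι, _, e, he1, he2, he3, rfl, he5⟩ := hp
  obtain ⟨κ, _, g, hg1, hg2, hg3, rfl, hg5⟩ := hq
  refine ⟨ι ⊕ κ, inferInstance, Sum.elim e g, ?_, ?_, ?_, ?_, ?_⟩
  · rintro (i | j)
    · exact he1 i
    · exact hg1 j
  · rintro (i | j)
    · exact he2 i
    · exact hg2 j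
  · rintro (i | j) (i' | j') h
    · exact he3 i i' fun h' => h (by rw [h'])
    · show e i * g j' = 0
      rw [← mul_sum_self he2 he3 i, ← sum_mul_self hg2 hg3 j', mul_assoc, ← mul_assoc _ _ (g j'),
        hpq, zero_mul, mul_zero]
    · show g j * e i' = 0
      rw [← mul_sum_self hg2 hg3 j, ← sum_mul_self he2 he3 i', mul_assoc, ← mul_assoc _ _ (e i'),
        hqp, zero_mul, mul_zero]
    · exact hg3 j j' fun h' => h (by rw [h'])
  · simp
  · rintro (i | j)
    · exact he5 i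
    · exact hg5 j

/-- (N): the infimum of a chain of projections of a MASA. -/
lemma chain_inf (hA : ∀ a ∈ A, ∀ b ∈ A, a * b = b * a)
    (hmax : ∀ x : H →L[ℂ] H, (∀ a ∈ A, a * x = x * a) → x ∈ A)
    (C : Set (H →L[ℂ] H)) (hCne : C.Nonempty) (hCA : ∀ p ∈ C, p ∈ A)
    (hCp : ∀ p ∈ C, IsStarProjection p) (hch : ∀ p ∈ C, ∀ q ∈ C, p * q = p ∨ q * p = q) (ξ : H) :
    ∃ P ∈ A, IsStarProjection P ∧ (∀ p ∈ C, P * p = P) ∧
      ∀ η : ℝ, 0 < η → ∃ p ∈ C, ‖p ξ - P ξ‖ ≤ η := by
  classical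
  have : Nonempty C := hCne.to_subtype
  let S : C → Submodule ℂ H := fun p => LinearMap.ker ((p : H →L[ℂ] H) : H →ₗ[ℂ] H)
  have hS : ∀ (p : C) (v : H), v ∈ S p ↔ (p : H →L[ℂ] H) v = 0 := fun p v => by
    simp [S]
  have hdir : Directed (· ≤ ·) S := by
    intro p q
    rcases hch p p.2 q q.2 with h | h
    · refine ⟨p, le_rfl, fun v hv => ?_⟩
      rw [hS] at hv ⊢
      have h' : (p : H →L[ℂ] H) ((q : H →L[ℂ] H) v) = (p : H →L[ℂ] H) v :=
        congrArg (fun T : H →L[ℂ] H => T v) h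
      rw [← h', hv, map_zero]
    · refine ⟨q, fun v hv => ?_, le_rfl⟩
      rw [hS] at hv ⊢
      have h' : (q : H →L[ℂ] H) ((p : H →L[ℂ] H) v) = (q : H →L[ℂ] H) v :=
        congrArg (fun T : H →L[ℂ] H => T v) h
      rw [← h', hv, map_zero]
  have hL : ∀ v : H, v ∈ iSup S ↔ ∃ p : C, (p : H →L[ℂ] H) v = 0 := by
    intro v
    rw [Submodule.mem_iSup_of_directed S hdir]
    exact exists_congr fun p => hS p v
  -- invariance of `L`
  have hLinv : ∀ a ∈ A, ∀ v ∈ iSup S, a v ∈ iSup S := by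
    intro a ha v hv
    rw [hL] at hv ⊢
    obtain ⟨p, hp⟩ := hv
    refine ⟨p, ?_⟩
    have h' : (p : H →L[ℂ] H) (a v) = a ((p : H →L[ℂ] H) v) :=
      congrArg (fun T : H →L[ℂ] H => T v) (hA _ (hCA p p.2) a ha)
    rw [h', hp, map_zero]
  have hstar : ∀ (a : H →L[ℂ] H) (u v : H), ⟪u, a v⟫_ℂ = ⟪(star a) u, v⟫_ℂ := by
    intro a u v
    rw [ContinuousLinearMap.star_eq_adjoint, ContinuousLinearMap.adjoint_inner_left]
  have hKinv : ∀ a ∈ A, ∀ v ∈ (iSup S)ᗮ, a v ∈ (iSup S)ᗮ := by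
    intro a ha v hv
    rw [Submodule.mem_orthogonal] at hv ⊢
    intro u hu
    rw [hstar]
    exact hv _ (hLinv _ (star_mem ha) u hu)
  have hKoinv : ∀ a ∈ A, ∀ v ∈ (iSup S)ᗮᗮ, a v ∈ (iSup S)ᗮᗮ := by
    intro a ha v hv
    rw [Submodule.mem_orthogonal] at hv ⊢
    intro u hu
    rw [hstar]
    exact hv _ (hKinv _ (star_mem ha) u hu)
  have hK : ∀ v ∈ (iSup S)ᗮ, ∀ p ∈ C, p v = v := by
    intro v hv p hp
    have hpp := hCp p hp
    have hu : v - p v ∈ iSup S := by
      rw [hL]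
      refine ⟨⟨p, hp⟩, ?_⟩
      show p (v - p v) = 0
      rw [map_sub, proj_apply_apply hpp, sub_self]
    have h0 : p (v - p v) = 0 := by rw [map_sub, proj_apply_apply hpp, sub_self]
    have h1 : ⟪v - p v, v⟫_ℂ = 0 := (Submodule.mem_orthogonal _ _).1 hv _ hu
    have h2 : ⟪v - p v, p v⟫_ℂ = 0 := by
      rw [← sa_inner hpp.isSelfAdjoint, h0, inner_zero_left]
    have h3 : ⟪v - p v, v - p v⟫_ℂ = 0 := by
      rw [inner_sub_right, h1, h2, sub_zero]
    have h4 : v - p v = 0 := inner_self_eq_zero.1 h3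
    exact (sub_eq_zero.1 h4).symm
  have hPmem : ∀ v : H, (iSup S)ᗮ.starProjection v ∈ (iSup S)ᗮ :=
    fun v => Submodule.starProjection_apply_mem _ v
  have hPA : (iSup S)ᗮ.starProjection ∈ A := by
    refine hmax _ fun a ha => ?_
    ext v
    show a ((iSup S)ᗮ.starProjection v) = (iSup S)ᗮ.starProjection (a v)
    symm
    refine Submodule.eq_starProjection_of_mem_orthogonal (hKinv a ha _ (hPmem v)) ?_
    rw [← map_sub]
    exact hKoinv a ha _ (Submodule.sub_starProjection_mem_orthogonal v)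
  refine ⟨(iSup S)ᗮ.starProjection, hPA, isStarProjection_starProjection, ?_, ?_⟩
  · intro p hp
    rw [hA _ hPA p (hCA p hp)]
    ext v
    exact hK _ (hPmem v) p hp
  · intro η hη
    have h1 : ξ - (iSup S)ᗮ.starProjection ξ ∈ (iSup S).topologicalClosure := by
      rw [← Submodule.orthogonal_orthogonal_eq_closure]
      exact Submodule.sub_starProjection_mem_orthogonal ξ
    have h2 : ξ - (iSup S)ᗮ.starProjection ξ ∈ closure ((iSup S : Submodule ℂ H) : Set H) := h1
    rw [Metric.mem_closure_iff] at h2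
    obtain ⟨u, hu, hdist⟩ := h2 η hη
    obtain ⟨p, hp⟩ := (hL u).1 hu
    refine ⟨p, p.2, ?_⟩
    have h3 : (p : H →L[ℂ] H) ξ - (iSup S)ᗮ.starProjection ξ
        = (p : H →L[ℂ] H) (ξ - (iSup S)ᗮ.starProjection ξ - u) := by
      rw [map_sub, map_sub, hp, sub_zero, hK _ (hPmem ξ) p p.2]
    rw [h3]
    refine (proj_norm_le (hCp p p.2) _).trans ?_
    rw [← dist_eq_norm]
    exact hdist.le

theorem exists_fine_partition {A : StarSubalgebra ℂ (H →L[ℂ] H)}
    (hA : ∀ a ∈ A, ∀ b ∈ A, a * b = b * a)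
    (hmax : ∀ x : H →L[ℂ] H, (∀ a ∈ A, a * x = x * a) → x ∈ A)
    (hdiff : ∀ p ∈ A, IsStarProjection p → p ≠ 0 →
      ∃ q ∈ A, IsStarProjection q ∧ q * p = q ∧ q ≠ 0 ∧ q ≠ p)
    (ξ : H) {τ : ℝ} (hτ : 0 < τ) :
    ∃ (ι : Type) (_ : Fintype ι) (e : ι → H →L[ℂ] H), IsPartition A e ∧ ∀ j, ‖e j ξ‖ ≤ τ := by
  classical
  by_contra hcon
  have h1 : ¬ FineGood A ξ τ 1 := by
    rintro ⟨ι, _, e, h1, h2, h3, h4, h5⟩
    exact hcon ⟨ι, _, e, ⟨h1, h2, h3, h4⟩, h5⟩
  let α := {p : H →L[ℂ] H // p ∈ A ∧ IsStarProjection p ∧ ¬ FineGood A ξ τ p}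
  let r : α → α → Prop := fun a b => b.1 * a.1 = b.1
  have hzorn : ∃ m : α, ∀ a : α, r m a → r a m := by
    refine exists_maximal_of_chains_bounded ?_ ?_
    · intro c hc
      by_cases hne : c.Nonempty
      · obtain ⟨P, hPA, hPp, hPle, hPapp⟩ := chain_inf hA hmax (Subtype.val '' c) (hne.image _)
          (by rintro _ ⟨a, _, rfl⟩; exact a.2.1) (by rintro _ ⟨a, _, rfl⟩; exact a.2.2.1)
          (by
            rintro _ ⟨a, ha, rfl⟩ _ ⟨b, hb, rfl⟩
            by_cases hab : a = b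
            · subst hab
              exact Or.inl a.2.2.1.isIdempotentElem.eq
            · rcases hc ha hb hab with h | h
              · exact Or.inr h
              · exact Or.inl h) ξ
        have hPng : ¬ FineGood A ξ τ P := by
          intro hPg
          obtain ⟨_, ⟨a, ha, rfl⟩, hap⟩ := hPapp τ hτ
          have hPa : P * a.1 = P := hPle _ ⟨a, ha, rfl⟩
          have haP : a.1 * P = P := by rw [hA _ a.2.1 _ hPA, hPa]
          have hd : IsStarProjection (a.1 - P) := by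
            refine ⟨?_, a.2.2.1.isSelfAdjoint.sub hPp.isSelfAdjoint⟩
            show (a.1 - P) * (a.1 - P) = a.1 - P
            rw [mul_sub, sub_mul, sub_mul, a.2.2.1.isIdempotentElem.eq, hPa, haP,
              hPp.isIdempotentElem.eq]
            abel
          have hg : FineGood A ξ τ (a.1 - P) := by
            refine FineGood.single (A.sub_mem a.2.1 hPA) hd ?_
            simpa using hap
          have hsum := hPg.add hg (by rw [mul_sub, hPa, hPp.isIdempotentElem.eq, sub_self])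
            (by rw [sub_mul, haP, hPp.isIdempotentElem.eq, sub_self])
          rw [add_sub_cancel] at hsum
          exact a.2.2.2 hsum
        exact ⟨⟨P, hPA, hPp, hPng⟩, fun a ha => hPle _ ⟨a, ha, rfl⟩⟩
      · refine ⟨⟨1, A.one_mem, IsStarProjection.one _, h1⟩, fun a ha => ?_⟩
        exact absurd ⟨a, ha⟩ hne
    · intro a b c hab hbc
      show c.1 * a.1 = c.1
      have hab' : b.1 * a.1 = b.1 := hab
      have hbc' : c.1 * b.1 = c.1 := hbc
      rw [← hbc', mul_assoc, hab']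
  obtain ⟨m, hm⟩ := hzorn
  have hm0 : m.1 ≠ 0 := by
    intro h
    exact m.2.2.2 (h ▸ FineGood.zero)
  obtain ⟨q, hqA, hqp, hqm, hq0, hqne⟩ := hdiff m.1 m.2.1 m.2.2.1 hm0
  have hmq : m.1 * q = q := by rw [hA _ m.2.1 _ hqA, hqm]
  have hqg : FineGood A ξ τ q := by
    by_contra hng
    have h := hm ⟨q, hqA, hqp, hng⟩ hqm
    have h' : m.1 * q = m.1 := h
    exact hqne (hmq.symm.trans h')
  have hd : IsStarProjection (m.1 - q) := by
    refine ⟨?_, m.2.2.1.isSelfAdjoint.sub hqp.isSelfAdjoint⟩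
    show (m.1 - q) * (m.1 - q) = m.1 - q
    rw [mul_sub, sub_mul, sub_mul, m.2.2.1.isIdempotentElem.eq, hqm, hmq,
      hqp.isIdempotentElem.eq]
    abel
  have hdg : FineGood A ξ τ (m.1 - q) := by
    by_contra hng
    have h := hm ⟨m.1 - q, A.sub_mem m.2.1 hqA, hd, hng⟩
      (by show (m.1 - q) * m.1 = m.1 - q; rw [sub_mul, m.2.2.1.isIdempotentElem.eq, hqm])
    have h' : m.1 * (m.1 - q) = m.1 := h
    rw [mul_sub, m.2.2.1.isIdempotentElem.eq, hmq] at h'
    exact hq0 (by simpa using h')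
  have hsum := hqg.add hdg (by rw [mul_sub, hqm, hqp.isIdempotentElem.eq, sub_self])
    (by rw [sub_mul, hmq, hqp.isIdempotentElem.eq, sub_self])
  rw [add_sub_cancel] at hsum
  exact m.2.2.2 hsum

end Vale.Agent.Lib.P078
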