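import Vale.Agent.Lib.P078.Basic

/-!
# P078: the lower bound

If a commutative algebra `A` of operators has arbitrarily fine partitions with respect to a unit
vector `ξ`, then the reflection `2|ξ⟩⟨ξ| - 1` is not `(ε, r)` so-pavable for `ε < 1 / r`.
-/

set_option linter.unusedSectionVars false

namespace Vale.Agent.Lib.P078

open scoped InnerProductSpace
open InnerProductSpace (rankOne)

variable {H : Type*} [NormedAddCommGroup H] [InnerProductSpace ℂ H] [CompleteSpace H]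

/-- The reflection `2|ξ⟩⟨ξ| - 1`. -/
noncomputable def refl (ξ : H) : H →L[ℂ] H := (2 : ℂ) • rankOne ℂ ξ ξ - 1

lemma refl_apply (ξ v : H) : refl ξ v = (2 * ⟪ξ, v⟫_ℂ) • ξ - v := by
  simp [refl, smul_smul]

lemma refl_isSelfAdjoint (ξ : H) : IsSelfAdjoint (refl ξ) := by
  unfold refl
  refine IsSelfAdjoint.sub ?_ (IsSelfAdjoint.one _)
  rw [IsSelfAdjoint, star_smul, ContinuousLinearMap.star_eq_adjoint,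
    InnerProductSpace.adjoint_rankOne]
  simp

lemma refl_mul_self {ξ : H} (hξ : ‖ξ‖ = 1) : refl ξ * refl ξ = 1 := by
  ext v
  simp only [mul_apply_eq_comp, refl_apply, one_apply_eq_self]
  rw [inner_sub_right, inner_smul_right, inner_self_eq_norm_sq_to_K, hξ]
  simp only [map_one, one_pow, mul_one]
  rw [show (2 * (2 * ⟪ξ, v⟫_ℂ - ⟪ξ, v⟫_ℂ)) = 2 * ⟪ξ, v⟫_ℂ by ring]
  abel

lemma refl_norm_le {ξ : H} (hξ : ‖ξ‖ = 1) : ‖refl ξ‖ ≤ 1 := by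
  have h1 : ‖star (refl ξ) * refl ξ‖ = ‖refl ξ‖ * ‖refl ξ‖ := CStarRing.norm_star_mul_self
  rw [(refl_isSelfAdjoint ξ).star_eq, refl_mul_self hξ] at h1
  have h2 : ‖(1 : H →L[ℂ] H)‖ ≤ 1 := ContinuousLinearMap.norm_id_le
  nlinarith [norm_nonneg (refl ξ)]

/-- If the compression `q y q` is small and `q` almost fixes `ζ`, the form of `y` at `ζ` is
small. -/
lemma norm_inner_le_of_compression {y q : H →L[ℂ] H} (hq : IsStarProjection q) {κ δ C : ℝ}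
    (hy : ‖y‖ ≤ C) (hκ : ‖q * y * q‖ ≤ κ) (ζ : H) (hζ : ‖(1 - q) ζ‖ ≤ δ) :
    ‖⟪ζ, y ζ⟫_ℂ‖ ≤ κ * ‖ζ‖ ^ 2 + 2 * C * ‖ζ‖ * δ := by
  have hC : 0 ≤ C := (norm_nonneg _).trans hy
  have hδ : 0 ≤ δ := (norm_nonneg _).trans hζ
  set ζ₁ := q ζ with hζ₁
  set ζ₂ := (1 - q) ζ with hζ₂
  have hsplit : ζ = ζ₁ + ζ₂ := by simp [hζ₁, hζ₂]
  have h1 : ⟪ζ, y ζ⟫_ℂ = ⟪ζ, (q * y * q) ζ⟫_ℂ + ⟪ζ₁, y ζ₂⟫_ℂ + ⟪ζ₂, y ζ⟫_ℂ := by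
    have e1 : ⟪ζ, (q * y * q) ζ⟫_ℂ = ⟪ζ₁, y ζ₁⟫_ℂ := by
      simp only [mul_apply_eq_comp]
      rw [← sa_inner hq.isSelfAdjoint]
    rw [e1]
    calc ⟪ζ, y ζ⟫_ℂ = ⟪ζ₁ + ζ₂, y ζ⟫_ℂ := by rw [← hsplit]
      _ = ⟪ζ₁, y ζ⟫_ℂ + ⟪ζ₂, y ζ⟫_ℂ := inner_add_left _ _ _
      _ = ⟪ζ₁, y (ζ₁ + ζ₂)⟫_ℂ + ⟪ζ₂, y ζ⟫_ℂ := by rw [← hsplit]
      _ = ⟪ζ₁, y ζ₁⟫_ℂ + ⟪ζ₁, y ζ₂⟫_ℂ + ⟪ζ₂, y ζ⟫_ℂ := by rw [map_add, inner_add_right]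
  have hζ₁n : ‖ζ₁‖ ≤ ‖ζ‖ := proj_norm_le hq ζ
  have b1 : ‖⟪ζ, (q * y * q) ζ⟫_ℂ‖ ≤ κ * ‖ζ‖ ^ 2 := by
    calc ‖⟪ζ, (q * y * q) ζ⟫_ℂ‖ ≤ ‖ζ‖ * ‖(q * y * q) ζ‖ := norm_inner_le_norm _ _
      _ ≤ ‖ζ‖ * (‖q * y * q‖ * ‖ζ‖) := by gcongr; exact (q * y * q).le_opNorm ζ
      _ ≤ ‖ζ‖ * (κ * ‖ζ‖) := by gcongr
      _ = κ * ‖ζ‖ ^ 2 := by ring
  have b2 : ‖⟪ζ₁, y ζ₂⟫_ℂ‖ ≤ C * ‖ζ‖ * δ := by
    calc ‖⟪ζ₁, y ζ₂⟫_ℂ‖ ≤ ‖ζ₁‖ * ‖y ζ₂‖ := norm_inner_le_norm _ _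
      _ ≤ ‖ζ‖ * (‖y‖ * ‖ζ₂‖) := by gcongr; exact y.le_opNorm ζ₂
      _ ≤ ‖ζ‖ * (C * δ) := by gcongr
      _ = C * ‖ζ‖ * δ := by ring
  have b3 : ‖⟪ζ₂, y ζ⟫_ℂ‖ ≤ C * ‖ζ‖ * δ := by
    calc ‖⟪ζ₂, y ζ⟫_ℂ‖ ≤ ‖ζ₂‖ * ‖y ζ‖ := norm_inner_le_norm _ _
      _ ≤ δ * (‖y‖ * ‖ζ‖) := by gcongr; exact y.le_opNorm ζ
      _ ≤ δ * (C * ‖ζ‖) := by gcongr
      _ = C * ‖ζ‖ * δ := by ring
  rw [h1]
  calc ‖⟪ζ, (q * y * q) ζ⟫_ℂ + ⟪ζ₁, y ζ₂⟫_ℂ + ⟪ζ₂, y ζ⟫_ℂ‖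
      ≤ ‖⟪ζ, (q * y * q) ζ⟫_ℂ‖ + ‖⟪ζ₁, y ζ₂⟫_ℂ‖ + ‖⟪ζ₂, y ζ⟫_ℂ‖ := norm_add₃_le
    _ ≤ κ * ‖ζ‖ ^ 2 + C * ‖ζ‖ * δ + C * ‖ζ‖ * δ := by gcongr
    _ = κ * ‖ζ‖ ^ 2 + 2 * C * ‖ζ‖ * δ := by ring

/-- The quadratic form of a pinching of the reflection. -/
lemma re_inner_pinching_refl {A : StarSubalgebra ℂ (H →L[ℂ] H)} {ι : Type*} [Fintype ι]
    {p : ι → H →L[ℂ] H} (hp : IsPartition A p) (ξ ζ : H) :
    (⟪ζ, pinching p (refl ξ) ζ⟫_ℂ).re = 2 * ∑ c, ‖⟪p c ξ, ζ⟫_ℂ‖ ^ 2 - ‖ζ‖ ^ 2 := by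
  have h1 : pinching p (refl ξ) ζ = ∑ c, ((2 * ⟪p c ξ, ζ⟫_ℂ) • p c ξ - p c ζ) := by
    simp only [pinching, _root_.sum_apply, mul_apply_eq_comp, refl_apply, map_sub, map_smul]
    refine Finset.sum_congr rfl fun c _ => ?_
    rw [proj_apply_apply (hp.proj c), sa_inner (hp.proj c).isSelfAdjoint]
  rw [h1, Finset.sum_sub_distrib, hp.sum_apply, inner_sub_right, inner_sum, Complex.sub_re,
    inner_self_ofReal, Complex.ofReal_re, Complex.re_sum, Finset.mul_sum]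
  congr 1
  refine Finset.sum_congr rfl fun c _ => ?_
  rw [inner_smul_right, mul_assoc, ← inner_conj_symm ζ (p c ξ), Complex.mul_conj,
    Complex.normSq_eq_norm_sq, ← Complex.ofReal_ofNat, ← Complex.ofReal_mul, Complex.ofReal_re]

theorem not_soPavable_refl {M : VonNeumannAlgebra H} {A : StarSubalgebra ℂ (H →L[ℂ] H)}
    (hA : ∀ a ∈ A, ∀ b ∈ A, a * b = b * a) {ξ : H} (hξ : ‖ξ‖ = 1)
    (hfine : ∀ τ : ℝ, 0 < τ → ∃ (ι : Type) (_ : Fintype ι) (e : ι → H →L[ℂ] H),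
      IsPartition A e ∧ ∀ j, ‖e j ξ‖ ≤ τ)
    {r : ℕ} (hr : 0 < r) {ε : ℝ} (hε0 : 0 ≤ ε) (hε : ε < 1 / r) :
    ¬ SoPavable M A (refl ξ) ε r := by
  classical
  intro hpav
  have hr0 : (0 : ℝ) < r := by exact_mod_cast hr
  set gap : ℝ := 1 / r - ε with hgap
  have hgap0 : 0 < gap := by rw [hgap]; linarith
  obtain ⟨ι, _, e, he, hτ⟩ := hfine (gap / 3) (by positivity)
  set J : ℝ := (Fintype.card ι : ℝ) with hJ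
  have hJ0 : 0 ≤ J := by positivity
  set δ : ℝ := gap / (6 * (J + 1)) with hδ
  have hδ0 : 0 < δ := by positivity
  obtain ⟨p, a, q, hp, haA, hasa, hanorm, -, hq, hqF, hnorm⟩ :=
    hpav (insert ξ (Finset.univ.image fun j => e j ξ)) δ hδ0
  have hx1 : ‖refl ξ‖ ≤ 1 := refl_norm_le hξ
  set y : H →L[ℂ] H := pinching p (refl ξ) - a with hy
  have hy2 : ‖y‖ ≤ 2 := by
    calc ‖y‖ ≤ ‖pinching p (refl ξ)‖ + ‖a‖ := norm_sub_le _ _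
      _ ≤ ‖refl ξ‖ + ‖refl ξ‖ := add_le_add (hp.norm_pinching_le _) hanorm
      _ ≤ 2 := by linarith
  have hκ : ‖q * y * q‖ ≤ ε := by
    calc ‖q * y * q‖ ≤ ε * ‖refl ξ‖ := hnorm
      _ ≤ ε * 1 := by gcongr
      _ = ε := mul_one _
  have hK : ∀ ζ ∈ insert ξ (Finset.univ.image fun j => e j ξ),
      |(⟪ζ, y ζ⟫_ℂ).re| ≤ ε * ‖ζ‖ ^ 2 + 2 * 2 * ‖ζ‖ * δ := by
    intro ζ hζ
    exact (Complex.abs_re_le_norm _).trans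
      (norm_inner_le_of_compression hq hy2 hκ ζ (hqF ζ hζ).le)
  have hform : ∀ ζ : H, (⟪ζ, y ζ⟫_ℂ).re
      = 2 * ∑ c, ‖⟪p c ξ, ζ⟫_ℂ‖ ^ 2 - ‖ζ‖ ^ 2 - (⟪ζ, a ζ⟫_ℂ).re := by
    intro ζ
    rw [hy, sub_apply, inner_sub_right, Complex.sub_re,
      re_inner_pinching_refl hp]
  set α : ℝ := (⟪ξ, a ξ⟫_ℂ).re with hα
  -- the vector `ξ`
  have h1 : 2 / (r : ℝ) - 1 - α ≤ ε + 4 * δ := by
    have hk := (abs_le.mp (hK ξ (Finset.mem_insert_self _ _))).2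
    rw [hform ξ, hξ] at hk
    have hs : ∀ c, ‖⟪p c ξ, ξ⟫_ℂ‖ ^ 2 = (‖p c ξ‖ ^ 2) ^ 2 := by
      intro c
      rw [proj_inner_left (hp.proj c), inner_self_ofReal, Complex.norm_real, Real.norm_eq_abs,
        sq_abs]
    have hcs : (∑ c, ‖p c ξ‖ ^ 2) ^ 2 ≤ (r : ℝ) * ∑ c, (‖p c ξ‖ ^ 2) ^ 2 := by
      have := sq_sum_le_card_mul_sum_sq (s := (Finset.univ : Finset (Fin r)))
        (f := fun c => ‖p c ξ‖ ^ 2)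
      simpa using this
    rw [hp.parseval, hξ] at hcs
    have hcs' : 1 / (r : ℝ) ≤ ∑ c, (‖p c ξ‖ ^ 2) ^ 2 := by
      rw [div_le_iff₀ hr0]
      nlinarith
    rw [Finset.sum_congr rfl fun c _ => hs c] at hk
    have : 2 / (r : ℝ) = 2 * (1 / r) := by ring
    rw [this]
    nlinarith
  -- the vectors `e j ξ`
  have h2 : 1 + α ≤ 2 * (gap / 3) + ε + 4 * δ * J := by
    have hk : ∀ j, -(ε * ‖e j ξ‖ ^ 2 + 4 * δ) ≤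
        2 * (gap / 3 * ‖e j ξ‖ ^ 2) - ‖e j ξ‖ ^ 2 - (⟪ξ, a (e j ξ)⟫_ℂ).re := by
      intro j
      have hmem : e j ξ ∈ insert ξ (Finset.univ.image fun j => e j ξ) :=
        Finset.mem_insert_of_mem (Finset.mem_image_of_mem _ (Finset.mem_univ j))
      have hk := (abs_le.mp (hK _ hmem)).1
      rw [hform (e j ξ)] at hk
      have hn1 : ‖e j ξ‖ ≤ 1 := by
        have := proj_norm_le (he.proj j) ξ
        rwa [hξ] at this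
      have hn0 : 0 ≤ ‖e j ξ‖ := norm_nonneg _
      have hs : ∑ c, ‖⟪p c ξ, e j ξ⟫_ℂ‖ ^ 2 ≤ gap / 3 * ‖e j ξ‖ ^ 2 := by
        have hs1 : ∀ c, ‖⟪p c ξ, e j ξ⟫_ℂ‖ ^ 2 ≤ ‖p c (e j ξ)‖ ^ 2 * ‖e j ξ‖ ^ 2 := by
          intro c
          have hcomm : e j (p c ξ) = p c (e j ξ) := by
            have := congrArg (fun T : H →L[ℂ] H => T ξ) (hA _ (he.mem j) _ (hp.mem c))
            simpa using this
          have : ‖⟪p c ξ, e j ξ⟫_ℂ‖ ≤ ‖p c (e j ξ)‖ * ‖e j ξ‖ := by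
            rw [proj_inner_right (he.proj j), hcomm]
            exact norm_inner_le_norm _ _
          calc ‖⟪p c ξ, e j ξ⟫_ℂ‖ ^ 2 ≤ (‖p c (e j ξ)‖ * ‖e j ξ‖) ^ 2 := by gcongr
            _ = ‖p c (e j ξ)‖ ^ 2 * ‖e j ξ‖ ^ 2 := mul_pow _ _ _
        calc ∑ c, ‖⟪p c ξ, e j ξ⟫_ℂ‖ ^ 2 ≤ ∑ c, ‖p c (e j ξ)‖ ^ 2 * ‖e j ξ‖ ^ 2 :=
              Finset.sum_le_sum fun c _ => hs1 c
          _ = ‖e j ξ‖ ^ 2 * ‖e j ξ‖ ^ 2 := by rw [← Finset.sum_mul, hp.parseval]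
          _ ≤ gap / 3 * ‖e j ξ‖ ^ 2 := by
              have : ‖e j ξ‖ ^ 2 ≤ gap / 3 := by
                calc ‖e j ξ‖ ^ 2 = ‖e j ξ‖ * ‖e j ξ‖ := sq _
                  _ ≤ gap / 3 * 1 := mul_le_mul (hτ j) hn1 hn0 (by positivity)
                  _ = gap / 3 := mul_one _
              gcongr
      have ha : ⟪e j ξ, a (e j ξ)⟫_ℂ = ⟪ξ, a (e j ξ)⟫_ℂ := by
        have hcomm : e j (a (e j ξ)) = a (e j ξ) := by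
          have := congrArg (fun T : H →L[ℂ] H => T (e j ξ)) (hA _ (he.mem j) _ haA)
          simp only [mul_apply_eq_comp] at this
          rw [this, proj_apply_apply (he.proj j)]
        rw [sa_inner (he.proj j).isSelfAdjoint, hcomm]
      rw [ha] at hk
      have hδn : 2 * 2 * ‖e j ξ‖ * δ ≤ 4 * δ := by nlinarith
      linarith
    have hsum := Finset.sum_le_sum fun j (_ : j ∈ (Finset.univ : Finset ι)) => hk j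
    have hpar := he.parseval ξ
    rw [hξ] at hpar
    have hasum : ∑ j, (⟪ξ, a (e j ξ)⟫_ℂ).re = α := by
      rw [hα, ← Complex.re_sum, ← inner_sum, ← map_sum, he.sum_apply]
    simp only [Finset.sum_sub_distrib, Finset.sum_neg_distrib, Finset.sum_add_distrib,
      ← Finset.mul_sum, hpar, hasum, Finset.sum_const, Finset.card_univ, nsmul_eq_mul] at hsum
    rw [← hJ] at hsum
    nlinarith
  have h3 : 4 * δ * (J + 1) = 2 * gap / 3 := by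
    rw [hδ]
    field_simp
    ring
  have h4 : 2 / (r : ℝ) = 2 * ε + 2 * gap := by
    rw [hgap]
    ring
  nlinarith

end Vale.Agent.Lib.P078
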