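import Vale.Agent.Lib.P078.Boundary
import Vale.Agent.Lib.P078.Cyclic
import Vale.Agent.Lib.P078.Fine
import Vale.Agent.Lib.P078.Lower

/-!
# P078: the paving number of an arbitrary diffuse MASA of `B(H)`
-/

set_option linter.unusedSectionVars false

namespace Vale.Agent.Lib.P078

variable {H : Type*} [NormedAddCommGroup H] [InnerProductSpace ℂ H] [CompleteSpace H]
variable {A : StarSubalgebra ℂ (H →L[ℂ] H)}

/-- `A` is diffuse: it has no minimal projection, that is, below every nonzero projection `p` of `A`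
there is a projection `q` of `A` different from `0` and from `p`. -/
def IsDiffuse (A : StarSubalgebra ℂ (H →L[ℂ] H)) : Prop :=
  ∀ p ∈ A, IsStarProjection p → p ≠ 0 →
    ∃ q ∈ A, IsStarProjection q ∧ q * p = q ∧ q ≠ 0 ∧ q ≠ p

lemma SoPavable.mono {M : VonNeumannAlgebra H} {x : H →L[ℂ] H} {ε ε' : ℝ} {r : ℕ}
    (h : SoPavable M A x ε r) (hε : ε ≤ ε') : SoPavable M A x ε' r := by
  intro F δ hδ
  obtain ⟨p, a, q, hp, ha, hsa, hna, hq, hqp, hF, hle⟩ := h F δ hδ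
  exact ⟨p, a, q, hp, ha, hsa, hna, hq, hqp, hF,
    hle.trans (mul_le_mul_of_nonneg_right hε (norm_nonneg _))⟩

lemma IsMASA.comm (h : IsMASA (allOps H) A) : ∀ a ∈ A, ∀ b ∈ A, a * b = b * a := h.2.1

lemma IsMASA.maximal (h : IsMASA (allOps H) A) :
    ∀ x : H →L[ℂ] H, (∀ a ∈ A, a * x = x * a) → x ∈ A :=
  fun x hx => h.2.2 x (mem_allOps x) hx

/-- Every self-adjoint operator is `(1 / r, r)` so-pavable over a diffuse MASA of `B(H)`. -/
theorem soPavable_diffuse (hM : IsMASA (allOps H) A) (hd : IsDiffuse A)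
    {x : H →L[ℂ] H} (hx : IsSelfAdjoint x) {r : ℕ} (hr : 0 < r) :
    SoPavable (allOps H) A x (1 / (r : ℝ)) r := by
  refine soPavable_of_locally_fine hM.comm (fun F => ?_) hx hr
  obtain ⟨ξ₀, h⟩ := exists_local_cyclic hM.comm hM.maximal F
  exact ⟨ξ₀, h, fun τ hτ => exists_fine_partition hM.comm hM.maximal hd ξ₀ hτ⟩

/-- For a unit vector `ξ` the reflection `2 |ξ⟩⟨ξ| - 1` is not `(ε, r)` so-pavable over a diffuse
MASA of `B(H)` when `ε < 1 / r`. -/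
theorem not_soPavable_diffuse (hM : IsMASA (allOps H) A) (hd : IsDiffuse A) {ξ : H}
    (hξ : ‖ξ‖ = 1) {r : ℕ} (hr : 0 < r) {ε : ℝ} (hε0 : 0 ≤ ε) (hε : ε < 1 / r) :
    ¬ SoPavable (allOps H) A (refl ξ) ε r :=
  not_soPavable_refl hM.comm hξ
    (fun _ hτ => exists_fine_partition hM.comm hM.maximal hd ξ hτ) hr hε0 hε

/-- The paving number of a diffuse MASA of `B(H)`. -/
theorem pavingNumber_diffuse [Nontrivial H] (hM : IsMASA (allOps H) A) (hd : IsDiffuse A)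
    {ε : ℝ} (h0 : 0 < ε) :
    pavingNumber (allOps H) A ε = ((⌈1 / ε⌉₊ : ℕ) : ℕ∞) := by
  have hpos : 0 < 1 / ε := by positivity
  have hc1 : 1 ≤ ⌈1 / ε⌉₊ := Nat.one_le_iff_ne_zero.mpr (Nat.ceil_pos.mpr hpos).ne'
  apply le_antisymm
  · refine sInf_le ⟨⌈1 / ε⌉₊, hc1, rfl, ?_⟩
    intro x _ hx
    refine (soPavable_diffuse hM hd hx hc1).mono ?_
    have h1 : 1 / ε ≤ (⌈1 / ε⌉₊ : ℝ) := Nat.le_ceil _
    have hr0 : (0 : ℝ) < (⌈1 / ε⌉₊ : ℝ) := by exact_mod_cast hc1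
    rw [div_le_iff₀ hr0]
    rw [div_le_iff₀ h0] at h1
    linarith
  · refine le_sInf ?_
    rintro _ ⟨r, hr1, rfl, hr⟩
    rw [Nat.cast_le]
    by_contra hlt
    push Not at hlt
    have h1 : (r : ℝ) < 1 / ε := Nat.lt_ceil.mp hlt
    have hr0 : (0 : ℝ) < r := by exact_mod_cast hr1
    have h2 : ε < 1 / r := by
      rw [lt_div_iff₀ hr0]
      rw [lt_div_iff₀ h0] at h1
      linarith
    obtain ⟨ξ, hξ⟩ := exists_norm_eq H (zero_le_one' ℝ)
    exact not_soPavable_diffuse hM hd hξ hr1 h0.le h2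
      (hr _ (mem_allOps _) (refl_isSelfAdjoint ξ))

/-- A commutative algebra with a vector that is cyclic for its projections and admits fine
partitions is diffuse. -/
lemma isDiffuse_of_fine (hA : ∀ a ∈ A, ∀ b ∈ A, a * b = b * a) (ξ₀ : H)
    (hcyc : ∀ (ξ : H) (δ : ℝ), 0 < δ →
      ∃ v ∈ Submodule.span ℂ {w | ∃ e ∈ A, IsStarProjection e ∧ w = e ξ₀}, ‖ξ - v‖ < δ)
    (hfine : ∀ τ : ℝ, 0 < τ → ∃ (ι : Type) (_ : Fintype ι) (e : ι → H →L[ℂ] H),
      IsPartition A e ∧ ∀ j, ‖e j ξ₀‖ ≤ τ) : IsDiffuse A := by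
  intro p hpA hp hp0
  have h1 : p ξ₀ ≠ 0 := by
    intro h0
    apply hp0
    have hspan : ∀ v ∈ Submodule.span ℂ {w | ∃ e ∈ A, IsStarProjection e ∧ w = e ξ₀},
        p v = 0 := by
      intro v hv
      induction hv using Submodule.span_induction with
      | mem w hw =>
        obtain ⟨e, he, _, rfl⟩ := hw
        have : p (e ξ₀) = e (p ξ₀) := congrArg (fun S : H →L[ℂ] H => S ξ₀) (hA p hpA e he)
        rw [this, h0, map_zero]
      | zero => simp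
      | add u w _ _ hu hw => rw [map_add, hu, hw, add_zero]
      | smul c u _ hu => rw [map_smul, hu, smul_zero]
    ext ξ
    rw [zero_apply, ← norm_le_zero_iff]
    refine le_of_forall_pos_le_add fun δ hδ => ?_
    obtain ⟨v, hv, hvδ⟩ := hcyc ξ δ hδ
    have h2 : p ξ = p (ξ - v) := by rw [map_sub, hspan v hv, sub_zero]
    rw [h2, zero_add]
    exact (proj_norm_le hp _).trans hvδ.le
  have hpos : 0 < ‖p ξ₀‖ := norm_pos_iff.mpr h1
  obtain ⟨ι, _, e, he, hτ⟩ := hfine (‖p ξ₀‖ / 2) (by positivity)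
  have hex : ∃ j, e j (p ξ₀) ≠ 0 := by
    by_contra hall
    push Not at hall
    apply h1
    rw [← he.sum_apply (p ξ₀)]
    exact Finset.sum_eq_zero fun j _ => hall j
  obtain ⟨j, hj⟩ := hex
  refine ⟨e j * p, A.mul_mem (he.mem j) hpA, (he.proj j).mul hp (hA _ (he.mem j) _ hpA),
    ?_, ?_, ?_⟩
  · rw [mul_assoc, hp.isIdempotentElem.eq]
  · intro h
    exact hj (congrArg (fun S : H →L[ℂ] H => S ξ₀) h)
  · intro h
    have h3 : e j (p ξ₀) = p ξ₀ := congrArg (fun S : H →L[ℂ] H => S ξ₀) h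
    have h4 : e j (p ξ₀) = p (e j ξ₀) :=
      congrArg (fun S : H →L[ℂ] H => S ξ₀) (hA _ (he.mem j) _ hpA)
    have h5 : ‖p ξ₀‖ ≤ ‖p ξ₀‖ / 2 := by
      calc ‖p ξ₀‖ = ‖p (e j ξ₀)‖ := by rw [← h4, h3]
        _ ≤ ‖e j ξ₀‖ := proj_norm_le hp _
        _ ≤ ‖p ξ₀‖ / 2 := hτ j
    linarith

end Vale.Agent.Lib.P078
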