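import Vale.Agent.Lib.P078.Step
import Vale.Agent.Lib.P078.Coloring

/-!
# P078: the upper bound

Let `A` be a commutative algebra of operators on `H` with a vector `ξ₀` such that the vectors
`e ξ₀` (`e` a projection of `A`) span a dense subspace and such that `A` has arbitrarily fine
partitions with respect to `ξ₀`.  Then every self-adjoint operator is `(ε, r)` so-pavable over `A`
inside `B(H)` as soon as `1 / r < ε`.
-/

set_option linter.unusedSectionVars false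

namespace Vale.Agent.Lib.P078

open scoped InnerProductSpace

variable {H : Type*} [NormedAddCommGroup H] [InnerProductSpace ℂ H] [CompleteSpace H]
variable {A : StarSubalgebra ℂ (H →L[ℂ] H)}

section Entries

variable {T : Type*} [Fintype T] {f : T → H →L[ℂ] H}

lemma IsPartition.inner_eq_sum_sum (hf : IsPartition A f) (x : H →L[ℂ] H) (u u' : H) :
    ⟪u, x u'⟫_ℂ = ∑ s, ∑ t, ⟪f s u, x (f t u')⟫_ℂ := by
  conv_lhs => rw [← hf.sum_apply u, ← hf.sum_apply u']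
  rw [sum_inner]
  refine Finset.sum_congr rfl fun s _ => ?_
  rw [map_sum, inner_sum]

lemma inner_pinching_coarsen (hf : IsPartition A f) {r : ℕ} (col : T → Fin r)
    (x : H →L[ℂ] H) (u u' : H) :
    ⟪u, pinching (coarsen f col) x u'⟫_ℂ
      = ∑ s, ∑ t, (if col s = col t then (1 : ℂ) else 0) * ⟪f s u, x (f t u')⟫_ℂ := by
  rw [pinching_coarsen]
  simp only [_root_.sum_apply, inner_sum]
  refine Finset.sum_congr rfl fun s _ => Finset.sum_congr rfl fun t _ => ?_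
  split_ifs
  · simp only [mul_apply_eq_comp, one_mul]
    rw [sa_inner (hf.proj s).isSelfAdjoint]
  · simp

/-- Sum of squares of the entries `⟪f s u, x (f t u')⟫`. -/
lemma IsPartition.sum_sq_entries_le (hf : IsPartition A f) (x : H →L[ℂ] H) (u u' : H) {τ : ℝ}
    (hτ : ∀ s, ‖f s u‖ ≤ τ) :
    ∑ s, ∑ t, ‖⟪f s u, x (f t u')⟫_ℂ‖ ^ 2 ≤ τ ^ 2 * (‖x‖ ^ 2 * ‖u'‖ ^ 2) := by
  rw [Finset.sum_comm]
  have h1 : ∀ t, ∑ s, ‖⟪f s u, x (f t u')⟫_ℂ‖ ^ 2 ≤ τ ^ 2 * (‖x‖ ^ 2 * ‖f t u'‖ ^ 2) := by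
    intro t
    calc ∑ s, ‖⟪f s u, x (f t u')⟫_ℂ‖ ^ 2 ≤ ∑ s, τ ^ 2 * ‖f s (x (f t u'))‖ ^ 2 := by
          refine Finset.sum_le_sum fun s _ => ?_
          have : ‖⟪f s u, x (f t u')⟫_ℂ‖ ≤ τ * ‖f s (x (f t u'))‖ := by
            rw [proj_inner_left (hf.proj s)]
            calc ‖⟪f s u, f s (x (f t u'))⟫_ℂ‖ ≤ ‖f s u‖ * ‖f s (x (f t u'))‖ :=
                  norm_inner_le_norm _ _
              _ ≤ τ * ‖f s (x (f t u'))‖ := by gcongr; exact hτ s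
          calc ‖⟪f s u, x (f t u')⟫_ℂ‖ ^ 2 ≤ (τ * ‖f s (x (f t u'))‖) ^ 2 := by gcongr
            _ = τ ^ 2 * ‖f s (x (f t u'))‖ ^ 2 := mul_pow _ _ _
      _ = τ ^ 2 * ‖x (f t u')‖ ^ 2 := by rw [← Finset.mul_sum, hf.parseval]
      _ ≤ τ ^ 2 * (‖x‖ * ‖f t u'‖) ^ 2 := by gcongr; exact x.le_opNorm _
      _ = τ ^ 2 * (‖x‖ ^ 2 * ‖f t u'‖ ^ 2) := by rw [mul_pow]
  calc ∑ t, ∑ s, ‖⟪f s u, x (f t u')⟫_ℂ‖ ^ 2 ≤ ∑ t, τ ^ 2 * (‖x‖ ^ 2 * ‖f t u'‖ ^ 2) :=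
        Finset.sum_le_sum fun t _ => h1 t
    _ = τ ^ 2 * (‖x‖ ^ 2 * ‖u'‖ ^ 2) := by rw [← Finset.mul_sum, ← Finset.mul_sum, hf.parseval]

/-- The diagonal coefficients of `x` with respect to the vectors `f t ξ₀`. -/
noncomputable def diagCoeff (f : T → H →L[ℂ] H) (x : H →L[ℂ] H) (ξ₀ : H) (t : T) : ℝ :=
  (⟪f t ξ₀, x (f t ξ₀)⟫_ℂ).re / ‖f t ξ₀‖ ^ 2

/-- The diagonal operator `∑ t, d t • f t`. -/
noncomputable def diagOp (f : T → H →L[ℂ] H) (x : H →L[ℂ] H) (ξ₀ : H) : H →L[ℂ] H :=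
  ∑ t, ((diagCoeff f x ξ₀ t : ℝ) : ℂ) • f t

lemma abs_diagCoeff_le (f : T → H →L[ℂ] H) (x : H →L[ℂ] H) (ξ₀ : H) (t : T) :
    |diagCoeff f x ξ₀ t| ≤ ‖x‖ := by
  unfold diagCoeff
  by_cases h : f t ξ₀ = 0
  · simp [h]
  · have h' : 0 < ‖f t ξ₀‖ ^ 2 := by positivity
    rw [abs_div, abs_of_pos h', div_le_iff₀ h']
    calc |(⟪f t ξ₀, x (f t ξ₀)⟫_ℂ).re| ≤ ‖⟪f t ξ₀, x (f t ξ₀)⟫_ℂ‖ := Complex.abs_re_le_norm _
      _ ≤ ‖f t ξ₀‖ * ‖x (f t ξ₀)‖ := norm_inner_le_norm _ _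
      _ ≤ ‖f t ξ₀‖ * (‖x‖ * ‖f t ξ₀‖) := by gcongr; exact x.le_opNorm _
      _ = ‖x‖ * ‖f t ξ₀‖ ^ 2 := by ring

lemma inner_self_adjoint_real {x : H →L[ℂ] H} (hx : IsSelfAdjoint x) (w : H) :
    ⟪w, x w⟫_ℂ = (((⟪w, x w⟫_ℂ).re : ℝ) : ℂ) := by
  have h : (starRingEnd ℂ) ⟪w, x w⟫_ℂ = ⟪w, x w⟫_ℂ := by
    rw [inner_conj_symm, sa_inner hx]
  exact (Complex.conj_eq_iff_real.mp h).choose_spec ▸ by simp

lemma diagCoeff_mul {x : H →L[ℂ] H} (hx : IsSelfAdjoint x) (f : T → H →L[ℂ] H) (ξ₀ : H) (t : T) :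
    ((diagCoeff f x ξ₀ t : ℝ) : ℂ) * ⟪f t ξ₀, f t ξ₀⟫_ℂ = ⟪f t ξ₀, x (f t ξ₀)⟫_ℂ := by
  rw [inner_self_ofReal, inner_self_adjoint_real hx, ← Complex.ofReal_mul]
  congr 1
  unfold diagCoeff
  by_cases h : f t ξ₀ = 0
  · simp [h]
  · have h' : ‖f t ξ₀‖ ^ 2 ≠ 0 := by positivity
    field_simp

lemma IsPartition.diagOp_mem (hf : IsPartition A f) (x : H →L[ℂ] H) (ξ₀ : H) :
    diagOp f x ξ₀ ∈ A :=
  A.sum_mem fun t _ => A.smul_mem (hf.mem t) _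

lemma IsPartition.diagOp_isSelfAdjoint (hf : IsPartition A f) (x : H →L[ℂ] H) (ξ₀ : H) :
    IsSelfAdjoint (diagOp f x ξ₀) := by
  refine isSelfAdjoint_sum _ fun t _ => ?_
  rw [IsSelfAdjoint, star_smul, (hf.proj t).isSelfAdjoint.star_eq]
  simp

lemma IsPartition.norm_diagOp_le (hf : IsPartition A f) (x : H →L[ℂ] H) (ξ₀ : H) :
    ‖diagOp f x ξ₀‖ ≤ ‖x‖ := by
  refine hf.norm_diag_le _ (norm_nonneg _) fun t => ?_
  rw [Complex.norm_real, Real.norm_eq_abs]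
  exact abs_diagCoeff_le f x ξ₀ t

/-- On vectors whose components are multiples of `f t ξ₀`, the diagonal operator has the same
form as the pinching by `f`. -/
lemma IsPartition.inner_diagOp (hf : IsPartition A f) {x : H →L[ℂ] H} (hx : IsSelfAdjoint x)
    (ξ₀ u u' : H) (μ μ' : T → ℂ) (hu : ∀ t, f t u = μ t • f t ξ₀)
    (hu' : ∀ t, f t u' = μ' t • f t ξ₀) :
    ⟪u, diagOp f x ξ₀ u'⟫_ℂ = ∑ t, ⟪f t u, x (f t u')⟫_ℂ := by
  unfold diagOp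
  simp only [_root_.sum_apply, inner_sum]
  refine Finset.sum_congr rfl fun t _ => ?_
  rw [smul_apply, inner_smul_right, proj_inner_right (hf.proj t), hu t, hu' t,
    map_smul, inner_smul_left, inner_smul_right, inner_smul_left, inner_smul_right,
    ← diagCoeff_mul hx f ξ₀ t]
  ring

/-- The entries of the fluctuation operator. -/
lemma entry_eq [DecidableEq T] (hf : IsPartition A f) {x : H →L[ℂ] H} (hx : IsSelfAdjoint x)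
    {r : ℕ} (col : T → Fin r) (ξ₀ u u' : H) (μ μ' : T → ℂ) (hu : ∀ t, f t u = μ t • f t ξ₀)
    (hu' : ∀ t, f t u' = μ' t • f t ξ₀) :
    ⟪u, (pinching (coarsen f col) x - ((1 - 1 / (r : ℝ) : ℝ) : ℂ) • diagOp f x ξ₀
        - ((1 / (r : ℝ) : ℝ) : ℂ) • x) u'⟫_ℂ
      = ∑ s, ∑ t, Zc col s t * ⟪f s u, x (f t u')⟫_ℂ := by
  rw [sum_Zc_mul_eq]
  simp only [sub_apply, smul_apply, inner_sub_right, inner_smul_right]
  rw [inner_pinching_coarsen hf, hf.inner_diagOp hx ξ₀ _ _ _ _ hu hu', ← hf.inner_eq_sum_sum x]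
  push_cast
  ring

/-- A colouring for which all fluctuation entries are small. -/
lemma exists_coloring_entries [DecidableEq T] (hf : IsPartition A f) (x : H →L[ℂ] H) {r : ℕ}
    (hr : 0 < r) {I : Type*} [Fintype I] (h : I → H) (hh : ∀ i, ‖h i‖ ≤ 1) {τ : ℝ} (hτ0 : 0 ≤ τ)
    (hτ : ∀ i t, ‖f t (h i)‖ ≤ τ) :
    ∃ col : T → Fin r, ∀ i i', ‖∑ s, ∑ t, Zc col s t * ⟪f s (h i), x (f t (h i'))⟫_ℂ‖
      ≤ 2 * (Fintype.card I : ℝ) * τ * ‖x‖ := by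
  obtain ⟨col, hcol⟩ := exists_coloring (T := T) (I := I × I) hr
    (fun ii s t => ⟪f s (h ii.1), x (f t (h ii.2))⟫_ℂ)
  have hcol' : ∑ ii : I × I, ‖∑ s, ∑ t, Zc col s t * ⟪f s (h ii.1), x (f t (h ii.2))⟫_ℂ‖ ^ 2
      ≤ 2 * ∑ ii : I × I, ∑ s, ∑ t, ‖⟪f s (h ii.1), x (f t (h ii.2))⟫_ℂ‖ ^ 2 := hcol
  refine ⟨col, fun i i' => ?_⟩
  have h1 : ‖∑ s, ∑ t, Zc col s t * ⟪f s (h i), x (f t (h i'))⟫_ℂ‖ ^ 2
      ≤ ∑ ii : I × I, ‖∑ s, ∑ t, Zc col s t * ⟪f s (h ii.1), x (f t (h ii.2))⟫_ℂ‖ ^ 2 := by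
    have := Finset.single_le_sum (s := Finset.univ)
      (f := fun ii : I × I => ‖∑ s, ∑ t, Zc col s t * ⟪f s (h ii.1), x (f t (h ii.2))⟫_ℂ‖ ^ 2)
      (fun _ _ => sq_nonneg _) (Finset.mem_univ (i, i'))
    exact this
  have h2 : ∑ ii : I × I, ∑ s, ∑ t, ‖⟪f s (h ii.1), x (f t (h ii.2))⟫_ℂ‖ ^ 2
      ≤ (Fintype.card I : ℝ) ^ 2 * (τ ^ 2 * ‖x‖ ^ 2) := by
    calc ∑ ii : I × I, ∑ s, ∑ t, ‖⟪f s (h ii.1), x (f t (h ii.2))⟫_ℂ‖ ^ 2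
        ≤ ∑ _ii : I × I, τ ^ 2 * ‖x‖ ^ 2 := by
          refine Finset.sum_le_sum fun ii _ => ?_
          refine (hf.sum_sq_entries_le x _ _ (hτ ii.1)).trans ?_
          have hh2 : ‖h ii.2‖ ^ 2 ≤ 1 := by
            have := hh ii.2
            nlinarith [norm_nonneg (h ii.2)]
          have hx2 : 0 ≤ ‖x‖ ^ 2 := by positivity
          have : ‖x‖ ^ 2 * ‖h ii.2‖ ^ 2 ≤ ‖x‖ ^ 2 := by nlinarith
          gcongr
      _ = (Fintype.card I : ℝ) ^ 2 * (τ ^ 2 * ‖x‖ ^ 2) := by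
          rw [Finset.sum_const, Finset.card_univ, Fintype.card_prod, nsmul_eq_mul]
          push_cast
          ring
  have h12 := h1.trans hcol'
  generalize ‖∑ s, ∑ t, Zc col s t * ⟪f s (h i), x (f t (h i'))⟫_ℂ‖ = Y at h12 ⊢
  generalize ∑ ii : I × I, ∑ s, ∑ t, ‖⟪f s (h ii.1), x (f t (h ii.2))⟫_ℂ‖ ^ 2 = S at h12 h2
  have hN0 : (0 : ℝ) ≤ (Fintype.card I : ℝ) := by positivity
  generalize (Fintype.card I : ℝ) = N at h2 hN0 ⊢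
  have hN : 0 ≤ N ^ 2 * (τ ^ 2 * ‖x‖ ^ 2) := by positivity
  have h3 : Y ^ 2 ≤ (2 * N * τ * ‖x‖) ^ 2 := by nlinarith
  exact (abs_le_of_sq_le_sq' h3 (by positivity)).2

end Entries

section Product

variable {I J : Type*} [Fintype I] [Fintype J] {e : I → H →L[ℂ] H} {g : J → H →L[ℂ] H}

/-- Components of the normalised step vectors with respect to a refinement. -/
lemma prod_apply_hvec [DecidableEq I] (hA : ∀ a ∈ A, ∀ b ∈ A, a * b = b * a)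
    (he : IsPartition A e) (hg : IsPartition A g) (ξ₀ : H) (i : I) (t : I × J) :
    (e t.1 * g t.2) (hvec e ξ₀ i)
      = (if t.1 = i then ((‖e i ξ₀‖⁻¹ : ℝ) : ℂ) else 0) • (e t.1 * g t.2) ξ₀ := by
  have hcomm : g t.2 (e i ξ₀) = e i (g t.2 ξ₀) := by
    have := congrArg (fun S : H →L[ℂ] H => S ξ₀) (hA _ (hg.mem t.2) _ (he.mem i))
    simpa using this
  simp only [hvec, map_smul, mul_apply_eq_comp]
  rw [hcomm]
  split_ifs with h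
  · rw [h, proj_apply_apply (he.proj i)]
  · rw [he.apply_apply_of_ne h, smul_zero, zero_smul]

lemma norm_prod_apply_hvec_le (hA : ∀ a ∈ A, ∀ b ∈ A, a * b = b * a)
    (he : IsPartition A e) (hg : IsPartition A g) (ξ₀ : H) {τ : ℝ} (hτ0 : 0 ≤ τ)
    (hgτ : ∀ j, ‖g j ξ₀‖ ≤ τ / ((∑ i, ‖e i ξ₀‖⁻¹) + 1)) (i : I) (t : I × J) :
    ‖(e t.1 * g t.2) (hvec e ξ₀ i)‖ ≤ τ := by
  classical
  have hΛ0 : 0 ≤ ∑ i, ‖e i ξ₀‖⁻¹ := Finset.sum_nonneg fun _ _ => by positivity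
  have hΛi : ‖e i ξ₀‖⁻¹ ≤ ∑ i, ‖e i ξ₀‖⁻¹ :=
    Finset.single_le_sum (f := fun i => ‖e i ξ₀‖⁻¹) (fun _ _ => by positivity) (Finset.mem_univ i)
  generalize (∑ i, ‖e i ξ₀‖⁻¹) = Λ at hΛ0 hΛi hgτ
  have h1 : ‖(e t.1 * g t.2) ξ₀‖ ≤ τ / (Λ + 1) := by
    simp only [mul_apply_eq_comp]
    exact (proj_norm_le (he.proj t.1) _).trans (hgτ t.2)
  have h2 : ‖(if t.1 = i then ((‖e i ξ₀‖⁻¹ : ℝ) : ℂ) else 0)‖ ≤ Λ := by
    split_ifs
    · rw [Complex.norm_real, Real.norm_eq_abs, abs_of_nonneg (by positivity)]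
      exact hΛi
    · simpa using hΛ0
  rw [prod_apply_hvec hA he hg ξ₀ i t, norm_smul]
  calc ‖(if t.1 = i then ((‖e i ξ₀‖⁻¹ : ℝ) : ℂ) else 0)‖ * ‖(e t.1 * g t.2) ξ₀‖
      ≤ Λ * (τ / (Λ + 1)) := mul_le_mul h2 h1 (norm_nonneg _) hΛ0
    _ = τ * (Λ / (Λ + 1)) := by ring
    _ ≤ τ * 1 := by
        gcongr
        rw [div_le_one (by positivity)]
        linarith
    _ = τ := mul_one _

/-- There is a colouring of the refinement for which the compression of the fluctuation operator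
to the step space is small. -/
lemma exists_coloring_compress (hA : ∀ a ∈ A, ∀ b ∈ A, a * b = b * a)
    (he : IsPartition A e) (hg : IsPartition A g) (ξ₀ : H) {x : H →L[ℂ] H} (hx : IsSelfAdjoint x)
    {r : ℕ} (hr : 0 < r) {τ : ℝ} (hτ0 : 0 ≤ τ)
    (hgτ : ∀ j, ‖g j ξ₀‖ ≤ τ / ((∑ i, ‖e i ξ₀‖⁻¹) + 1)) :
    ∃ col : I × J → Fin r,
      ‖stepProj e ξ₀ * (pinching (coarsen (fun t : I × J => e t.1 * g t.2) col) x
          - ((1 - 1 / (r : ℝ) : ℝ) : ℂ) • diagOp (fun t : I × J => e t.1 * g t.2) x ξ₀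
          - ((1 / (r : ℝ) : ℝ) : ℂ) • x) * stepProj e ξ₀‖
        ≤ 2 * (Fintype.card I : ℝ) ^ 3 * τ * ‖x‖ := by
  classical
  have hf : IsPartition A (fun t : I × J => e t.1 * g t.2) := he.prod hA hg
  obtain ⟨col, hcol⟩ := exists_coloring_entries hf x hr (hvec e ξ₀) (norm_hvec_le e ξ₀) hτ0
    (norm_prod_apply_hvec_le hA he hg ξ₀ hτ0 hgτ)
  refine ⟨col, (norm_compress_le ξ₀ _).trans ?_⟩
  calc ∑ i, ∑ i', ‖⟪hvec e ξ₀ i, (pinching (coarsen (fun t : I × J => e t.1 * g t.2) col) x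
          - ((1 - 1 / (r : ℝ) : ℝ) : ℂ) • diagOp (fun t : I × J => e t.1 * g t.2) x ξ₀
          - ((1 / (r : ℝ) : ℝ) : ℂ) • x) (hvec e ξ₀ i')⟫_ℂ‖
      ≤ ∑ _i : I, ∑ _i' : I, 2 * (Fintype.card I : ℝ) * τ * ‖x‖ := by
        refine Finset.sum_le_sum fun i _ => Finset.sum_le_sum fun i' _ => ?_
        rw [entry_eq hf hx col ξ₀ _ _ _ _ (prod_apply_hvec hA he hg ξ₀ i)
          (prod_apply_hvec hA he hg ξ₀ i')]
        exact hcol i i'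
    _ = 2 * (Fintype.card I : ℝ) ^ 3 * τ * ‖x‖ := by
        simp only [Finset.sum_const, Finset.card_univ, nsmul_eq_mul]
        ring

end Product

/-- From a bound on the fluctuation to the paving estimate. -/
lemma norm_compress_paving_le {q x S a : H →L[ℂ] H} (hq : IsStarProjection q) {ρ η ε : ℝ}
    (hρ0 : 0 ≤ ρ) (hW : ‖q * (S - a - ((ρ : ℝ) : ℂ) • x) * q‖ ≤ η * ‖x‖) (hε : ρ + η ≤ ε) :
    ‖q * (S - a) * q‖ ≤ ε * ‖x‖ := by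
  have hdecomp : q * (S - a) * q
      = ((ρ : ℝ) : ℂ) • (q * x * q) + q * (S - a - ((ρ : ℝ) : ℂ) • x) * q := by
    simp only [mul_sub, sub_mul, mul_smul_comm, smul_mul_assoc]
    abel
  have hq1 : ‖q‖ ≤ 1 := IsStarProjection.norm_le q hq
  have hqxq : ‖q * x * q‖ ≤ ‖x‖ := by
    calc ‖q * x * q‖ ≤ ‖q * x‖ * ‖q‖ := norm_mul_le _ _
      _ ≤ (‖q‖ * ‖x‖) * ‖q‖ := by gcongr; exact norm_mul_le _ _
      _ ≤ (1 * ‖x‖) * 1 := by gcongr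
      _ = ‖x‖ := by ring
  rw [hdecomp]
  calc ‖((ρ : ℝ) : ℂ) • (q * x * q) + q * (S - a - ((ρ : ℝ) : ℂ) • x) * q‖
      ≤ ‖((ρ : ℝ) : ℂ) • (q * x * q)‖ + ‖q * (S - a - ((ρ : ℝ) : ℂ) • x) * q‖ := norm_add_le _ _
    _ ≤ ρ * ‖x‖ + η * ‖x‖ := by
        rw [norm_smul, Complex.norm_real, Real.norm_eq_abs, abs_of_nonneg hρ0]
        gcongr
    _ = (ρ + η) * ‖x‖ := by ring
    _ ≤ ε * ‖x‖ := by gcongr

theorem soPavable_of_fine (hA : ∀ a ∈ A, ∀ b ∈ A, a * b = b * a) (ξ₀ : H)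
    (hcyc : ∀ (ξ : H) (δ : ℝ), 0 < δ →
      ∃ v ∈ Submodule.span ℂ {w | ∃ e ∈ A, IsStarProjection e ∧ w = e ξ₀}, ‖ξ - v‖ < δ)
    (hfine : ∀ τ : ℝ, 0 < τ → ∃ (ι : Type) (_ : Fintype ι) (e : ι → H →L[ℂ] H),
      IsPartition A e ∧ ∀ j, ‖e j ξ₀‖ ≤ τ)
    {x : H →L[ℂ] H} (hx : IsSelfAdjoint x) {r : ℕ} (hr : 0 < r) {ε : ℝ}
    (hε : 1 / (r : ℝ) < ε) : SoPavable (allOps H) A x ε r := by
  classical
  intro F δ hδ
  have hr0 : (0 : ℝ) < r := by exact_mod_cast hr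
  have hr1 : (1 : ℝ) ≤ r := by exact_mod_cast hr
  have hρ0 : (0 : ℝ) ≤ 1 / (r : ℝ) := by positivity
  have hρ1 : 1 / (r : ℝ) ≤ 1 := by
    rw [div_le_one hr0]
    exact hr1
  obtain ⟨I, _, e, he, hF⟩ := exists_coarse hA ξ₀ hcyc F hδ
  have hN0 : (0 : ℝ) ≤ (Fintype.card I : ℝ) := by positivity
  have hΛ0 : 0 ≤ ∑ i, ‖e i ξ₀‖⁻¹ := Finset.sum_nonneg fun _ _ => by positivity
  obtain ⟨τ, hτ0, hτN⟩ : ∃ τ : ℝ, 0 < τ ∧ 2 * (Fintype.card I : ℝ) ^ 3 * τ ≤ ε - 1 / (r : ℝ) := by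
    refine ⟨(ε - 1 / r) / (2 * (Fintype.card I : ℝ) ^ 3 + 1), ?_, ?_⟩
    · have : 0 < ε - 1 / r := by linarith
      positivity
    · have h0 : 0 < ε - 1 / (r : ℝ) := by linarith
      have h1 : 0 < 2 * (Fintype.card I : ℝ) ^ 3 + 1 := by positivity
      rw [← mul_div_assoc, div_le_iff₀ h1]
      nlinarith
  obtain ⟨J, _, g, hg, hgτ⟩ := hfine (τ / ((∑ i, ‖e i ξ₀‖⁻¹) + 1)) (by positivity)
  have hf : IsPartition A (fun t : I × J => e t.1 * g t.2) := he.prod hA hg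
  obtain ⟨col, hcol⟩ := exists_coloring_compress hA he hg ξ₀ hx hr hτ0.le hgτ
  refine ⟨coarsen (fun t : I × J => e t.1 * g t.2) col,
    ((1 - 1 / (r : ℝ) : ℝ) : ℂ) • diagOp (fun t : I × J => e t.1 * g t.2) x ξ₀,
    stepProj e ξ₀, hf.coarsen col, ?_, ?_, ?_, mem_allOps _,
    isStarProjection_stepProj he ξ₀, ?_, ?_⟩
  · exact A.smul_mem (hf.diagOp_mem x ξ₀) _
  · rw [IsSelfAdjoint, star_smul, (hf.diagOp_isSelfAdjoint x ξ₀).star_eq]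
    simp
  · rw [norm_smul, Complex.norm_real, Real.norm_eq_abs, abs_of_nonneg (by linarith)]
    calc (1 - 1 / (r : ℝ)) * ‖diagOp (fun t : I × J => e t.1 * g t.2) x ξ₀‖ ≤ 1 * ‖x‖ :=
          mul_le_mul (by linarith) (hf.norm_diagOp_le x ξ₀) (norm_nonneg _) (by norm_num)
      _ = ‖x‖ := one_mul _
  · intro ξ hξ
    obtain ⟨v, hv, hvδ⟩ := hF ξ hξ
    exact (norm_one_sub_stepProj_le he ξ₀ hv ξ).trans_lt hvδ
  · exact norm_compress_paving_le (isStarProjection_stepProj he ξ₀) hρ0 hcol (by linarith)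


end Vale.Agent.Lib.P078
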