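import Vale.Agent.Lib.P078.LinftyDefs
import Vale.Agent.Lib.P078.Upper
import Vale.Agent.Lib.P078.Lower

/-!
# P078: the multiplication algebra satisfies the hypotheses of the abstract theorems
-/

set_option linter.unusedSectionVars false

namespace Vale.Agent.Lib.P078

open MeasureTheory
open scoped ENNReal InnerProductSpace

variable {Ω : Type*} [MeasurableSpace Ω] {μ : Measure Ω} [IsFiniteMeasure μ]

lemma linftyAlg_comm : ∀ a ∈ linftyAlg μ, ∀ b ∈ linftyAlg μ, a * b = b * a := by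
  rintro _ ⟨f, rfl⟩ _ ⟨g, rfl⟩
  rw [mulOp_mul, mulOp_mul]
  congr 1
  apply Lp.ext
  filter_upwards [Lp.coeFn_lpSMul (r := ∞) f g, Lp.coeFn_lpSMul (r := ∞) g f] with ω h1 h2
  rw [h1, h2]
  simp [mul_comm]

variable (μ) in
/-- Multiplication by the indicator function of a measurable set. -/
noncomputable def indOp {E : Set Ω} (hE : MeasurableSet E) : Lp ℂ 2 μ →L[ℂ] Lp ℂ 2 μ :=
  mulOp μ (indicatorConstLp ∞ hE (measure_ne_top μ E) (1 : ℂ))

lemma indOp_apply_ae {E : Set Ω} (hE : MeasurableSet E) (g : Lp ℂ 2 μ) :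
    indOp μ hE g =ᵐ[μ] E.indicator g := by
  filter_upwards [mulOp_apply_ae (indicatorConstLp ∞ hE (measure_ne_top μ E) (1 : ℂ)) g,
    indicatorConstLp_coeFn (p := ∞) (hs := hE) (hμs := measure_ne_top μ E) (c := (1 : ℂ))]
    with ω h1 h2
  rw [indOp, h1, h2]
  by_cases hω : ω ∈ E <;> simp [hω]

lemma indOp_mem {E : Set Ω} (hE : MeasurableSet E) : indOp μ hE ∈ linftyAlg μ := ⟨_, rfl⟩

lemma indOp_mul_indOp {E E' : Set Ω} (hE : MeasurableSet E) (hE' : MeasurableSet E') :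
    indOp μ hE * indOp μ hE' = indOp μ (hE.inter hE') := by
  ext1 h
  apply Lp.ext
  show indOp μ hE (indOp μ hE' h) =ᵐ[μ] _
  filter_upwards [indOp_apply_ae hE (indOp μ hE' h), indOp_apply_ae hE' h,
    indOp_apply_ae (hE.inter hE') h] with ω h1 h2 h3
  rw [h1, h3]
  by_cases hω : ω ∈ E <;> by_cases hω' : ω ∈ E' <;> simp [hω, hω', h2]

lemma indOp_empty : indOp μ MeasurableSet.empty = 0 := by
  ext1 h
  apply Lp.ext
  show _ =ᵐ[μ] ((0 : Lp ℂ 2 μ) : Ω → ℂ)
  filter_upwards [indOp_apply_ae (μ := μ) MeasurableSet.empty h, Lp.coeFn_zero ℂ 2 μ] with ω h1 h2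
  rw [h1, h2]
  simp

lemma indOp_congr {E E' : Set Ω} (hE : MeasurableSet E) (hE' : MeasurableSet E') (h : E = E') :
    indOp μ hE = indOp μ hE' := by
  subst h
  rfl

lemma isStarProjection_indOp {E : Set Ω} (hE : MeasurableSet E) :
    IsStarProjection (indOp μ hE) := by
  refine ⟨?_, ?_⟩
  · show indOp μ hE * indOp μ hE = indOp μ hE
    rw [indOp_mul_indOp]
    exact indOp_congr _ _ (Set.inter_self E)
  · rw [IsSelfAdjoint, indOp, star_mulOp]
    congr 1
    apply Lp.ext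
    filter_upwards [Lp.coeFn_star (indicatorConstLp ∞ hE (measure_ne_top μ E) (1 : ℂ)),
      indicatorConstLp_coeFn (p := ∞) (hs := hE) (hμs := measure_ne_top μ E) (c := (1 : ℂ))]
      with ω h1 h2
    rw [h1, Pi.star_apply, h2]
    by_cases hω : ω ∈ E <;> simp [hω]

/-- The partition of `L^∞(μ)` given by the fibres of a map to a finite type. -/
lemma isPartition_fibres {ι : Type*} [Fintype ι] (c : Ω → ι)
    (hc : ∀ j, MeasurableSet (c ⁻¹' {j})) :
    IsPartition (linftyAlg μ) (fun j => indOp μ (hc j)) where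
  mem j := indOp_mem _
  proj j := isStarProjection_indOp _
  orth i j hij := by
    rw [indOp_mul_indOp, ← indOp_empty]
    apply indOp_congr
    ext ω
    simp only [Set.mem_inter_iff, Set.mem_preimage, Set.mem_singleton_iff, Set.mem_empty_iff_false,
      iff_false, not_and]
    intro h1 h2
    exact hij (h1.symm.trans h2)
  sum_eq := by
    classical
    ext1 h
    apply Lp.ext
    rw [_root_.sum_apply]
    have hall : ∀ᵐ ω ∂μ, ∀ j, indOp μ (hc j) h ω = (c ⁻¹' {j}).indicator h ω := by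
      rw [ae_all_iff]
      intro j
      exact indOp_apply_ae (hc j) h
    filter_upwards [Lp.coeFn_fun_finsetSum Finset.univ (fun j => indOp μ (hc j) h), hall]
      with ω h1 h2
    rw [h1, Finset.sum_congr rfl fun j _ => h2 j, Finset.sum_eq_single (c ω)]
    · simp
    · intro j _ hj
      have : ω ∉ c ⁻¹' {j} := fun h => hj (by simpa using h.symm)
      simp [this]
    · intro h
      exact absurd (Finset.mem_univ _) h

variable (μ) in
/-- The constant function `1` as a vector of `L^2(μ)`. -/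
noncomputable def oneVec : Lp ℂ 2 μ := Lp.const 2 μ (1 : ℂ)

lemma indOp_oneVec {E : Set Ω} (hE : MeasurableSet E) :
    indOp μ hE (oneVec μ) = indicatorConstLp 2 hE (measure_ne_top μ E) (1 : ℂ) := by
  apply Lp.ext
  filter_upwards [indOp_apply_ae hE (oneVec μ), Lp.coeFn_const (p := 2) (μ := μ) (1 : ℂ),
    indicatorConstLp_coeFn (p := 2) (hs := hE) (hμs := measure_ne_top μ E) (c := (1 : ℂ))]
    with ω h1 h2 h3
  rw [h1, h3]
  by_cases hω : ω ∈ E
  · rw [Set.indicator_of_mem hω, Set.indicator_of_mem hω]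
    exact h2
  · simp [hω]

lemma norm_indOp_oneVec {E : Set Ω} (hE : MeasurableSet E) :
    ‖indOp μ hE (oneVec μ)‖ = Real.sqrt (μ.real E) := by
  rw [indOp_oneVec, norm_indicatorConstLp (by norm_num) (by norm_num), Real.sqrt_eq_rpow]
  simp

lemma norm_oneVec [IsProbabilityMeasure μ] : ‖oneVec μ‖ = 1 := by
  have h := Lp.norm_const' (p := 2) (μ := μ) (c := (1 : ℂ)) (by norm_num) (by norm_num)
  simpa [oneVec] using h

/-- The vectors `1_E` span a dense subspace of `L^2(μ)`. -/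
lemma linfty_dense : Dense ((Submodule.span ℂ
    {w | ∃ e ∈ linftyAlg μ, IsStarProjection e ∧ w = e (oneVec μ)} : Submodule ℂ (Lp ℂ 2 μ))
      : Set (Lp ℂ 2 μ)) := by
  set S : Submodule ℂ (Lp ℂ 2 μ) :=
    Submodule.span ℂ {w | ∃ e ∈ linftyAlg μ, IsStarProjection e ∧ w = e (oneVec μ)} with hS
  have hmem : ∀ ξ : Lp ℂ 2 μ, ξ ∈ S.topologicalClosure := by
    intro ξ
    refine Lp.induction (p := 2) (by norm_num) (fun f => f ∈ S.topologicalClosure) ?_ ?_ ?_ ξ
    · intro c E hE hμE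
      apply S.le_topologicalClosure
      rw [Lp.simpleFunc.coe_indicatorConst]
      have h1 : indicatorConstLp 2 hE hμE.ne c = c • indOp μ hE (oneVec μ) := by
        rw [indOp_oneVec]
        apply Lp.ext
        filter_upwards [Lp.coeFn_smul c (indicatorConstLp 2 hE (measure_ne_top μ E) (1 : ℂ)),
          indicatorConstLp_coeFn (p := 2) (hs := hE) (hμs := measure_ne_top μ E) (c := (1 : ℂ)),
          indicatorConstLp_coeFn (p := 2) (hs := hE) (hμs := hμE.ne) (c := c)] with ω h1 h2 h3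
        rw [h1, h3, Pi.smul_apply, h2]
        by_cases hω : ω ∈ E <;> simp [hω]
      rw [h1]
      exact S.smul_mem c (Submodule.subset_span ⟨_, indOp_mem hE, isStarProjection_indOp hE, rfl⟩)
    · intro f g hf hg _ h1 h2
      exact S.topologicalClosure.add_mem h1 h2
    · exact S.isClosed_topologicalClosure
  intro ξ
  exact hmem ξ

lemma linfty_cyclic (ξ : Lp ℂ 2 μ) (δ : ℝ) (hδ : 0 < δ) :
    ∃ v ∈ Submodule.span ℂ {w | ∃ e ∈ linftyAlg μ, IsStarProjection e ∧ w = e (oneVec μ)},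
      ‖ξ - v‖ < δ := by
  obtain ⟨v, hv, hvδ⟩ := Metric.mem_closure_iff.mp (linfty_dense (μ := μ) ξ) δ hδ
  exact ⟨v, hv, by rwa [← dist_eq_norm]⟩

lemma norm_sq_eq_integral (u : Lp ℂ 2 μ) : ‖u‖ ^ 2 = ∫ ω, ‖u ω‖ ^ 2 ∂μ := by
  have h1 : ⟪u, u⟫_ℂ = ∫ ω, ((‖u ω‖ ^ 2 : ℝ) : ℂ) ∂μ := by
    rw [L2.inner_def]
    refine integral_congr_ae (Filter.Eventually.of_forall fun ω => ?_)
    exact inner_self_ofReal (u ω)
  rw [integral_complex_ofReal, inner_self_ofReal] at h1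
  exact_mod_cast h1

lemma norm_sq_indOp {E : Set Ω} (hE : MeasurableSet E) (u : Lp ℂ 2 μ) :
    ‖indOp μ hE u‖ ^ 2 = ∫ ω in E, ‖u ω‖ ^ 2 ∂μ := by
  rw [norm_sq_eq_integral, ← integral_indicator hE]
  apply integral_congr_ae
  filter_upwards [indOp_apply_ae hE u] with ω h1
  rw [h1]
  by_cases hω : ω ∈ E <;> simp [hω]

lemma integrable_norm_sq (u : Lp ℂ 2 μ) : Integrable (fun ω => ‖u ω‖ ^ 2) μ := by
  have h := (Lp.memLp u).integrable_norm_rpow (by norm_num) (by norm_num)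
  simpa using h

/-- An operator commuting with all multiplication operators is a multiplication operator. -/
lemma linfty_maximal (T : Lp ℂ 2 μ →L[ℂ] Lp ℂ 2 μ) (hT : ∀ a ∈ linftyAlg μ, a * T = T * a) :
    T ∈ linftyAlg μ := by
  have hcomm : ∀ a ∈ linftyAlg μ, ∀ u, a (T u) = T (a u) := by
    intro a ha u
    exact congrArg (fun S : Lp ℂ 2 μ →L[ℂ] Lp ℂ 2 μ => S u) (hT a ha)
  set g₀ : Lp ℂ 2 μ := T (oneVec μ) with hg₀
  have hbound : ∀ᵐ ω ∂μ, ‖g₀ ω‖ ≤ ‖T‖ := by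
    have h1 : (fun ω => ‖g₀ ω‖ ^ 2) ≤ᵐ[μ] fun _ => ‖T‖ ^ 2 := by
      refine ae_le_of_forall_setIntegral_le (integrable_norm_sq g₀) (integrable_const _) ?_
      intro E hE _
      rw [← norm_sq_indOp hE g₀, hg₀, hcomm _ (indOp_mem hE)]
      have h2 : ‖T (indOp μ hE (oneVec μ))‖ ≤ ‖T‖ * ‖indOp μ hE (oneVec μ)‖ := T.le_opNorm _
      have h3 : ‖indOp μ hE (oneVec μ)‖ ^ 2 = μ.real E := by
        rw [norm_indOp_oneVec, Real.sq_sqrt measureReal_nonneg]
      calc ‖T (indOp μ hE (oneVec μ))‖ ^ 2 ≤ (‖T‖ * ‖indOp μ hE (oneVec μ)‖) ^ 2 := by gcongr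
        _ = ‖T‖ ^ 2 * μ.real E := by rw [mul_pow, h3]
        _ = ∫ _ω in E, ‖T‖ ^ 2 ∂μ := by
            rw [setIntegral_const, smul_eq_mul, mul_comm]
    filter_upwards [h1] with ω hω
    exact (abs_le_of_sq_le_sq' hω (norm_nonneg _)).2
  set g : Lp ℂ ∞ μ := (memLp_top_of_bound (Lp.aestronglyMeasurable g₀) ‖T‖ hbound).toLp g₀ with hg
  have hg1 : mulOp μ g (oneVec μ) = g₀ := by
    apply Lp.ext
    filter_upwards [mulOp_apply_ae g (oneVec μ), Lp.coeFn_const (p := 2) (μ := μ) (1 : ℂ),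
      (memLp_top_of_bound (Lp.aestronglyMeasurable g₀) ‖T‖ hbound).coeFn_toLp] with ω h1 h2 h3
    have h2' : (oneVec μ : Ω → ℂ) ω = 1 := h2
    rw [h1, h2', mul_one, hg, h3]
  refine ⟨g, ?_⟩
  refine ContinuousLinearMap.ext_on (linfty_dense (μ := μ)) ?_
  rintro _ ⟨e, he, -, rfl⟩
  have h1 : mulOp μ g (e (oneVec μ)) = e (mulOp μ g (oneVec μ)) := by
    exact congrArg (fun S : Lp ℂ 2 μ →L[ℂ] Lp ℂ 2 μ => S (oneVec μ))
      (linftyAlg_comm _ (⟨g, rfl⟩ : mulOp μ g ∈ linftyAlg μ) _ he)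
  rw [h1, hg1, hg₀, hcomm e he]

lemma linfty_isMASA : IsMASA (allOps (Lp ℂ 2 μ)) (linftyAlg μ) :=
  ⟨fun a _ => mem_allOps a, linftyAlg_comm, fun x _ hx => linfty_maximal x hx⟩

end Vale.Agent.Lib.P078
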