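import Mathlib

/-!
# P078: the algebra of multiplication operators `L^∞(μ)` acting on `L^2(μ)`
-/

namespace Vale.Agent.Lib.P078

open MeasureTheory
open scoped ENNReal InnerProductSpace

variable {Ω : Type*} [MeasurableSpace Ω] (μ : Measure Ω)

/-- The multiplication operator `g ↦ f g` on `L^2(μ)` attached to `f ∈ L^∞(μ)`. -/
noncomputable def mulOp (f : Lp ℂ ∞ μ) : Lp ℂ 2 μ →L[ℂ] Lp ℂ 2 μ :=
  (ContinuousLinearMap.mul ℂ ℂ).holderL μ ∞ 2 2 f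

variable {μ}

lemma mulOp_apply_ae (f : Lp ℂ ∞ μ) (g : Lp ℂ 2 μ) :
    mulOp μ f g =ᵐ[μ] fun ω => f ω * g ω :=
  (ContinuousLinearMap.mul ℂ ℂ).coeFn_holder f g

lemma mulOp_add (f g : Lp ℂ ∞ μ) : mulOp μ (f + g) = mulOp μ f + mulOp μ g :=
  map_add _ f g

lemma mulOp_mul (f g : Lp ℂ ∞ μ) : mulOp μ f * mulOp μ g = mulOp μ (f • g : Lp ℂ ∞ μ) := by
  ext1 h
  apply Lp.ext
  show mulOp μ f (mulOp μ g h) =ᵐ[μ] _
  filter_upwards [mulOp_apply_ae f (mulOp μ g h), mulOp_apply_ae g h,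
    mulOp_apply_ae (f • g : Lp ℂ ∞ μ) h, Lp.coeFn_lpSMul (r := ∞) f g] with ω h1 h2 h3 h4
  rw [h1, h2, h3, h4]
  simp [mul_assoc]

lemma star_mulOp (f : Lp ℂ ∞ μ) : star (mulOp μ f) = mulOp μ (star f) := by
  rw [ContinuousLinearMap.star_eq_adjoint, eq_comm, ContinuousLinearMap.eq_adjoint_iff]
  intro g h
  rw [L2.inner_def, L2.inner_def]
  apply integral_congr_ae
  filter_upwards [mulOp_apply_ae (star f) g, mulOp_apply_ae f h, Lp.coeFn_star f] with ω h1 h2 h3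
  rw [h1, h2, h3]
  simp only [Pi.star_apply, RCLike.inner_apply, map_mul, RCLike.star_def, Complex.conj_conj]
  ring

lemma mulOp_const [IsFiniteMeasure μ] (c : ℂ) :
    mulOp μ (Lp.const ∞ μ c) = algebraMap ℂ (Lp ℂ 2 μ →L[ℂ] Lp ℂ 2 μ) c := by
  ext1 h
  apply Lp.ext
  rw [Algebra.algebraMap_eq_smul_one]
  show _ =ᵐ[μ] ((c • h : Lp ℂ 2 μ) : Ω → ℂ)
  filter_upwards [mulOp_apply_ae (Lp.const ∞ μ c) h, Lp.coeFn_const (p := ∞) (μ := μ) c,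
    Lp.coeFn_smul c h] with ω h1 h2 h3
  rw [h1, h2, h3]
  simp

variable (μ)

/-- The star subalgebra `{M_f : f ∈ L^∞(μ)}` of `B(L^2(μ))`, for a finite measure `μ`. -/
noncomputable def linftyAlg [IsFiniteMeasure μ] : StarSubalgebra ℂ (Lp ℂ 2 μ →L[ℂ] Lp ℂ 2 μ) where
  carrier := Set.range (mulOp μ)
  mul_mem' := by
    rintro _ _ ⟨f, rfl⟩ ⟨g, rfl⟩
    exact ⟨_, (mulOp_mul f g).symm⟩
  add_mem' := by
    rintro _ _ ⟨f, rfl⟩ ⟨g, rfl⟩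
    exact ⟨_, mulOp_add f g⟩
  algebraMap_mem' c := ⟨_, mulOp_const c⟩
  star_mem' := by
    rintro _ ⟨f, rfl⟩
    exact ⟨_, (star_mulOp f).symm⟩

end Vale.Agent.Lib.P078
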