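import Vale.Agent.Lib.P078.Linfty

/-!
# P078: the paving number of a diffuse multiplication algebra
-/

set_option linter.unusedSectionVars false

namespace Vale.Agent.Lib.P078

open MeasureTheory
open scoped ENNReal InnerProductSpace

section Abstract

variable {H : Type*} [NormedAddCommGroup H] [InnerProductSpace ℂ H] [CompleteSpace H]
variable {A : StarSubalgebra ℂ (H →L[ℂ] H)}

theorem pavingNumber_bounds (hA : ∀ a ∈ A, ∀ b ∈ A, a * b = b * a) (ξ₀ : H) (hξ₀ : ‖ξ₀‖ = 1)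
    (hcyc : ∀ (ξ : H) (δ : ℝ), 0 < δ →
      ∃ v ∈ Submodule.span ℂ {w | ∃ e ∈ A, IsStarProjection e ∧ w = e ξ₀}, ‖ξ - v‖ < δ)
    (hfine : ∀ τ : ℝ, 0 < τ → ∃ (ι : Type) (_ : Fintype ι) (e : ι → H →L[ℂ] H),
      IsPartition A e ∧ ∀ j, ‖e j ξ₀‖ ≤ τ)
    {ε : ℝ} (h0 : 0 < ε) :
    ((⌈1 / ε⌉₊ : ℕ) : ℕ∞) ≤ pavingNumber (allOps H) A ε ∧
      pavingNumber (allOps H) A ε ≤ ((⌊1 / ε⌋₊ + 1 : ℕ) : ℕ∞) := by
  constructor
  · refine le_sInf ?_
    rintro _ ⟨r, hr1, rfl, hr⟩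
    rw [Nat.cast_le]
    by_contra hlt
    push Not at hlt
    have h1 : (r : ℝ) < 1 / ε := Nat.lt_ceil.mp hlt
    have hr0 : (0 : ℝ) < r := by exact_mod_cast hr1
    have h2 : ε < 1 / r := by
      rw [lt_div_iff₀ hr0]
      rw [lt_div_iff₀ h0] at h1
      linarith
    exact not_soPavable_refl hA hξ₀ hfine hr1 h0.le h2
      (hr _ (mem_allOps _) (refl_isSelfAdjoint ξ₀))
  · refine sInf_le ⟨⌊1 / ε⌋₊ + 1, by omega, rfl, ?_⟩
    intro x _ hx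
    refine soPavable_of_fine hA ξ₀ hcyc hfine hx (by omega) ?_
    have h1 : 1 / ε < ((⌊1 / ε⌋₊ + 1 : ℕ) : ℝ) := by
      push_cast
      exact Nat.lt_floor_add_one _
    have hr0 : (0 : ℝ) < ((⌊1 / ε⌋₊ + 1 : ℕ) : ℝ) := by positivity
    rw [div_lt_iff₀ hr0]
    rw [div_lt_iff₀ h0] at h1
    linarith

end Abstract

section Concrete

variable {Ω : Type*} [MeasurableSpace Ω] {μ : Measure Ω}

lemma mulOp_apply_eq_smul (f : Lp ℂ ∞ μ) (g : Lp ℂ 2 μ) : mulOp μ f g = (f • g : Lp ℂ 2 μ) := by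
  apply Lp.ext
  filter_upwards [mulOp_apply_ae f g, Lp.coeFn_lpSMul (r := 2) f g] with ω h1 h2
  rw [h1, h2]
  simp

lemma mem_linftyAlg_iff [IsFiniteMeasure μ] (T : Lp ℂ 2 μ →L[ℂ] Lp ℂ 2 μ) :
    T ∈ linftyAlg μ ↔ ∃ f : Lp ℂ ∞ μ, ∀ g : Lp ℂ 2 μ, T g = (f • g : Lp ℂ 2 μ) := by
  constructor
  · rintro ⟨f, rfl⟩
    exact ⟨f, mulOp_apply_eq_smul f⟩
  · rintro ⟨f, hf⟩
    refine ⟨f, ?_⟩
    ext1 g
    rw [hf g, mulOp_apply_eq_smul]

/-- `μ` admits finite measurable partitions into pieces of arbitrarily small measure. -/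
def HasFinePartitions (μ : Measure Ω) : Prop :=
  ∀ τ : ℝ, 0 < τ → ∃ (n : ℕ) (c : Ω → Fin n),
    (∀ j, MeasurableSet (c ⁻¹' {j})) ∧ ∀ j, μ.real (c ⁻¹' {j}) ≤ τ

lemma linfty_fine [IsFiniteMeasure μ] (hμ : HasFinePartitions μ) (τ : ℝ) (hτ : 0 < τ) :
    ∃ (ι : Type) (_ : Fintype ι) (e : ι → Lp ℂ 2 μ →L[ℂ] Lp ℂ 2 μ),
      IsPartition (linftyAlg μ) e ∧ ∀ j, ‖e j (oneVec μ)‖ ≤ τ := by
  obtain ⟨n, c, hc, hcτ⟩ := hμ (τ ^ 2) (by positivity)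
  refine ⟨Fin n, inferInstance, _, isPartition_fibres c hc, fun j => ?_⟩
  rw [norm_indOp_oneVec]
  calc Real.sqrt (μ.real (c ⁻¹' {j})) ≤ Real.sqrt (τ ^ 2) := Real.sqrt_le_sqrt (hcτ j)
    _ = τ := Real.sqrt_sq hτ.le

theorem pavingNumber_linfty [IsProbabilityMeasure μ] (hμ : HasFinePartitions μ) {ε : ℝ}
    (h0 : 0 < ε) :
    ((⌈1 / ε⌉₊ : ℕ) : ℕ∞) ≤ pavingNumber (allOps (Lp ℂ 2 μ)) (linftyAlg μ) ε ∧
      pavingNumber (allOps (Lp ℂ 2 μ)) (linftyAlg μ) ε ≤ ((⌊1 / ε⌋₊ + 1 : ℕ) : ℕ∞) :=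
  pavingNumber_bounds linftyAlg_comm (oneVec μ) norm_oneVec linfty_cyclic (linfty_fine hμ) h0

/-- Lebesgue measure on `[0, 1]` has fine partitions. -/
lemma hasFinePartitions_unitInterval :
    HasFinePartitions (volume.restrict (Set.Icc (0 : ℝ) 1)) := by
  intro τ hτ
  obtain ⟨m, hm⟩ := exists_nat_one_div_lt hτ
  set n : ℕ := m + 1 with hn
  have hn0 : (0 : ℝ) < n := by positivity
  refine ⟨n + 1, fun ω => ⟨min ⌊(n : ℝ) * ω⌋₊ n, by omega⟩, ?_, ?_⟩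
  · intro j
    have hmeas : Measurable fun ω : ℝ => min ⌊(n : ℝ) * ω⌋₊ n :=
      (Nat.measurable_floor.comp (measurable_const.mul measurable_id)).min measurable_const
    have : (fun ω : ℝ => (⟨min ⌊(n : ℝ) * ω⌋₊ n, by omega⟩ : Fin (n + 1))) ⁻¹' {j}
        = (fun ω : ℝ => min ⌊(n : ℝ) * ω⌋₊ n) ⁻¹' {(j : ℕ)} := by
      ext ω
      simp [Fin.ext_iff]
    rw [this]
    exact hmeas (measurableSet_singleton _)
  · intro j
    have hsub : (fun ω : ℝ => (⟨min ⌊(n : ℝ) * ω⌋₊ n, by omega⟩ : Fin (n + 1))) ⁻¹' {j}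
        ∩ Set.Icc (0 : ℝ) 1 ⊆ Set.Icc ((j : ℝ) / n) (((j : ℝ) + 1) / n) := by
      rintro ω ⟨hω, hω0, hω1⟩
      have hj : min ⌊(n : ℝ) * ω⌋₊ n = (j : ℕ) := by
        have := congrArg Fin.val hω
        simpa using this
      have hnω : 0 ≤ (n : ℝ) * ω := by positivity
      have hfl : (⌊(n : ℝ) * ω⌋₊ : ℝ) ≤ (n : ℝ) * ω := Nat.floor_le hnω
      have hfl2 : (n : ℝ) * ω < (⌊(n : ℝ) * ω⌋₊ : ℝ) + 1 := Nat.lt_floor_add_one _
      constructor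
      · rw [div_le_iff₀ hn0]
        have : ((j : ℕ) : ℝ) ≤ (⌊(n : ℝ) * ω⌋₊ : ℝ) := by
          exact_mod_cast hj ▸ min_le_left _ _
        linarith
      · rw [le_div_iff₀ hn0]
        rcases le_total ⌊(n : ℝ) * ω⌋₊ n with h | h
        · rw [min_eq_left h] at hj
          rw [← hj]
          linarith
        · rw [min_eq_right h] at hj
          have : ((j : ℕ) : ℝ) = n := by exact_mod_cast hj.symm
          rw [this]
          nlinarith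
    generalize (fun ω : ℝ => (⟨min ⌊(n : ℝ) * ω⌋₊ n, by omega⟩ : Fin (n + 1))) ⁻¹' {j} = Ej
      at hsub ⊢
    have hle : (volume.restrict (Set.Icc (0 : ℝ) 1)) Ej ≤ ENNReal.ofReal (1 / n) := by
      calc (volume.restrict (Set.Icc (0 : ℝ) 1)) Ej
          ≤ volume (Ej ∩ Set.Icc (0 : ℝ) 1) := (Measure.restrict_apply' measurableSet_Icc).le
        _ ≤ volume (Set.Icc ((j : ℝ) / n) (((j : ℝ) + 1) / n)) := measure_mono hsub
        _ = ENNReal.ofReal (1 / n) := by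
            rw [Real.volume_Icc]
            congr 1
            field_simp
            ring
    have h1n : (1 : ℝ) / n < τ := by
      rw [hn]
      push_cast
      exact hm
    calc (volume.restrict (Set.Icc (0 : ℝ) 1)).real Ej
        ≤ (ENNReal.ofReal (1 / n)).toReal := ENNReal.toReal_mono ENNReal.ofReal_ne_top hle
      _ = 1 / n := ENNReal.toReal_ofReal (by positivity)
      _ ≤ τ := h1n.le

theorem pavingNumber_unitInterval {ε : ℝ} (h0 : 0 < ε) :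
    ((⌈1 / ε⌉₊ : ℕ) : ℕ∞) ≤ pavingNumber (allOps (Lp ℂ 2 (volume.restrict (Set.Icc (0 : ℝ) 1))))
        (linftyAlg (volume.restrict (Set.Icc (0 : ℝ) 1))) ε ∧
      pavingNumber (allOps (Lp ℂ 2 (volume.restrict (Set.Icc (0 : ℝ) 1))))
        (linftyAlg (volume.restrict (Set.Icc (0 : ℝ) 1))) ε ≤ ((⌊1 / ε⌋₊ + 1 : ℕ) : ℕ∞) := by
  have : IsProbabilityMeasure (volume.restrict (Set.Icc (0 : ℝ) 1)) := ⟨by simp⟩
  exact pavingNumber_linfty hasFinePartitions_unitInterval h0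

end Concrete

end Vale.Agent.Lib.P078
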