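import Vale.Agent.Lib.P078.Upper
import Vale.Agent.Lib.P078.Coloring2

/-!
# P078 (subtask T4a): a symmetry `u ∈ A` that decorrelates `x` on a step space

Take a partition `g` with `‖g j ξ₀‖ ≤ τ / (∑ i, ‖e i ξ₀‖⁻¹ + 1)`, put `f t = e t.1 * g t.2`
(`t : I × J`), so that `‖f t (hvec e ξ₀ i)‖ ≤ τ`.  For signs `sg t = ±1` let `u = ∑ t, sg t • f t`
and `d = diagOp f x ξ₀`.  The entries of `u x u - d` are quadratic sums in the signs and the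
entries of `x u - u x` are linear sums; `exists_signs` (file `Coloring2.lean`) gives one sign
pattern for which all of them are small.
-/

set_option linter.unusedSectionVars false

namespace Vale.Agent.Lib.P078

open scoped InnerProductSpace

variable {H : Type*} [NormedAddCommGroup H] [InnerProductSpace ℂ H] [CompleteSpace H]
variable {A : StarSubalgebra ℂ (H →L[ℂ] H)}

section Signs

variable {T : Type*} [Fintype T] {f : T → H →L[ℂ] H}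

/-- The symmetry `∑ t, sg t • f t`. -/
noncomputable def signOp (f : T → H →L[ℂ] H) (sg : T → ℂ) : H →L[ℂ] H :=
  ∑ t, sg t • f t

lemma IsPartition.signOp_mem (hf : IsPartition A f) (sg : T → ℂ) : signOp f sg ∈ A :=
  A.sum_mem fun t _ => A.smul_mem (hf.mem t) _

lemma IsPartition.signOp_isSelfAdjoint (hf : IsPartition A f) {sg : T → ℂ}
    (hsg : ∀ t, sg t = 1 ∨ sg t = -1) : IsSelfAdjoint (signOp f sg) := by
  refine isSelfAdjoint_sum _ fun t _ => ?_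
  rw [IsSelfAdjoint, star_smul, (hf.proj t).isSelfAdjoint.star_eq]
  rcases hsg t with h | h <;> simp [h]

lemma IsPartition.signOp_mul_self (hf : IsPartition A f) {sg : T → ℂ}
    (hsg : ∀ t, sg t = 1 ∨ sg t = -1) : signOp f sg * signOp f sg = 1 := by
  classical
  unfold signOp
  rw [Finset.sum_mul_sum, ← hf.sum_eq]
  refine Finset.sum_congr rfl fun s _ => ?_
  rw [Finset.sum_eq_single s]
  · rw [smul_mul_smul_comm, (hf.proj s).isIdempotentElem.eq]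
    rcases hsg s with h | h <;> simp [h]
  · intro t _ ht
    rw [smul_mul_smul_comm, hf.orth s t (Ne.symm ht), smul_zero]
  · intro h
    exact absurd (Finset.mem_univ s) h

lemma signOp_apply (f : T → H →L[ℂ] H) (sg : T → ℂ) (v : H) :
    signOp f sg v = ∑ t, sg t • f t v := by
  simp [signOp]

lemma IsPartition.inner_signOp_left (hf : IsPartition A f) (sg : T → ℂ) (a w : H) :
    ⟪a, signOp f sg w⟫_ℂ = ∑ t, sg t * ⟪f t a, w⟫_ℂ := by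
  rw [signOp_apply, inner_sum]
  refine Finset.sum_congr rfl fun t _ => ?_
  rw [inner_smul_right, sa_inner (hf.proj t).isSelfAdjoint]

lemma IsPartition.inner_conj_signOp (hf : IsPartition A f) (sg : T → ℂ) (x : H →L[ℂ] H)
    (a b : H) :
    ⟪a, (signOp f sg * x * signOp f sg) b⟫_ℂ
      = ∑ s, ∑ t, (sg s * sg t) * ⟪f s a, x (f t b)⟫_ℂ := by
  simp only [mul_apply_eq_comp]
  rw [hf.inner_signOp_left]
  refine Finset.sum_congr rfl fun s _ => ?_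
  rw [signOp_apply, map_sum, inner_sum, Finset.mul_sum]
  refine Finset.sum_congr rfl fun t _ => ?_
  rw [map_smul, inner_smul_right]
  ring

/-- The entries of `u x u - d`. -/
lemma IsPartition.entry_conj_sub [DecidableEq T] (hf : IsPartition A f) {x : H →L[ℂ] H}
    (hx : IsSelfAdjoint x) (sg : T → ℂ) (ξ₀ a b : H) (μ μ' : T → ℂ)
    (ha : ∀ t, f t a = μ t • f t ξ₀) (hb : ∀ t, f t b = μ' t • f t ξ₀) :
    ⟪a, (signOp f sg * x * signOp f sg - diagOp f x ξ₀) b⟫_ℂ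
      = ∑ s, ∑ t, (sg s * sg t - (if s = t then 1 else 0)) * ⟪f s a, x (f t b)⟫_ℂ := by
  rw [sub_apply, inner_sub_right, hf.inner_conj_signOp, hf.inner_diagOp hx ξ₀ a b μ μ' ha hb,
    ← Finset.sum_sub_distrib]
  refine Finset.sum_congr rfl fun s _ => ?_
  have h1 : ⟪f s a, x (f s b)⟫_ℂ = ∑ t, (if s = t then (1 : ℂ) else 0) * ⟪f s a, x (f t b)⟫_ℂ := by
    simp
  rw [h1, ← Finset.sum_sub_distrib]
  refine Finset.sum_congr rfl fun t _ => ?_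
  ring

/-- The entries of `x u - u x`. -/
lemma IsPartition.entry_comm (hf : IsPartition A f) (x : H →L[ℂ] H) (sg : T → ℂ) (a b : H) :
    ⟪a, (x * signOp f sg - signOp f sg * x) b⟫_ℂ
      = ∑ t, sg t * (⟪a, x (f t b)⟫_ℂ - ⟪f t a, x b⟫_ℂ) := by
  rw [sub_apply, inner_sub_right]
  simp only [mul_apply_eq_comp]
  rw [hf.inner_signOp_left, signOp_apply, map_sum, inner_sum, ← Finset.sum_sub_distrib]
  refine Finset.sum_congr rfl fun t _ => ?_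
  rw [map_smul, inner_smul_right]
  ring

lemma IsPartition.sum_sq_inner_le (hf : IsPartition A f) (a w : H) {τ : ℝ}
    (hτ : ∀ t, ‖f t a‖ ≤ τ) : ∑ t, ‖⟪f t a, w⟫_ℂ‖ ^ 2 ≤ τ ^ 2 * ‖w‖ ^ 2 := by
  calc ∑ t, ‖⟪f t a, w⟫_ℂ‖ ^ 2 ≤ ∑ t, τ ^ 2 * ‖f t w‖ ^ 2 := by
        refine Finset.sum_le_sum fun t _ => ?_
        have : ‖⟪f t a, w⟫_ℂ‖ ≤ τ * ‖f t w‖ := by
          rw [proj_inner_left (hf.proj t)]
          calc ‖⟪f t a, f t w⟫_ℂ‖ ≤ ‖f t a‖ * ‖f t w‖ := norm_inner_le_norm _ _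
            _ ≤ τ * ‖f t w‖ := by gcongr; exact hτ t
        calc ‖⟪f t a, w⟫_ℂ‖ ^ 2 ≤ (τ * ‖f t w‖) ^ 2 := by gcongr
          _ = τ ^ 2 * ‖f t w‖ ^ 2 := mul_pow _ _ _
    _ = τ ^ 2 * ‖w‖ ^ 2 := by rw [← Finset.mul_sum, hf.parseval]

/-- Sum of squares of the linear coefficients. -/
lemma IsPartition.sum_sq_comm_le (hf : IsPartition A f) {x : H →L[ℂ] H} (hx : IsSelfAdjoint x)
    (a b : H) (ha1 : ‖a‖ ≤ 1) (hb1 : ‖b‖ ≤ 1) {τ : ℝ} (ha : ∀ t, ‖f t a‖ ≤ τ)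
    (hb : ∀ t, ‖f t b‖ ≤ τ) :
    ∑ t, ‖⟪a, x (f t b)⟫_ℂ - ⟪f t a, x b⟫_ℂ‖ ^ 2 ≤ 4 * (τ ^ 2 * ‖x‖ ^ 2) := by
  have h1 : ∑ t, ‖⟪f t a, x b⟫_ℂ‖ ^ 2 ≤ τ ^ 2 * ‖x‖ ^ 2 := by
    refine (hf.sum_sq_inner_le a (x b) ha).trans ?_
    have : ‖x b‖ ≤ ‖x‖ := by
      calc ‖x b‖ ≤ ‖x‖ * ‖b‖ := x.le_opNorm _
        _ ≤ ‖x‖ * 1 := by gcongr
        _ = ‖x‖ := mul_one _
    gcongr
  have h2 : ∑ t, ‖⟪a, x (f t b)⟫_ℂ‖ ^ 2 ≤ τ ^ 2 * ‖x‖ ^ 2 := by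
    have h3 : ∀ t, ‖⟪a, x (f t b)⟫_ℂ‖ = ‖⟪f t b, x a⟫_ℂ‖ := by
      intro t
      rw [← sa_inner hx, ← inner_conj_symm, RCLike.norm_conj]
    simp only [h3]
    refine (hf.sum_sq_inner_le b (x a) hb).trans ?_
    have : ‖x a‖ ≤ ‖x‖ := by
      calc ‖x a‖ ≤ ‖x‖ * ‖a‖ := x.le_opNorm _
        _ ≤ ‖x‖ * 1 := by gcongr
        _ = ‖x‖ := mul_one _
    gcongr
  calc ∑ t, ‖⟪a, x (f t b)⟫_ℂ - ⟪f t a, x b⟫_ℂ‖ ^ 2
      ≤ ∑ t, (2 * ‖⟪a, x (f t b)⟫_ℂ‖ ^ 2 + 2 * ‖⟪f t a, x b⟫_ℂ‖ ^ 2) := by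
        refine Finset.sum_le_sum fun t _ => ?_
        have h4 := norm_sub_le ⟪a, x (f t b)⟫_ℂ ⟪f t a, x b⟫_ℂ
        have hY := norm_nonneg (⟪a, x (f t b)⟫_ℂ - ⟪f t a, x b⟫_ℂ)
        generalize ‖⟪a, x (f t b)⟫_ℂ - ⟪f t a, x b⟫_ℂ‖ = Y at h4 hY ⊢
        have hp := norm_nonneg ⟪a, x (f t b)⟫_ℂ
        have hq := norm_nonneg ⟪f t a, x b⟫_ℂ
        generalize ‖⟪a, x (f t b)⟫_ℂ‖ = P at h4 hp ⊢
        generalize ‖⟪f t a, x b⟫_ℂ‖ = Q at h4 hq ⊢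
        nlinarith [sq_nonneg (P - Q)]
    _ = 2 * ∑ t, ‖⟪a, x (f t b)⟫_ℂ‖ ^ 2 + 2 * ∑ t, ‖⟪f t a, x b⟫_ℂ‖ ^ 2 := by
        rw [Finset.sum_add_distrib, ← Finset.mul_sum, ← Finset.mul_sum]
    _ ≤ 4 * (τ ^ 2 * ‖x‖ ^ 2) := by linarith

lemma aux_bound {Y SQ SL S2 S3 N τ X : ℝ} (hY : Y ^ 2 ≤ SQ + SL)
    (hsum : SQ + SL ≤ 8 * (S2 + S3)) (h2 : S2 ≤ N ^ 2 * (τ ^ 2 * X ^ 2))
    (h3 : S3 ≤ N ^ 2 * (4 * (τ ^ 2 * X ^ 2))) (hN0 : 0 ≤ N) (hτ : 0 ≤ τ) (hX : 0 ≤ X) :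
    Y ≤ 8 * N * τ * X := by
  have hN : 0 ≤ N ^ 2 * (τ ^ 2 * X ^ 2) := by positivity
  have h4 : Y ^ 2 ≤ (8 * N * τ * X) ^ 2 := by nlinarith
  exact (abs_le_of_sq_le_sq' h4 (by positivity)).2

lemma IsPartition.sum_sum_sq_entries_le (hf : IsPartition A f) (x : H →L[ℂ] H) {I : Type*}
    [Fintype I] (h : I → H) (hh : ∀ i, ‖h i‖ ≤ 1) {τ : ℝ} (hτ : ∀ i t, ‖f t (h i)‖ ≤ τ) :
    ∑ ii : I × I, ∑ s, ∑ t, ‖⟪f s (h ii.1), x (f t (h ii.2))⟫_ℂ‖ ^ 2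
      ≤ (Fintype.card I : ℝ) ^ 2 * (τ ^ 2 * ‖x‖ ^ 2) := by
  calc ∑ ii : I × I, ∑ s, ∑ t, ‖⟪f s (h ii.1), x (f t (h ii.2))⟫_ℂ‖ ^ 2
      ≤ ∑ _ii : I × I, τ ^ 2 * ‖x‖ ^ 2 := by
        refine Finset.sum_le_sum fun ii _ => ?_
        refine (hf.sum_sq_entries_le x _ _ (hτ ii.1)).trans ?_
        have hh2 : ‖h ii.2‖ ^ 2 ≤ 1 := by
          have := hh ii.2
          nlinarith [norm_nonneg (h ii.2)]
        have hx2 : 0 ≤ ‖x‖ ^ 2 := by positivity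
        have : ‖x‖ ^ 2 * ‖h ii.2‖ ^ 2 ≤ ‖x‖ ^ 2 := by nlinarith
        gcongr
    _ = (Fintype.card I : ℝ) ^ 2 * (τ ^ 2 * ‖x‖ ^ 2) := by
        rw [Finset.sum_const, Finset.card_univ, Fintype.card_prod, nsmul_eq_mul]
        push_cast
        ring

lemma IsPartition.sum_sum_sq_comm_le (hf : IsPartition A f) {x : H →L[ℂ] H}
    (hx : IsSelfAdjoint x) {I : Type*} [Fintype I] (h : I → H) (hh : ∀ i, ‖h i‖ ≤ 1) {τ : ℝ}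
    (hτ : ∀ i t, ‖f t (h i)‖ ≤ τ) :
    ∑ ii : I × I, ∑ t, ‖⟪h ii.1, x (f t (h ii.2))⟫_ℂ - ⟪f t (h ii.1), x (h ii.2)⟫_ℂ‖ ^ 2
      ≤ (Fintype.card I : ℝ) ^ 2 * (4 * (τ ^ 2 * ‖x‖ ^ 2)) := by
  calc ∑ ii : I × I, ∑ t, ‖⟪h ii.1, x (f t (h ii.2))⟫_ℂ - ⟪f t (h ii.1), x (h ii.2)⟫_ℂ‖ ^ 2
      ≤ ∑ _ii : I × I, 4 * (τ ^ 2 * ‖x‖ ^ 2) :=
        Finset.sum_le_sum fun ii _ =>
          hf.sum_sq_comm_le hx _ _ (hh ii.1) (hh ii.2) (hτ ii.1) (hτ ii.2)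
    _ = (Fintype.card I : ℝ) ^ 2 * (4 * (τ ^ 2 * ‖x‖ ^ 2)) := by
        rw [Finset.sum_const, Finset.card_univ, Fintype.card_prod, nsmul_eq_mul]
        push_cast
        ring

lemma sq_le_sum_add_left {K : Type*} [Fintype K] (F G : K → ℝ) (k : K) :
    F k ^ 2 ≤ ∑ k, F k ^ 2 + ∑ k, G k ^ 2 := by
  have h1 : F k ^ 2 ≤ ∑ k, F k ^ 2 :=
    Finset.single_le_sum (s := Finset.univ) (f := fun k => F k ^ 2) (fun _ _ => sq_nonneg _)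
      (Finset.mem_univ k)
  have h2 : 0 ≤ ∑ k, G k ^ 2 := Finset.sum_nonneg fun _ _ => sq_nonneg _
  linarith

lemma sq_le_sum_add_right {K : Type*} [Fintype K] (F G : K → ℝ) (k : K) :
    G k ^ 2 ≤ ∑ k, F k ^ 2 + ∑ k, G k ^ 2 := by
  have h1 : G k ^ 2 ≤ ∑ k, G k ^ 2 :=
    Finset.single_le_sum (s := Finset.univ) (f := fun k => G k ^ 2) (fun _ _ => sq_nonneg _)
      (Finset.mem_univ k)
  have h2 : 0 ≤ ∑ k, F k ^ 2 := Finset.sum_nonneg fun _ _ => sq_nonneg _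
  linarith

/-- One sign pattern for which all entries of `u x u - d` and of `x u - u x` are small. -/
lemma exists_signs_entries [DecidableEq T] (hf : IsPartition A f) {x : H →L[ℂ] H}
    (hx : IsSelfAdjoint x) {I : Type*} [Fintype I] (h : I → H) (hh : ∀ i, ‖h i‖ ≤ 1) {τ : ℝ}
    (hτ0 : 0 ≤ τ) (hτ : ∀ i t, ‖f t (h i)‖ ≤ τ) :
    ∃ sg : T → ℂ, (∀ t, sg t = 1 ∨ sg t = -1) ∧
      (∀ i i', ‖∑ s, ∑ t, (sg s * sg t - (if s = t then 1 else 0)) *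
          ⟪f s (h i), x (f t (h i'))⟫_ℂ‖ ≤ 8 * (Fintype.card I : ℝ) * τ * ‖x‖) ∧
      (∀ i i', ‖∑ t, sg t * (⟪h i, x (f t (h i'))⟫_ℂ - ⟪f t (h i), x (h i')⟫_ℂ)‖
          ≤ 8 * (Fintype.card I : ℝ) * τ * ‖x‖) := by
  obtain ⟨sg, hsg, hsum⟩ := exists_signs (T := T) (I := I × I) (K := I × I)
    (fun ii s t => ⟪f s (h ii.1), x (f t (h ii.2))⟫_ℂ)
    (fun ii t => ⟪h ii.1, x (f t (h ii.2))⟫_ℂ - ⟪f t (h ii.1), x (h ii.2)⟫_ℂ)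
  have hN0 : (0 : ℝ) ≤ (Fintype.card I : ℝ) := by positivity
  have h2 := hf.sum_sum_sq_entries_le x h hh hτ
  have h3 := hf.sum_sum_sq_comm_le hx h hh hτ
  refine ⟨sg, hsg, fun i i' => ?_, fun i i' => ?_⟩
  · exact aux_bound (sq_le_sum_add_left
      (fun ii : I × I => ‖∑ s, ∑ t, (sg s * sg t - (if s = t then 1 else 0)) *
          ⟪f s (h ii.1), x (f t (h ii.2))⟫_ℂ‖)
      (fun ii : I × I => ‖∑ t, sg t *
          (⟪h ii.1, x (f t (h ii.2))⟫_ℂ - ⟪f t (h ii.1), x (h ii.2)⟫_ℂ)‖) (i, i'))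
      hsum h2 h3 hN0 hτ0 (norm_nonneg x)
  · exact aux_bound (sq_le_sum_add_right
      (fun ii : I × I => ‖∑ s, ∑ t, (sg s * sg t - (if s = t then 1 else 0)) *
          ⟪f s (h ii.1), x (f t (h ii.2))⟫_ℂ‖)
      (fun ii : I × I => ‖∑ t, sg t *
          (⟪h ii.1, x (f t (h ii.2))⟫_ℂ - ⟪f t (h ii.1), x (h ii.2)⟫_ℂ)‖) (i, i'))
      hsum h2 h3 hN0 hτ0 (norm_nonneg x)

end Signs

theorem exists_rotation (hA : ∀ a ∈ A, ∀ b ∈ A, a * b = b * a) {I : Type*} [Fintype I]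
    {e : I → H →L[ℂ] H} (he : IsPartition A e) (ξ₀ : H)
    (hfine : ∀ τ : ℝ, 0 < τ → ∃ (ι : Type) (_ : Fintype ι) (g : ι → H →L[ℂ] H),
      IsPartition A g ∧ ∀ j, ‖g j ξ₀‖ ≤ τ)
    {x : H →L[ℂ] H} (hx : IsSelfAdjoint x) {η : ℝ} (hη : 0 < η) :
    ∃ u d : H →L[ℂ] H, u ∈ A ∧ IsSelfAdjoint u ∧ u * u = 1 ∧ d ∈ A ∧ IsSelfAdjoint d ∧ ‖d‖ ≤ ‖x‖ ∧
      ‖stepProj e ξ₀ * (u * x * u - d) * stepProj e ξ₀‖ ≤ η * ‖x‖ ∧
      ‖stepProj e ξ₀ * (x * u - u * x) * stepProj e ξ₀‖ ≤ η * ‖x‖ := by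
  classical
  have hN0 : (0 : ℝ) ≤ (Fintype.card I : ℝ) := by positivity
  have hΛ0 : 0 ≤ ∑ i, ‖e i ξ₀‖⁻¹ := Finset.sum_nonneg fun _ _ => by positivity
  obtain ⟨τ, hτ0, hτN⟩ : ∃ τ : ℝ, 0 < τ ∧ 8 * (Fintype.card I : ℝ) ^ 3 * τ ≤ η := by
    refine ⟨η / (8 * (Fintype.card I : ℝ) ^ 3 + 1), by positivity, ?_⟩
    have h1 : 0 < 8 * (Fintype.card I : ℝ) ^ 3 + 1 := by positivity
    rw [← mul_div_assoc, div_le_iff₀ h1]
    nlinarith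
  obtain ⟨J, _, g, hg, hgτ⟩ := hfine (τ / ((∑ i, ‖e i ξ₀‖⁻¹) + 1)) (by positivity)
  have hf : IsPartition A (fun t : I × J => e t.1 * g t.2) := he.prod hA hg
  obtain ⟨sg, hsg, hq, hl⟩ := exists_signs_entries hf hx (hvec e ξ₀) (norm_hvec_le e ξ₀) hτ0.le
    (norm_prod_apply_hvec_le hA he hg ξ₀ hτ0.le hgτ)
  have hfin : ∑ _i : I, ∑ _i' : I, 8 * (Fintype.card I : ℝ) * τ * ‖x‖ ≤ η * ‖x‖ := by
    simp only [Finset.sum_const, Finset.card_univ, nsmul_eq_mul]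
    calc (Fintype.card I : ℝ) * ((Fintype.card I : ℝ) * (8 * (Fintype.card I : ℝ) * τ * ‖x‖))
        = (8 * (Fintype.card I : ℝ) ^ 3 * τ) * ‖x‖ := by ring
      _ ≤ η * ‖x‖ := by gcongr
  refine ⟨signOp (fun t : I × J => e t.1 * g t.2) sg, diagOp (fun t : I × J => e t.1 * g t.2) x ξ₀,
    hf.signOp_mem sg, hf.signOp_isSelfAdjoint hsg, hf.signOp_mul_self hsg, hf.diagOp_mem x ξ₀,
    hf.diagOp_isSelfAdjoint x ξ₀, hf.norm_diagOp_le x ξ₀, ?_, ?_⟩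
  · refine ((norm_compress_le ξ₀ _).trans ?_).trans hfin
    refine Finset.sum_le_sum fun i _ => Finset.sum_le_sum fun i' _ => ?_
    rw [hf.entry_conj_sub hx sg ξ₀ _ _ _ _ (prod_apply_hvec hA he hg ξ₀ i)
      (prod_apply_hvec hA he hg ξ₀ i')]
    exact hq i i'
  · refine ((norm_compress_le ξ₀ _).trans ?_).trans hfin
    refine Finset.sum_le_sum fun i _ => Finset.sum_le_sum fun i' _ => ?_
    rw [hf.entry_comm x sg]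
    exact hl i i'

end Vale.Agent.Lib.P078
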