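import Vale.Agent.Lib.P078.Basic

/-!
# P078 (subtask T1): a MASA of `B(H)` is generated by its projections

Proof.  For a self-adjoint `b` of `A` let `E` be the projection onto the kernel of the positive part of `b`
and `e = 1 - E`; then `e` lies in `A`, `b * e` is the positive part and `b * (1 - e)` is minus the negative
part.  Hence if `0 ≤ a ≤ c` in `A`, there is a projection `e` of `A` with `0 ≤ a - (c/2) e ≤ c/2`
(dyadic expansion).  As `T` commutes with `e`, the commutator of `a` with `T` equals the one of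
`a - (c/2) e`; by induction its norm is at most `2 ‖T‖ c / 2 ^ n` for all `n`, so it vanishes.
-/

namespace Vale.Agent.Lib.P078

variable {H : Type*} [NormedAddCommGroup H] [InnerProductSpace ℂ H] [CompleteSpace H]

/-- The projection onto the kernel of `y`. -/
lemma exists_ker_proj (y : H →L[ℂ] H) : ∃ E : H →L[ℂ] H, IsStarProjection E ∧ y * E = 0 ∧
    ∀ z : H →L[ℂ] H, y * z = 0 → E * z = z := by
  let K : Submodule ℂ H := LinearMap.ker (y : H →ₗ[ℂ] H)
  have hcl : IsClosed (K : Set H) := y.isClosed_ker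
  have : CompleteSpace K := hcl.completeSpace_coe
  refine ⟨K.starProjection, isStarProjection_starProjection, ?_, ?_⟩
  · ext v
    have : K.starProjection v ∈ K := Submodule.starProjection_apply_mem K v
    exact LinearMap.mem_ker.mp this
  · intro z hz
    ext v
    have h1 : y (z v) = 0 := by
      have := congrArg (fun L : H →L[ℂ] H => L v) hz
      simpa using this
    have h2 : z v ∈ K := LinearMap.mem_ker.mpr h1
    exact Submodule.starProjection_eq_self_iff.mpr h2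

lemma ker_proj_commute {y E x : H →L[ℂ] H} (hE : IsStarProjection E) (h0 : y * E = 0)
    (hu : ∀ z : H →L[ℂ] H, y * z = 0 → E * z = z) (h1 : x * y = y * x)
    (h2 : star x * y = y * star x) : x * E = E * x := by
  have hs : star E = E := hE.isSelfAdjoint.star_eq
  have e1 : E * (x * E) = x * E := by
    apply hu
    rw [← mul_assoc, ← h1, mul_assoc, h0, mul_zero]
  have e2 : E * (star x * E) = star x * E := by
    apply hu
    rw [← mul_assoc, ← h2, mul_assoc, h0, mul_zero]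
  have e3 : E * x * E = E * x := by
    have := congrArg star e2
    simpa [star_mul, hs, mul_assoc] using this
  rw [← e1, ← e3, mul_assoc]

/-- Splitting a self-adjoint element of a MASA by a projection of the MASA. -/
lemma exists_split {A : StarSubalgebra ℂ (H →L[ℂ] H)}
    (hA : ∀ a ∈ A, ∀ b ∈ A, a * b = b * a)
    (hmax : ∀ x : H →L[ℂ] H, (∀ a ∈ A, a * x = x * a) → x ∈ A)
    {b : H →L[ℂ] H} (hb : b ∈ A) (hsa : IsSelfAdjoint b) :
    ∃ e ∈ A, IsStarProjection e ∧ 0 ≤ b * e ∧ 0 ≤ -(b * (1 - e)) := by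
  obtain ⟨E, hE, h0, hu⟩ := exists_ker_proj (b⁺)
  have hs : star E = E := hE.isSelfAdjoint.star_eq
  have hcomm : ∀ x ∈ A, x * b⁺ = b⁺ * x := by
    intro x hx
    have h1 : Commute b x := hA b hb x hx
    have h2 : Commute (b⁺) x := by
      rw [CFC.posPart_def]
      exact h1.cfcₙ_real _
    exact h2.eq.symm
  have hEA : E ∈ A := by
    apply hmax
    intro x hx
    exact ker_proj_commute hE h0 hu (hcomm x hx) (hcomm _ (star_mem hx))
  have h3 : E * b⁻ = b⁻ := hu _ (CFC.posPart_mul_negPart b)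
  have h4 : b⁻ * E = b⁻ := by
    have hn : star (b⁻) = b⁻ := (CFC.negPart_nonneg b).isSelfAdjoint.star_eq
    have := congrArg star h3
    simpa [star_mul, hs, hn] using this
  have hdec : b⁺ - b⁻ = b := CFC.posPart_sub_negPart b hsa
  refine ⟨1 - E, A.sub_mem A.one_mem hEA, hE.one_sub, ?_, ?_⟩
  · have : b * (1 - E) = b⁺ := by
      conv_lhs => rw [← hdec]
      rw [mul_sub, mul_one, sub_mul, h0, h4]
      abel
    rw [this]
    exact CFC.posPart_nonneg b
  · have : -(b * (1 - (1 - E))) = b⁻ := by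
      conv_lhs => rw [← hdec]
      rw [sub_sub_cancel, sub_mul, h0, h4]
      abel
    rw [this]
    exact CFC.negPart_nonneg b

lemma nonneg_mul_proj {a e : H →L[ℂ] H} (ha : 0 ≤ a) (he : IsStarProjection e)
    (hc : a * e = e * a) : 0 ≤ a * e := by
  have h1 : a * e = star e * a * e := by
    rw [he.isSelfAdjoint.star_eq, ← hc, mul_assoc, he.isIdempotentElem.eq]
  rw [h1]
  exact star_left_conjugate_nonneg ha e

/-- One dyadic step. -/
lemma exists_dyadic {A : StarSubalgebra ℂ (H →L[ℂ] H)}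
    (hA : ∀ a ∈ A, ∀ b ∈ A, a * b = b * a)
    (hmax : ∀ x : H →L[ℂ] H, (∀ a ∈ A, a * x = x * a) → x ∈ A)
    {a : H →L[ℂ] H} {c : ℝ} (ha : a ∈ A) (h0 : 0 ≤ a) (h1 : a ≤ (c : ℂ) • (1 : H →L[ℂ] H)) :
    ∃ e ∈ A, IsStarProjection e ∧ 0 ≤ a - ((c / 2 : ℝ) : ℂ) • e ∧
      a - ((c / 2 : ℝ) : ℂ) • e ≤ ((c / 2 : ℝ) : ℂ) • (1 : H →L[ℂ] H) := by
  have hone : IsSelfAdjoint (((c / 2 : ℝ) : ℂ) • (1 : H →L[ℂ] H)) := by
    rw [IsSelfAdjoint, star_smul, star_one]
    simp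
  have hbA : a - ((c / 2 : ℝ) : ℂ) • (1 : H →L[ℂ] H) ∈ A :=
    A.sub_mem ha (A.smul_mem A.one_mem _)
  obtain ⟨e, heA, he, hp, hn⟩ := exists_split hA hmax hbA (h0.isSelfAdjoint.sub hone)
  refine ⟨e, heA, he, ?_, ?_⟩
  · have h2 : 0 ≤ a * (1 - e) :=
      nonneg_mul_proj h0 he.one_sub (hA a ha _ (A.sub_mem A.one_mem heA))
    have h3 : a - ((c / 2 : ℝ) : ℂ) • e
        = a * (1 - e) + (a - ((c / 2 : ℝ) : ℂ) • (1 : H →L[ℂ] H)) * e := by
      rw [mul_sub, sub_mul, mul_one, smul_mul_assoc, one_mul]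
      abel
    rw [h3]
    exact add_nonneg h2 hp
  · have h2 : 0 ≤ ((c : ℂ) • (1 : H →L[ℂ] H) - a) * e :=
      nonneg_mul_proj (sub_nonneg.mpr h1) he
        (hA _ (A.sub_mem (A.smul_mem A.one_mem _) ha) _ heA)
    have h3 : ((c / 2 : ℝ) : ℂ) • (1 : H →L[ℂ] H) - (a - ((c / 2 : ℝ) : ℂ) • e)
        = -((a - ((c / 2 : ℝ) : ℂ) • (1 : H →L[ℂ] H)) * (1 - e))
          + ((c : ℂ) • (1 : H →L[ℂ] H) - a) * e := by
      have hc : (c : ℂ) = ((c / 2 : ℝ) : ℂ) + ((c / 2 : ℝ) : ℂ) := by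
        push_cast
        ring
      rw [hc, add_smul]
      simp only [mul_sub, sub_mul, mul_one, smul_mul_assoc, one_mul, add_mul]
      abel
    rw [← sub_nonneg, h3]
    exact add_nonneg hn h2

lemma norm_le_of_between {a : H →L[ℂ] H} {c : ℝ} (h0 : 0 ≤ a)
    (h1 : a ≤ (c : ℂ) • (1 : H →L[ℂ] H)) : ‖a‖ ≤ |c| := by
  have h2 := CStarAlgebra.norm_le_norm_of_nonneg_of_le h0 h1
  refine h2.trans ?_
  rw [norm_smul]
  have : ‖(1 : H →L[ℂ] H)‖ ≤ 1 := ContinuousLinearMap.norm_id_le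
  calc ‖(c : ℂ)‖ * ‖(1 : H →L[ℂ] H)‖ ≤ ‖(c : ℂ)‖ * 1 := by gcongr
    _ = |c| := by simp

lemma norm_comm_le {A : StarSubalgebra ℂ (H →L[ℂ] H)}
    (hA : ∀ a ∈ A, ∀ b ∈ A, a * b = b * a)
    (hmax : ∀ x : H →L[ℂ] H, (∀ a ∈ A, a * x = x * a) → x ∈ A)
    (T : H →L[ℂ] H) (hT : ∀ e ∈ A, IsStarProjection e → e * T = T * e) (n : ℕ) :
    ∀ (a : H →L[ℂ] H) (c : ℝ), a ∈ A → 0 ≤ a → a ≤ (c : ℂ) • (1 : H →L[ℂ] H) →
      ‖a * T - T * a‖ ≤ 2 * ‖T‖ * |c| / 2 ^ n := by
  induction n with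
  | zero =>
    intro a c _ h0 h1
    have h2 := norm_le_of_between h0 h1
    calc ‖a * T - T * a‖ ≤ ‖a * T‖ + ‖T * a‖ := norm_sub_le _ _
      _ ≤ ‖a‖ * ‖T‖ + ‖T‖ * ‖a‖ := add_le_add (norm_mul_le _ _) (norm_mul_le _ _)
      _ = 2 * ‖T‖ * ‖a‖ := by ring
      _ ≤ 2 * ‖T‖ * |c| := by gcongr
      _ = 2 * ‖T‖ * |c| / 2 ^ 0 := by simp
  | succ n ih =>
    intro a c ha h0 h1
    obtain ⟨e, heA, he, h2, h3⟩ := exists_dyadic hA hmax ha h0 h1
    have h4 := ih _ (c / 2) (A.sub_mem ha (A.smul_mem heA _)) h2 h3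
    have h5 : (a - ((c / 2 : ℝ) : ℂ) • e) * T - T * (a - ((c / 2 : ℝ) : ℂ) • e)
        = a * T - T * a := by
      rw [sub_mul, mul_sub, smul_mul_assoc, mul_smul_comm, hT e heA he]
      abel
    rw [h5] at h4
    refine h4.trans (le_of_eq ?_)
    rw [abs_div, pow_succ]
    simp only [abs_two]
    field_simp

lemma comm_of_nonneg {A : StarSubalgebra ℂ (H →L[ℂ] H)}
    (hA : ∀ a ∈ A, ∀ b ∈ A, a * b = b * a)
    (hmax : ∀ x : H →L[ℂ] H, (∀ a ∈ A, a * x = x * a) → x ∈ A)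
    (T : H →L[ℂ] H) (hT : ∀ e ∈ A, IsStarProjection e → e * T = T * e)
    {a : H →L[ℂ] H} (ha : a ∈ A) (h0 : 0 ≤ a) : a * T = T * a := by
  have h1 : a ≤ ((‖a‖ : ℝ) : ℂ) • (1 : H →L[ℂ] H) := by
    have := IsSelfAdjoint.le_algebraMap_norm_self h0.isSelfAdjoint
    rw [Algebra.algebraMap_eq_smul_one] at this
    simpa using this
  have h2 : ∀ n : ℕ, ‖a * T - T * a‖ ≤ 2 * ‖T‖ * |‖a‖| / 2 ^ n := fun n =>
    norm_comm_le hA hmax T hT n a ‖a‖ ha h0 h1
  have h3 : Filter.Tendsto (fun n : ℕ => 2 * ‖T‖ * |‖a‖| / 2 ^ n) Filter.atTop (nhds 0) := by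
    have := tendsto_pow_atTop_nhds_zero_of_lt_one (r := (1 / 2 : ℝ)) (by norm_num) (by norm_num)
    have h := this.const_mul (2 * ‖T‖ * |‖a‖|)
    simp only [mul_zero] at h
    refine h.congr fun n => ?_
    rw [one_div, inv_pow, div_eq_mul_inv]
  have h4 : ‖a * T - T * a‖ ≤ 0 := ge_of_tendsto' h3 h2
  exact sub_eq_zero.mp (norm_le_zero_iff.mp h4)

/-- In a MASA `A` of `B(H)`, an operator commuting with all projections of `A` commutes with `A`. -/
theorem commute_of_commute_projections {A : StarSubalgebra ℂ (H →L[ℂ] H)}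
    (hA : ∀ a ∈ A, ∀ b ∈ A, a * b = b * a)
    (hmax : ∀ x : H →L[ℂ] H, (∀ a ∈ A, a * x = x * a) → x ∈ A)
    (T : H →L[ℂ] H) (hT : ∀ e ∈ A, IsStarProjection e → e * T = T * e) :
    ∀ a ∈ A, a * T = T * a := by
  have hsa : ∀ b ∈ A, IsSelfAdjoint b → b * T = T * b := by
    intro b hb hs
    have hcomm : ∀ x ∈ A, x * b⁺ = b⁺ * x ∧ x * b⁻ = b⁻ * x := by
      intro x hx
      have h1 : Commute b x := hA b hb x hx
      have h2 : Commute (b⁺) x := by
        rw [CFC.posPart_def]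
        exact h1.cfcₙ_real _
      have h3 : Commute (b⁻) x := by
        rw [CFC.negPart_def]
        exact h1.cfcₙ_real _
      exact ⟨h2.eq.symm, h3.eq.symm⟩
    have hp : b⁺ ∈ A := hmax _ fun x hx => (hcomm x hx).1
    have hn : b⁻ ∈ A := hmax _ fun x hx => (hcomm x hx).2
    have e1 := comm_of_nonneg hA hmax T hT hp (CFC.posPart_nonneg b)
    have e2 := comm_of_nonneg hA hmax T hT hn (CFC.negPart_nonneg b)
    rw [← CFC.posPart_sub_negPart b hs, sub_mul, mul_sub, e1, e2]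
  intro a ha
  have hst : star a ∈ A := star_mem ha
  have hre : (realPart a : H →L[ℂ] H) ∈ A := by
    rw [realPart_apply_coe]
    exact A.smul_mem (A.add_mem ha hst) _
  have him : (imaginaryPart a : H →L[ℂ] H) ∈ A := by
    rw [imaginaryPart_apply_coe]
    exact A.smul_mem (A.smul_mem (A.sub_mem ha hst) _) _
  have e1 := hsa _ hre (realPart a).2
  have e2 := hsa _ him (imaginaryPart a).2
  conv_lhs => rw [← realPart_add_I_smul_imaginaryPart a]
  conv_rhs => rw [← realPart_add_I_smul_imaginaryPart a]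
  rw [add_mul, mul_add, smul_mul_assoc, mul_smul_comm, e1, e2]

end Vale.Agent.Lib.P078
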